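import Vale.Agent.P290.Defs

/-! Parameter integrals and division. -/

open Set Filter Metric
open scoped Manifold ContDiff Topology

noncomputable section

namespace Vale.Agent.P290

variable {E : Type} [NormedAddCommGroup E] [NormedSpace ℂ E] [FiniteDimensional ℂ E]

theorem analytic_integral {F : Type} [NormedAddCommGroup F] [NormedSpace ℂ F] [CompleteSpace F]
    {H : E × ℂ → F} {γ : ℝ → ℂ} (hγ : Continuous γ) {α β : ℝ} {z : E}
    (hH : ∀ s ∈ uIcc α β, AnalyticAt ℂ H (z, γ s)) :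
    AnalyticAt ℂ (fun w => ∫ s in α..β, H (w, γ s)) z := by
  have := FiniteDimensional.proper ℂ E
  have hc : Continuous fun v : E × ℝ => (v.1, γ v.2) := by fun_prop
  have h1 : ∀ᶠ w in 𝓝 z, ∀ s ∈ uIcc α β, AnalyticAt ℂ H (w, γ s) :=
    isCompact_uIcc.eventually_forall_of_forall_eventually fun s hs =>
      (hc.tendsto (z, s)).eventually (hH s hs).eventually_analyticAt
  obtain ⟨r, hr, hb⟩ := nhds_basis_closedBall.eventually_iff.1 h1
  have h2 : ContinuousOn (fun v : E × ℝ => fderiv ℂ H (v.1, γ v.2)) (closedBall z r ×ˢ uIcc α β) :=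
    fun v hv => (ContinuousAt.comp (f := fun v : E × ℝ => (v.1, γ v.2))
      (hb hv.1 v.2 hv.2).fderiv.continuousAt hc.continuousAt).continuousWithinAt
  obtain ⟨M, hM⟩ := ((isCompact_closedBall z r).prod isCompact_uIcc).exists_bound_of_continuousOn h2
  have h3 : ∀ w ∈ ball z r, ContinuousOn (fun s => H (w, γ s)) (uIcc α β) := fun w hw s hs =>
    (ContinuousAt.comp (f := fun s : ℝ => (w, γ s))
      (hb (ball_subset_closedBall hw) s hs).continuousAt (by fun_prop)).continuousWithinAt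
  refine P278F.analyticAt_of_eventually ?_
  filter_upwards [ball_mem_nhds z hr] with w hw
  refine (intervalIntegral.hasFDerivAt_integral_of_dominated_of_fderiv_le (𝕜 := ℂ)
    (F := fun w s => H (w, γ s))
    (F' := fun w s => (fderiv ℂ H (w, γ s)).comp (ContinuousLinearMap.inl ℂ E ℂ))
    (bound := fun _ => M * ‖ContinuousLinearMap.inl ℂ E ℂ‖) (isOpen_ball.mem_nhds hw) ?_
    (h3 w hw).intervalIntegrable ?_ (Eventually.of_forall fun s hs v hv => ?_)
    intervalIntegrable_const (Eventually.of_forall fun s hs v hv => ?_)).differentiableAt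
  · filter_upwards [isOpen_ball.mem_nhds hw] with v hv
    exact ((h3 v hv).mono uIoc_subset_uIcc).aestronglyMeasurable measurableSet_uIoc
  · refine ContinuousOn.aestronglyMeasurable (fun s hs => ?_) measurableSet_uIoc
    exact ((ContinuousAt.comp (f := fun s : ℝ => (w, γ s))
      (hb (ball_subset_closedBall hw) s (uIoc_subset_uIcc hs)).fderiv.continuousAt
      (by fun_prop)).clm_comp continuousAt_const).continuousWithinAt
  · exact (ContinuousLinearMap.opNorm_comp_le _ _).trans (mul_le_mul_of_nonneg_right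
      (hM (v, s) ⟨ball_subset_closedBall hv, uIoc_subset_uIcc hs⟩) (norm_nonneg _))
  · exact (hb (ball_subset_closedBall hv) s
      (uIoc_subset_uIcc hs)).differentiableAt.hasFDerivAt.comp v (hasFDerivAt_prodMk_left v (γ s))

theorem Int.loc {g : E × ℂ → ℂ} {w : E × ℂ} (hg : AnalyticAt ℂ g w) (h2 : w.2 = 0)
    (h0 : ∀ᶠ z in 𝓝 w.1, g (z, 0) = 0) :
    AnalyticAt ℂ (fun v : E × ℂ => ∫ s in (0 : ℝ)..1, fderiv ℂ g (v.1, s * v.2) (0, 1)) w ∧
      ∀ᶠ v : E × ℂ in 𝓝 w, g v = v.2 * ∫ s in (0 : ℝ)..1, fderiv ℂ g (v.1, s * v.2) (0, 1) := by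
  have e : ∀ s : ℂ, (w.1, s * w.2) = w := fun s => by
    rw [h2, mul_zero, ← h2]
  constructor
  · refine analytic_integral (H := fun u : (E × ℂ) × ℂ => fderiv ℂ g (u.1.1, u.2 * u.1.2) (0, 1))
      (γ := fun s : ℝ => (s : ℂ)) Complex.continuous_ofReal fun s _ => ?_
    have k1 : AnalyticAt ℂ (fun u : (E × ℂ) × ℂ => (u.1.1, u.2 * u.1.2)) (w, (s : ℂ)) :=
      (analyticAt_fst.comp analyticAt_fst).prod
        (analyticAt_snd.mul (analyticAt_snd.comp analyticAt_fst))
    exact ((ContinuousLinearMap.apply ℂ ℂ ((0, 1) : E × ℂ)).analyticAt _).comp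
      (hg.fderiv.comp_of_eq k1 (e s))
  · have hc : Continuous fun u : (E × ℂ) × ℝ => (u.1.1, (u.2 : ℂ) * u.1.2) := by fun_prop
    have h1 : ∀ᶠ v : E × ℂ in 𝓝 w, ∀ s ∈ uIcc (0 : ℝ) 1, AnalyticAt ℂ g (v.1, s * v.2) :=
      isCompact_uIcc.eventually_forall_of_forall_eventually fun s _ =>
        (hc.tendsto' (w, s) w (e s)).eventually hg.eventually_analyticAt
    filter_upwards [h1, continuous_fst.continuousAt.eventually h0] with v hv hv0
    have k1 : ∀ s ∈ uIcc (0 : ℝ) 1, HasDerivAt (fun s : ℝ => g (v.1, s * v.2))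
        (v.2 * fderiv ℂ g (v.1, s * v.2) (0, 1)) s := by
      intro s hs
      have k2 : HasDerivAt (fun t : ℂ => (v.1, t * v.2)) ((0 : E), v.2) (s : ℂ) :=
        (hasDerivAt_const _ _).prodMk (hasDerivAt_mul_const v.2)
      have k3 := ((hv s hs).differentiableAt.hasFDerivAt.comp_hasDerivAt (s : ℂ) k2).comp_ofReal
      have k4 : ((0 : E), v.2) = v.2 • ((0 : E), (1 : ℂ)) := by simp
      rw [k4, map_smul, smul_eq_mul] at k3
      exact k3
    have k5 : ContinuousOn (fun s : ℝ => v.2 * fderiv ℂ g (v.1, s * v.2) (0, 1)) (uIcc 0 1) :=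
      fun s hs => (continuousAt_const.mul ((ContinuousAt.comp
        (f := fun s : ℝ => (v.1, (s : ℂ) * v.2)) (hv s hs).fderiv.continuousAt
        (by fun_prop)).clm_apply continuousAt_const)).continuousWithinAt
    have k6 := intervalIntegral.integral_eq_sub_of_hasDerivAt k1 k5.intervalIntegrable
    rw [intervalIntegral.integral_const_mul, Complex.ofReal_one, Complex.ofReal_zero, one_mul,
      zero_mul, hv0, sub_zero] at k6
    exact k6.symm

theorem divide {g : E × ℂ → ℂ} {S : Set (E × ℂ)} (hg : AnalyticOnNhd ℂ g S)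
    (h0 : ∀ w ∈ S, w.2 = 0 → ∀ᶠ z in 𝓝 w.1, g (z, 0) = 0) :
    ∃ h : E × ℂ → ℂ, AnalyticOnNhd ℂ h S ∧ ∀ᶠ w in 𝓝ˢ S, g w = w.2 * h w := by
  classical
  have key : ∀ w ∈ S, AnalyticAt ℂ (fun w : E × ℂ => if w.2 = 0 then fderiv ℂ g w (0, 1)
      else g w / w.2) w ∧ ∀ᶠ v in 𝓝 w, g v = v.2 * if v.2 = 0 then fderiv ℂ g v (0, 1)
      else g v / v.2 := by
    intro w hw
    by_cases h2 : w.2 = 0
    · obtain ⟨k1, k2⟩ := Int.loc (hg w hw) h2 (h0 w hw h2)
      have k3 : ∀ᶠ v : E × ℂ in 𝓝 w, (∫ s in (0 : ℝ)..1, fderiv ℂ g (v.1, s * v.2) (0, 1)) =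
          if v.2 = 0 then fderiv ℂ g v (0, 1) else g v / v.2 := by
        filter_upwards [k2] with v hv
        split_ifs with h3
        · simp only [h3, mul_zero, intervalIntegral.integral_const, sub_zero, one_smul]
          rw [← h3]
        · rw [hv, mul_div_cancel_left₀ _ h3]
      refine ⟨k1.congr k3, ?_⟩
      filter_upwards [k2, k3] with v t1 t2
      rw [← t2, t1]
    · have k1 : ∀ᶠ v : E × ℂ in 𝓝 w, v.2 ≠ 0 := continuous_snd.continuousAt.eventually_ne h2
      refine ⟨((hg w hw).fun_div analyticAt_snd h2).congr (k1.mono fun v hv => ?_),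
        k1.mono fun v hv => ?_⟩
      · exact (if_neg hv).symm
      · rw [if_neg hv, mul_div_cancel₀ _ hv]
  exact ⟨_, fun w hw => (key w hw).1, eventually_nhdsSet_iff_forall.2 fun w hw => (key w hw).2⟩

end Vale.Agent.P290
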