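import Vale.Agent.P290.Defs

/-! Homogeneous coordinates. -/

open Set Filter Metric
open scoped Manifold ContDiff Topology

noncomputable section

namespace Vale.Agent.P290

variable {E : Type} [NormedAddCommGroup E] [NormedSpace ℂ E] [FiniteDimensional ℂ E]

theorem Rep.ne {p : ℂ × ℂ} {a : P1} (h : Rep p a) : p ≠ 0 := h.1

theorem exists_rep (a : P1) : ∃ p, Rep p a := ⟨a.rep, a.rep_nonzero, a.mk_rep⟩

theorem rep_rep (a : P1) : Rep a.rep a := ⟨a.rep_nonzero, a.mk_rep⟩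

theorem exists_pt {p : ℂ × ℂ} (hp : p ≠ 0) : ∃ a, Rep p a := ⟨_, hp, rfl⟩

theorem Rep.inj {p : ℂ × ℂ} {a b : P1} (h : Rep p a) (h' : Rep p b) : a = b := h.2.symm.trans h'.2

theorem Rep.smul {p : ℂ × ℂ} {a : P1} (h : Rep p a) {c : ℂ} (hc : c ≠ 0) : Rep (c • p) a := by
  obtain ⟨hp, rfl⟩ := h
  exact ⟨smul_ne_zero hc hp, (Projectivization.mk_eq_mk_iff' ℂ _ _ _ hp).2 ⟨c, rfl⟩⟩

theorem Rep.ratio {p q : ℂ × ℂ} {a : P1} (h : Rep p a) (h' : Rep q a) :
    ∃ c : ℂ, c ≠ 0 ∧ q = c • p := by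
  obtain ⟨c, hc⟩ := (Projectivization.mk_eq_mk_iff' ℂ _ _ h'.1 h.1).1 (h'.2.trans h.2.symm)
  refine ⟨c, ?_, hc.symm⟩
  rintro rfl
  exact h'.1 (by rw [← hc, zero_smul])

theorem Rep.eq_iff {p q : ℂ × ℂ} {a b : P1} (h : Rep p a) (h' : Rep q b) :
    a = b ↔ p.1 * q.2 = p.2 * q.1 := by
  constructor
  · rintro rfl
    obtain ⟨c, -, rfl⟩ := h.ratio h'
    simp only [Prod.smul_fst, Prod.smul_snd, smul_eq_mul]
    ring
  · intro e
    rw [← h.2, ← h'.2, eq_comm, Projectivization.mk_eq_mk_iff']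
    by_cases h1 : p.1 = 0
    · have h2 : p.2 ≠ 0 := fun h2 => h.1 (Prod.ext h1 h2)
      have h3 : q.1 = 0 := by
        rw [h1, zero_mul] at e
        exact (mul_eq_zero.1 e.symm).resolve_left h2
      refine ⟨q.2 / p.2, Prod.ext ?_ ?_⟩
      · rw [Prod.smul_fst, h1, h3, smul_zero]
      · rw [Prod.smul_snd, smul_eq_mul, div_mul_cancel₀ _ h2]
    · refine ⟨q.1 / p.1, Prod.ext ?_ ?_⟩
      · rw [Prod.smul_fst, smul_eq_mul, div_mul_cancel₀ _ h1]
      · rw [Prod.smul_snd, smul_eq_mul, div_mul_eq_mul_div, div_eq_iff h1]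
        linear_combination -e

theorem Rep.aff_eq {p : ℂ × ℂ} {a : P1} (h : Rep p a) : aff a = p.2 / p.1 := by
  obtain ⟨c, hc, e⟩ := h.ratio (rep_rep a)
  rw [aff, e, Prod.smul_fst, Prod.smul_snd, smul_eq_mul, smul_eq_mul, mul_div_mul_left _ _ hc]

theorem Rep.one_aff {p : ℂ × ℂ} {a : P1} (h : Rep p a) (h1 : p.1 ≠ 0) : Rep (1, aff a) a := by
  have h2 := h.smul (inv_ne_zero h1)
  have e : p.1⁻¹ • p = (1, aff a) := by
    refine Prod.ext ?_ ?_
    · rw [Prod.smul_fst, smul_eq_mul, inv_mul_cancel₀ h1]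
    · rw [Prod.smul_snd, smul_eq_mul, h.aff_eq, inv_mul_eq_div]
  rwa [e] at h2

theorem LocL.eventually {G : E → P1} {z : E} (h : LocL G z) : ∀ᶠ w in 𝓝 z, LocL G w := by
  obtain ⟨p, h1, h2⟩ := h
  filter_upwards [h1.eventually_analyticAt, h2.eventually_nhds] with w a b using ⟨p, a, b⟩

theorem Lifts.rep {G : E → P1} {p : E → ℂ × ℂ} {K : Set E} (h : Lifts G p K) {z : E}
    (hz : z ∈ K) : Rep (p z) (G z) := h.2.self_of_nhdsSet z hz

theorem Lifts.mono {G : E → P1} {p : E → ℂ × ℂ} {K K' : Set E} (h : Lifts G p K) (hK : K' ⊆ K) :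
    Lifts G p K' :=
  ⟨h.1.mono hK, h.2.filter_mono (nhdsSet_mono hK)⟩

/-- Two lifts differ by an analytic factor. -/
theorem Lifts.ratio {G : E → P1} {p q : E → ℂ × ℂ} {K : Set E} (h : Lifts G p K)
    (h' : Lifts G q K) : ∃ ν : E → ℂ, AnalyticOnNhd ℂ ν K ∧
      ∀ᶠ z in 𝓝ˢ K, ν z ≠ 0 ∧ q z = ν z • p z := by
  classical
  have key : ∀ w, Rep (p w) (G w) → Rep (q w) (G w) → ∃ c : ℂ, c ≠ 0 ∧ q w = c • p w ∧
      (if (p w).1 = 0 then (q w).2 / (p w).2 else (q w).1 / (p w).1) = c := by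
    intro w a b
    obtain ⟨c, hc, e⟩ := a.ratio b
    refine ⟨c, hc, e, ?_⟩
    split_ifs with h1
    · have h2 : (p w).2 ≠ 0 := fun h2 => a.1 (Prod.ext h1 h2)
      rw [e, Prod.smul_snd, smul_eq_mul, mul_div_cancel_right₀ _ h2]
    · rw [e, Prod.smul_fst, smul_eq_mul, mul_div_cancel_right₀ _ h1]
  refine ⟨fun w => if (p w).1 = 0 then (q w).2 / (p w).2 else (q w).1 / (p w).1,
    fun z hz => ?_, ?_⟩
  · have a := (eventually_nhdsSet_iff_forall.1 h.2) z hz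
    have b := (eventually_nhdsSet_iff_forall.1 h'.2) z hz
    have p1 : AnalyticAt ℂ (fun w => (p w).1) z := analyticAt_fst.comp (h.1 z hz)
    have p2 : AnalyticAt ℂ (fun w => (p w).2) z := analyticAt_snd.comp (h.1 z hz)
    have q1 : AnalyticAt ℂ (fun w => (q w).1) z := analyticAt_fst.comp (h'.1 z hz)
    have q2 : AnalyticAt ℂ (fun w => (q w).2) z := analyticAt_snd.comp (h'.1 z hz)
    by_cases h1 : (p z).1 = 0
    · have h2 : (p z).2 ≠ 0 := fun h2 => (h.rep hz).1 (Prod.ext h1 h2)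
      refine (q2.fun_div p2 h2).congr ?_
      filter_upwards [a, b, p2.continuousAt.eventually_ne h2] with w a b h3
      obtain ⟨c, -, e, e'⟩ := key w a b
      rw [e', e, Prod.smul_snd, smul_eq_mul, mul_div_cancel_right₀ _ h3]
    · refine (q1.fun_div p1 h1).congr ?_
      filter_upwards [p1.continuousAt.eventually_ne h1] with w h3
      rw [if_neg h3]
  · filter_upwards [h.2, h'.2] with w a b
    obtain ⟨c, hc, e, e'⟩ := key w a b
    rw [e']
    exact ⟨hc, e⟩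

/-- A compact convex neighbourhood. -/
theorem thicken {K U : Set E} (hK : IsCompact K) (hc : Convex ℝ K) (hU : U ∈ 𝓝ˢ K) :
    ∃ K', IsCompact K' ∧ Convex ℝ K' ∧ K' ⊆ U ∧ K' ∈ 𝓝ˢ K := by
  haveI : ProperSpace E := FiniteDimensional.proper ℂ E
  obtain ⟨V, hV, hKV, hVU⟩ := mem_nhdsSet_iff_exists.1 hU
  obtain ⟨δ, hδ, h⟩ := hK.exists_cthickening_subset_open hV hKV
  exact ⟨cthickening δ K, hK.cthickening, hc.cthickening δ, h.trans hVU,
    mem_of_superset (thickening_mem_nhdsSet K hδ) (thickening_subset_cthickening δ K)⟩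

end Vale.Agent.P290
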