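import Vale.Agent.P290.Patch
import Vale.Agent.P290.Rep

/-! Logarithms and the Bezout equation. -/

open Set Filter Metric
open scoped Manifold ContDiff Topology

noncomputable section

namespace Vale.Agent.P290

variable {E : Type} [NormedAddCommGroup E] [NormedSpace ℂ E] [FiniteDimensional ℂ E]

omit [FiniteDimensional ℂ E] in
/-- A continuous logarithm of an analytic function is analytic. -/
theorem Bez.analytic_log {h f : E → ℂ} {z₀ : E} (hh : AnalyticAt ℂ h z₀) (hf : ContinuousAt f z₀)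
    (he : ∀ᶠ z in 𝓝 z₀, Complex.exp (f z) = h z) : AnalyticAt ℂ f z₀ := by
  have h0 : Complex.exp (f z₀) = h z₀ := he.self_of_nhds
  have hne : h z₀ ≠ 0 := h0 ▸ Complex.exp_ne_zero _
  have h1 : AnalyticAt ℂ (fun z => f z₀ + Complex.log (h z / h z₀)) z₀ := by
    refine analyticAt_const.add (AnalyticAt.clog (hh.div analyticAt_const hne) ?_)
    rw [div_self hne]
    exact Complex.one_mem_slitPlane
  refine h1.congr ?_
  have h2 : ∀ᶠ z in 𝓝 z₀, dist (f z) (f z₀) < Real.pi :=
    Metric.tendsto_nhds.1 hf _ Real.pi_pos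
  filter_upwards [he, h2] with z a b
  rw [dist_eq_norm] at b
  have c := abs_lt.1 ((Complex.abs_im_le_norm _).trans_lt b)
  rw [← a, ← h0, ← Complex.exp_sub, Complex.log_exp c.1 c.2.le]
  ring

theorem Bez.anti {ι : Type} [Fintype ι] (a : ι → ι → ℂ) (g : ι → ℂ) :
    ∑ i, (∑ j, (a i j - a j i) / 2 * g j) * g i = 0 := by
  simp only [Finset.sum_mul]
  have h : ∑ i, ∑ j, (a i j - a j i) / 2 * g j * g i
      = - ∑ i, ∑ j, (a i j - a j i) / 2 * g j * g i := by
    conv_lhs => rw [Finset.sum_comm]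
    rw [← Finset.sum_neg_distrib]
    refine Finset.sum_congr rfl fun i _ => ?_
    rw [← Finset.sum_neg_distrib]
    exact Finset.sum_congr rfl fun j _ => by ring
  linear_combination h / 2

theorem Bez.new {ι : Type} [Fintype ι] (a : ι → ι → ℂ) (c g : ι → ℂ) (h : ∑ i, c i * g i = 1) :
    ∑ i, (c i - ∑ j, (a i j - a j i) / 2 * g j) * g i = 1 := by
  simp only [sub_mul (c _), Finset.sum_sub_distrib]
  rw [Bez.anti, h, sub_zero]

theorem Bez.agree {ι : Type} [Fintype ι] (a b : ι → ι → ℂ) (c d g : ι → ℂ)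
    (hc : ∑ i, c i * g i = 1) (hd : ∑ i, d i * g i = 1)
    (h : ∀ i j, (c i - d i) * c j - (c j - d j) * c i = a i j - b i j) (i : ι) :
    c i - ∑ j, (a i j - a j i) / 2 * g j = d i - ∑ j, (b i j - b j i) / 2 * g j := by
  have h1 : ∑ j, (a i j - a j i) / 2 * g j - ∑ j, (b i j - b j i) / 2 * g j
      = (c i - d i) * ∑ j, c j * g j - (∑ j, c j * g j - ∑ j, d j * g j) * c i := by
    rw [← Finset.sum_sub_distrib, ← Finset.sum_sub_distrib, Finset.mul_sum, Finset.sum_mul,
      ← Finset.sum_sub_distrib]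
    refine Finset.sum_congr rfl fun j _ => ?_
    linear_combination (g j / 2) * h j i - (g j / 2) * h i j
  rw [hc, hd] at h1
  linear_combination - h1

theorem exists_log {K : Set E} (hK : IsCompact K) (hc : Convex ℝ K) {h : E → ℂ}
    (hh : AnalyticOnNhd ℂ h K) (h0 : ∀ z ∈ K, h z ≠ 0) :
    ∃ c : E → ℂ, AnalyticOnNhd ℂ c K ∧ ∀ᶠ z in 𝓝ˢ K, Complex.exp (c z) = h z := by
  rcases K.eq_empty_or_nonempty with rfl | hne
  · exact ⟨0, fun z hz => hz.elim, by simp⟩
  have hU : ∀ᶠ z in 𝓝ˢ K, AnalyticAt ℂ h z ∧ h z ≠ 0 :=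
    eventually_nhdsSet_iff_forall.2 fun z hz => (hh z hz).eventually_analyticAt.and
      ((hh z hz).continuousAt.eventually_ne (h0 z hz))
  obtain ⟨V, hV, hKV, hVU⟩ := eventually_nhdsSet_iff_exists.1 hU
  obtain ⟨δ, hδ, hT⟩ := hK.exists_thickening_subset_open hV hKV
  have hKT : K ⊆ thickening δ K := self_subset_thickening hδ K
  have hcon : ContractibleSpace (thickening δ K) :=
    (hc.thickening δ).contractibleSpace (hne.mono hKT)
  have hsc : IsSimplyConnected (thickening δ K) :=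
    (inferInstance : SimplyConnectedSpace (thickening δ K))
  obtain ⟨f, hf, he⟩ := Complex.exists_continuousOn_eqOn_exp_comp hsc isOpen_thickening (g := h)
    (fun z hz => (hVU z (hT hz)).1.continuousAt.continuousWithinAt) (by
      rintro ⟨z, hz, hz0⟩
      exact (hVU z (hT hz)).2 hz0)
  have hev : ∀ z ∈ K, ∀ᶠ w in 𝓝 z, Complex.exp (f w) = h w := fun z hz =>
    mem_of_superset (isOpen_thickening.mem_nhds (hKT hz)) fun w hw => he hw
  exact ⟨f, fun z hz => Bez.analytic_log (hh z hz)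
    (hf.continuousAt (isOpen_thickening.mem_nhds (hKT hz))) (hev z hz),
    eventually_nhdsSet_iff_forall.2 hev⟩

theorem bezout {K : Set E} (hK : IsCompact K) (hc : Convex ℝ K) {ι : Type} [Fintype ι]
    (g : ι → E → ℂ) (hg : ∀ i, AnalyticOnNhd ℂ (g i) K) (h0 : ∀ z ∈ K, ∃ i, g i z ≠ 0) :
    ∃ c : ι → E → ℂ, (∀ i, AnalyticOnNhd ℂ (c i) K) ∧
      ∀ᶠ z in 𝓝ˢ K, ∑ i, c i z * g i z = 1 := by
  classical
  have hU : {z | (∀ i, AnalyticAt ℂ (g i) z) ∧ ∃ i, g i z ≠ 0} ∈ 𝓝ˢ K := by
    refine eventually_nhdsSet_iff_forall.2 fun z hz => ?_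
    obtain ⟨i, hi⟩ := h0 z hz
    filter_upwards [eventually_all.2 fun j => (hg j z hz).eventually_analyticAt,
      (hg i z hz).continuousAt.eventually_ne hi] with w a b
    exact ⟨a, i, b⟩
  refine (patch hK hc hU (fun S => ∃ c : ι → E → ℂ,
      (∀ i, AnalyticOnNhd ℂ (c i) S) ∧ ∀ᶠ z in 𝓝ˢ S, ∑ i, c i z * g i z = 1) ?_ ?_ ?_).elim
    fun P ⟨hP, c, h1, h2⟩ => ⟨c, fun i => (h1 i).mono hP, h2.filter_mono (nhdsSet_mono hP)⟩
  · exact ⟨0, fun i z hz => hz.elim, by simp⟩
  · rintro z ⟨ha, i₀, hi⟩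
    refine ⟨{w | AnalyticAt ℂ (g i₀) w ∧ g i₀ w ≠ 0},
      (ha i₀).eventually_analyticAt.and ((ha i₀).continuousAt.eventually_ne hi), fun S hS => ?_⟩
    refine ⟨fun i w => if i = i₀ then (g i₀ w)⁻¹ else 0, fun i w hw => ?_,
      eventually_nhdsSet_iff_forall.2 fun w hw => ?_⟩
    · by_cases hi : i = i₀
      · simp only [if_pos hi]
        exact (hS hw).1.inv (hS hw).2
      · simp only [if_neg hi]
        exact analyticAt_const
    · filter_upwards [(hS hw).1.continuousAt.eventually_ne (hS hw).2] with v hv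
      rw [Finset.sum_eq_single i₀ (fun j _ hj => by rw [if_neg hj, zero_mul])
        (fun h => absurd (Finset.mem_univ _) h), if_pos rfl, inv_mul_cancel₀ hv]
  · rintro S₁ S₂ k₁ k₂ - - hS hsp ⟨c, c1, c2⟩ ⟨d, d1, d2⟩
    have hc' : ∀ i, AnalyticOnNhd ℂ (c i) (S₁ ∩ S₂) := fun i => (c1 i).mono inter_subset_left
    have hd' : ∀ i, AnalyticOnNhd ℂ (d i) (S₁ ∩ S₂) := fun i => (d1 i).mono inter_subset_right
    have hs : ∀ i j, ∃ a b : E → ℂ, AnalyticOnNhd ℂ a S₁ ∧ AnalyticOnNhd ℂ b S₂ ∧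
        ∀ᶠ z in 𝓝ˢ (S₁ ∩ S₂), (c i z - d i z) * c j z - (c j z - d j z) * c i z = a z - b z :=
      fun i j => hsp (fun z => (c i z - d i z) * c j z - (c j z - d j z) * c i z) fun z hz =>
        (((hc' i z hz).sub (hd' i z hz)).mul (hc' j z hz)).sub
          (((hc' j z hz).sub (hd' j z hz)).mul (hc' i z hz))
    choose a b ha hb hab using hs
    obtain ⟨f, f1, f2⟩ := glue2 k₁.isClosed k₂.isClosed
      (f₁ := fun z i => c i z - ∑ j, (a i j z - a j i z) / 2 * g j z)
      (f₂ := fun z i => d i z - ∑ j, (b i j z - b j i z) / 2 * g j z) (by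
        filter_upwards [c2.filter_mono (nhdsSet_mono inter_subset_left),
          d2.filter_mono (nhdsSet_mono inter_subset_right),
          eventually_all.2 fun i => eventually_all.2 fun j => hab i j] with z e1 e2 e3
        funext i
        exact Bez.agree (fun i j => a i j z) (fun i j => b i j z) (fun i => c i z)
          (fun i => d i z) (fun i => g i z) e1 e2 e3 i)
    have key : ∀ (S : Set E) (c : ι → E → ℂ) (a : ι → ι → E → ℂ), S ⊆ S₁ ∪ S₂ →
        (∀ i, AnalyticOnNhd ℂ (c i) S) → (∀ i j, AnalyticOnNhd ℂ (a i j) S) →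
        (∀ᶠ z in 𝓝ˢ S, f z = fun i => c i z - ∑ j, (a i j z - a j i z) / 2 * g j z) →
        ∀ i, AnalyticOnNhd ℂ (fun z => f z i) S := by
      intro S c a hSS hc ha hf i z hz
      have h1 : AnalyticAt ℂ (fun z => c i z - ∑ j, (a i j z - a j i z) / 2 * g j z) z := by
        refine (hc i z hz).sub (Finset.analyticAt_fun_sum _ fun j _ => ?_)
        exact (((ha i j z hz).sub (ha j i z hz)).div analyticAt_const two_ne_zero).mul
          ((hS (hSS hz)).1 j)
      refine h1.congr ?_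
      filter_upwards [eventually_nhdsSet_iff_forall.1 hf z hz] with w hw
      rw [hw]
    refine ⟨fun i z => f z i, fun i z hz => ?_, ?_⟩
    · rcases hz with hz | hz
      · exact key S₁ c a subset_union_left c1 ha f1 i z hz
      · exact key S₂ d b subset_union_right d1 hb f2 i z hz
    · rw [nhdsSet_union, eventually_sup]
      constructor
      · filter_upwards [f1, c2] with z e1 e2
        rw [e1]
        exact Bez.new (fun i j => a i j z) (fun i => c i z) (fun i => g i z) e2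
      · filter_upwards [f2, d2] with z e1 e2
        rw [e1]
        exact Bez.new (fun i j => b i j z) (fun i => d i z) (fun i => g i z) e2

theorem bez2_near {K : Set E} (hK : IsCompact K) (hc : Convex ℝ K) {p : E → ℂ × ℂ}
    (hp : AnalyticOnNhd ℂ p K) (h0 : ∀ z ∈ K, p z ≠ 0) :
    ∃ q : E → ℂ × ℂ, AnalyticOnNhd ℂ q K ∧ ∀ᶠ z in 𝓝ˢ K, pr (q z) (p z) = 1 := by
  obtain ⟨c, h1, h2⟩ := bezout hK hc (ι := Bool)
    (fun i z => if i then (p z).1 else (p z).2) (fun i z hz => by
      cases i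
      · exact analyticAt_snd.comp (hp z hz)
      · exact analyticAt_fst.comp (hp z hz)) (fun z hz => by
      by_contra hn
      push Not at hn
      exact h0 z hz (Prod.ext (hn true) (hn false)))
  refine ⟨fun z => (c true z, c false z), fun z hz => (h1 true z hz).prod (h1 false z hz), ?_⟩
  filter_upwards [h2] with z hz
  rw [Fintype.sum_bool] at hz
  exact hz

end Vale.Agent.P290
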