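import Vale.Agent.P290.Defs

/-! Bisection of boxes and gluing of germs. -/

open Set Filter Metric
open scoped Manifold ContDiff Topology

noncomputable section

namespace Vale.Agent.P290

variable {E : Type} [NormedAddCommGroup E] [NormedSpace ℂ E] [FiniteDimensional ℂ E]

theorem bisect {κ : Type} [Fintype κ] [DecidableEq κ] (Q : (κ → ℝ) → (κ → ℝ) → Prop)
    {a b : κ → ℝ} (hab : a ≤ b)
    (loc : ∀ x ∈ Icc a b, ∃ δ > (0 : ℝ), ∀ a' b', a ≤ a' → a' ≤ b' → b' ≤ b →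
      (∀ k, |a' k - x k| < δ ∧ |b' k - x k| < δ) → Q a' b')
    (glue : ∀ a' b' k c, a ≤ a' → a' ≤ b' → b' ≤ b → a' k ≤ c → c ≤ b' k →
      Q a' (Function.update b' k c) → Q (Function.update a' k c) b' → Q a' b') : Q a b := by
  choose! d hd hQ using loc
  obtain ⟨δ, hδ, hL⟩ := lebesgue_number_lemma_of_metric (isCompact_Icc (a := a) (b := b))
    (c := fun x : Icc a b => ball x.1 (d x)) (fun _ => isOpen_ball)
    (fun x hx => mem_iUnion.2 ⟨⟨x, hx⟩, mem_ball_self (hd x hx)⟩)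
  have main : ∀ n : ℕ, ∀ a' b', a ≤ a' → a' ≤ b' → b' ≤ b →
      ∑ k, ⌊(b' k - a' k) / δ⌋₊ = n → Q a' b' := fun n => by
    induction n using Nat.strong_induction_on with
    | _ n ih =>
      intro a' b' h1 h2 h3 hn
      by_cases h : ∀ k, b' k - a' k < δ
      · obtain ⟨⟨x, hx⟩, hb⟩ := hL a' ⟨h1, h2.trans h3⟩
        have k1 := (dist_pi_lt_iff (hd x hx)).1 (hb (mem_ball_self hδ))
        have k2 := (dist_pi_lt_iff (hd x hx)).1 (hb (show b' ∈ ball a' δ from
          (dist_pi_lt_iff hδ).2 fun k => by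
            rw [Real.dist_eq, abs_of_nonneg (sub_nonneg.2 (h2 k))]
            exact h k))
        exact hQ x hx a' b' h1 h2 h3 fun k => ⟨k1 k, k2 k⟩
      · obtain ⟨k, hk⟩ := not_forall.1 h
        rw [not_lt] at hk
        have m1 : (1 : ℝ) ≤ ⌊(b' k - a' k) / δ⌋₊ :=
          Nat.one_le_cast.2 (Nat.le_floor (by rwa [Nat.cast_one, one_le_div hδ]))
        have m2 := Nat.lt_floor_add_one ((b' k - a' k) / δ)
        have m3 : ∀ y : ℝ, y = (b' k - a' k) / 2 → ⌊y / δ⌋₊ < ⌊(b' k - a' k) / δ⌋₊ := by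
          rintro _ rfl
          rw [Nat.floor_lt (div_nonneg (by linarith) hδ.le), div_right_comm]
          linarith
        have c1 : a' k ≤ (a' k + b' k) / 2 := by linarith
        have c2 : (a' k + b' k) / 2 ≤ b' k := by linarith
        have u1 : Function.update b' k ((a' k + b' k) / 2) ≤ b' :=
          update_le_iff.2 ⟨c2, fun _ _ => le_rfl⟩
        have u2 : a' ≤ Function.update a' k ((a' k + b' k) / 2) :=
          le_update_iff.2 ⟨c1, fun _ _ => le_rfl⟩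
        refine glue a' b' k _ h1 h2 h3 c1 c2
          (ih _ ?_ _ _ h1 (le_update_iff.2 ⟨c1, fun j _ => h2 j⟩) (u1.trans h3) rfl)
          (ih _ ?_ _ _ (h1.trans u2) (update_le_iff.2 ⟨c2, fun j _ => h2 j⟩) h3 rfl)
        · rw [← hn]
          refine Finset.sum_lt_sum (fun j _ => Nat.floor_le_floor
            (div_le_div_of_nonneg_right (sub_le_sub_right (u1 j) _) hδ.le))
            ⟨k, Finset.mem_univ _, m3 _ ?_⟩
          rw [Function.update_self]
          ring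
        · rw [← hn]
          refine Finset.sum_lt_sum (fun j _ => Nat.floor_le_floor
            (div_le_div_of_nonneg_right (sub_le_sub_left (u2 j) _) hδ.le))
            ⟨k, Finset.mem_univ _, m3 _ ?_⟩
          rw [Function.update_self]
          ring
  exact main _ a b le_rfl hab le_rfl rfl

theorem glue2 {α β : Type} [MetricSpace α] {S₁ S₂ : Set α} (h₁ : IsClosed S₁) (h₂ : IsClosed S₂)
    {f₁ f₂ : α → β} (h : ∀ᶠ z in 𝓝ˢ (S₁ ∩ S₂), f₁ z = f₂ z) :
    ∃ f : α → β, (∀ᶠ z in 𝓝ˢ S₁, f z = f₁ z) ∧ ∀ᶠ z in 𝓝ˢ S₂, f z = f₂ z := by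
  classical
  obtain ⟨W, hW, hS, he⟩ := eventually_nhdsSet_iff_exists.1 h
  obtain ⟨U, V, hU, hV, h1, h2, hd⟩ := normal_separation (h₁.sdiff hW) (h₂.sdiff hW)
    (disjoint_left.2 fun z a b => a.2 (hS ⟨a.1, b.1⟩))
  refine ⟨fun z => if z ∈ V then f₂ z else f₁ z,
    eventually_nhdsSet_iff_exists.2 ⟨U ∪ W, hU.union hW, fun z hz => ?_, fun z hz => ?_⟩,
    eventually_nhdsSet_iff_exists.2 ⟨V ∪ W, hV.union hW, fun z hz => ?_, fun z hz => ?_⟩⟩
  · by_cases k : z ∈ W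
    · exact Or.inr k
    · exact Or.inl (h1 ⟨hz, k⟩)
  · rcases hz with k | k
    · exact if_neg (disjoint_left.1 hd k)
    · simp only [he z k, ite_self]
  · by_cases k : z ∈ W
    · exact Or.inr k
    · exact Or.inl (h2 ⟨hz, k⟩)
  · rcases hz with k | k
    · exact if_pos k
    · simp only [he z k, ite_self]

theorem glueFam {α β : Type} [MetricSpace α] {S : Set α} (hS : IsCompact S) (l : α → α → β)
    (h : ∀ a ∈ S, ∀ᶠ b in 𝓝 a, b ∈ S → l a =ᶠ[𝓝 b] l b) :
    ∃ f : α → β, ∀ a ∈ S, f =ᶠ[𝓝 a] l a := by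
  have h1 := hS.induction_on (p := fun s => ∃ f : α → β, ∀ a ∈ closure s ∩ S, f =ᶠ[𝓝 a] l a)
    ⟨fun x => l x x, by simp⟩ ?_ ?_ ?_
  · obtain ⟨f, hf⟩ := h1
    exact ⟨f, fun a ha => hf a ⟨subset_closure ha, ha⟩⟩
  · rintro s t hst ⟨f, hf⟩
    exact ⟨f, fun a ha => hf a ⟨closure_mono hst ha.1, ha.2⟩⟩
  · rintro s t ⟨f₁, hf₁⟩ ⟨f₂, hf₂⟩
    obtain ⟨f, k1, k2⟩ := glue2 (isClosed_closure.inter hS.isClosed)
      (isClosed_closure.inter hS.isClosed) (f₁ := f₁) (f₂ := f₂)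
      (eventually_nhdsSet_iff_forall.2 fun x hx => (hf₁ x hx.1).trans (hf₂ x hx.2).symm)
    refine ⟨f, fun a ha => ?_⟩
    rw [closure_union, union_inter_distrib_right] at ha
    rcases ha with ha | ha
    · exact EventuallyEq.trans (eventually_nhdsSet_iff_forall.1 k1 a ha) (hf₁ a ha)
    · exact EventuallyEq.trans (eventually_nhdsSet_iff_forall.1 k2 a ha) (hf₂ a ha)
  · intro a ha
    obtain ⟨N, hN, hc, hs⟩ := exists_mem_nhds_isClosed_subset (h a ha)
    refine ⟨N, mem_nhdsWithin_of_mem_nhds hN, l a, fun b hb => ?_⟩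
    rw [hc.closure_eq] at hb
    exact hs hb.1 hb.2

variable {J : Type} [Fintype J] [DecidableEq J]

theorem continuous_co : Continuous (co : (J → ℂ) → J × Bool → ℝ) :=
  continuous_pi fun k => by
    unfold co
    split_ifs
    · exact Complex.continuous_re.comp (continuous_apply _)
    · exact Complex.continuous_im.comp (continuous_apply _)

omit [Fintype J] [DecidableEq J] in
theorem Bis.lin : IsLinearMap ℝ (co : (J → ℂ) → J × Bool → ℝ) :=
  ⟨fun x y => funext fun k => by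
    simp only [co, Pi.add_apply]
    split_ifs <;> simp, fun c x => funext fun k => by
    simp only [co, Pi.smul_apply]
    split_ifs <;> simp⟩

omit [DecidableEq J] [FiniteDimensional ℂ E] in
theorem Bis.lin' (ι : E →L[ℂ] (J → ℂ)) : IsLinearMap ℝ fun z => co (ι z) :=
  ⟨fun x y => by rw [map_add, Bis.lin.map_add], fun c x => by
    rw [ι.map_smul_of_tower, Bis.lin.map_smul]⟩

omit [DecidableEq J] in
theorem Bis.emb {ι : E →L[ℂ] (J → ℂ)} (hι : Function.Injective ι) :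
    Topology.IsClosedEmbedding fun z => co (ι z) := by
  refine LinearMap.isClosedEmbedding_of_injective (f := (Bis.lin' ι).mk' _)
    (LinearMap.ker_eq_bot.2 fun x y h => hι (funext fun j => Complex.ext ?_ ?_))
  · exact congrFun h (j, true)
  · exact congrFun h (j, false)

theorem isCompact_box (a b : J × Bool → ℝ) : IsCompact (Box a b) :=
  (Bis.emb (ι := ContinuousLinearMap.id ℂ (J → ℂ)) Function.injective_id).isCompact_preimage
    isCompact_Icc

theorem convex_box (a b : J × Bool → ℝ) : Convex ℝ (Box a b) :=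
  (convex_Icc a b).is_linear_preimage Bis.lin

theorem box_union {a b : J × Bool → ℝ} {k : J × Bool} {c : ℝ} (h₁ : a k ≤ c) (h₂ : c ≤ b k) :
    Box a (Function.update b k c) ∪ Box (Function.update a k c) b = Box a b := by
  have u1 : Function.update b k c ≤ b := update_le_iff.2 ⟨h₂, fun _ _ => le_rfl⟩
  have u2 : a ≤ Function.update a k c := le_update_iff.2 ⟨h₁, fun _ _ => le_rfl⟩
  ext z
  refine ⟨fun h => h.elim (fun h => ⟨h.1, h.2.trans u1⟩) fun h => ⟨u2.trans h.1, h.2⟩, fun h => ?_⟩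
  rcases le_total (co z k) c with k1 | k1
  · exact Or.inl ⟨h.1, le_update_iff.2 ⟨k1, fun j _ => h.2 j⟩⟩
  · exact Or.inr ⟨update_le_iff.2 ⟨k1, fun j _ => h.1 j⟩, h.2⟩

theorem box_inter {a b : J × Bool → ℝ} {k : J × Bool} {c : ℝ} (h₁ : a k ≤ c) (h₂ : c ≤ b k) :
    Box a (Function.update b k c) ∩ Box (Function.update a k c) b =
      Box (Function.update a k c) (Function.update b k c) := by
  have u1 : Function.update b k c ≤ b := update_le_iff.2 ⟨h₂, fun _ _ => le_rfl⟩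
  have u2 : a ≤ Function.update a k c := le_update_iff.2 ⟨h₁, fun _ _ => le_rfl⟩
  ext z
  exact ⟨fun h => ⟨h.2.1, h.1.2⟩, fun h => ⟨⟨u2.trans h.1, h.2⟩, h.1, h.2.trans u1⟩⟩

theorem isCompact_pre {ι : E →L[ℂ] (J → ℂ)} (hι : Function.Injective ι) (a b : J × Bool → ℝ) :
    IsCompact (ι ⁻¹' Box a b) :=
  (Bis.emb hι).isCompact_preimage isCompact_Icc

theorem convex_pre (ι : E →L[ℂ] (J → ℂ)) (a b : J × Bool → ℝ) :
    Convex ℝ (ι ⁻¹' Box a b) :=
  (convex_Icc a b).is_linear_preimage (Bis.lin' ι)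

theorem bisect_pre {ι : E →L[ℂ] (J → ℂ)} (hι : Function.Injective ι) (Q : Set E → Prop)
    (a b : J × Bool → ℝ) (h0 : Q ∅)
    (loc : ∀ z ∈ ι ⁻¹' Box a b, ∃ N ∈ 𝓝 z, ∀ S ⊆ N, Q S)
    (glue : ∀ a' b' k c, a ≤ a' → b' ≤ b → a' k ≤ c → c ≤ b' k →
      Q (ι ⁻¹' Box a' (Function.update b' k c)) → Q (ι ⁻¹' Box (Function.update a' k c) b') →
      Q (ι ⁻¹' Box a' b')) : Q (ι ⁻¹' Box a b) := by
  by_cases hab : a ≤ b
  · refine bisect (fun a' b' => Q (ι ⁻¹' Box a' b')) hab (fun x hx => ?_)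
      fun a' b' k c h1 _ h3 => glue a' b' k c h1 h3
    have hb : ∀ (δ : ℝ) (a' b' : J × Bool → ℝ), 0 < δ →
        (∀ k, |a' k - x k| < δ ∧ |b' k - x k| < δ) →
        ∀ z ∈ ι ⁻¹' Box a' b', co (ι z) ∈ ball x δ := fun δ a' b' hδ h z hz =>
      (dist_pi_lt_iff hδ).2 fun k => by
        have k1 : a' k ≤ co (ι z) k := hz.1 k
        have k2 : co (ι z) k ≤ b' k := hz.2 k
        rw [Real.dist_eq, abs_lt]
        exact ⟨by linarith [(abs_lt.1 (h k).1).1], by linarith [(abs_lt.1 (h k).2).2]⟩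
    by_cases hr : x ∈ range fun z => co (ι z)
    · obtain ⟨z, rfl⟩ := hr
      obtain ⟨N, hN, hQ⟩ := loc z hx
      rw [(Bis.emb hι).isInducing.nhds_eq_comap] at hN
      obtain ⟨t, ht, hs⟩ := mem_comap.1 hN
      obtain ⟨δ, hδ, hd⟩ := Metric.mem_nhds_iff.1 ht
      exact ⟨δ, hδ, fun a' b' _ _ _ h => hQ _ fun w hw => hs (hd (hb δ a' b' hδ h w hw))⟩
    · obtain ⟨δ, hδ, hd⟩ := Metric.mem_nhds_iff.1
        ((Bis.emb hι).isClosed_range.isOpen_compl.mem_nhds hr)
      refine ⟨δ, hδ, fun a' b' _ _ _ h => ?_⟩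
      rwa [eq_empty_of_forall_notMem fun w hw => hd (hb δ a' b' hδ h w hw) ⟨w, rfl⟩]
  · rwa [eq_empty_of_forall_notMem fun w (hw : w ∈ ι ⁻¹' Box a b) => hab (hw.1.trans hw.2)]

end Vale.Agent.P290
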