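import Vale.Agent.P290.Sg

/-! Transversality along an orbit. -/

open Set Filter Metric
open scoped Manifold ContDiff Topology

noncomputable section

namespace Vale.Agent.P290

variable {X : Type} [TopologicalSpace X] [ChartedSpace C2 X] [IsManifold 𝓘(ℂ, C2) ω X]
  {E : Type} [NormedAddCommGroup E] [NormedSpace ℂ E] [FiniteDimensional ℂ E]
  {A : Type} [NormedAddCommGroup A] [NormedSpace ℂ A] [FiniteDimensional ℂ A]
  {σ : Form2 X}

theorem Spray.hol_comp {π : X → P1} {S : X × (ℂ × ℂ) × ℂ → X} (hS : Spray σ π S) {h : E → X}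
    {p : E → ℂ × ℂ} {μ : E → ℂ} {z : E} (hh : Hol h z) (hp : AnalyticAt ℂ p z)
    (hμ : AnalyticAt ℂ μ z) (hr : ∀ᶠ w in 𝓝 z, Rep (p w) (π (h w))) :
    Hol (fun w => S (h w, p w, μ w)) z :=
  hS.hol.comp hh (hp.prod hμ) hr

theorem Orb.hol {π : X → P1} {S : X × (ℂ × ℂ) × ℂ → X} (hS : Spray σ π S) {x : X}
    {p : ℂ × ℂ} (hp : Rep p (π x)) (τ : ℂ) : Hol (fun t => S (x, p, t)) τ :=
  hS.hol_comp (hol_const x τ) analyticAt_const analyticAt_id (Eventually.of_forall fun _ => hp)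

theorem Orb.shift {π : X → P1} {S : X × (ℂ × ℂ) × ℂ → X} (hS : Spray σ π S) {x : X}
    {p : ℂ × ℂ} (hp : Rep p (π x)) (τ : ℂ) :
    vel (fun t => S (x, p, τ + t)) 0 = tv S (S (x, p, τ)) p := by
  simp only [tv, hS.add x p τ _ hp]

theorem Spray.vel_eq {π : X → P1} {S : X × (ℂ × ℂ) × ℂ → X} (hS : Spray σ π S) {x : X}
    {p : ℂ × ℂ} (hp : Rep p (π x)) (τ : ℂ) :
    vel (fun t => S (x, p, t)) τ = tv S (S (x, p, τ)) p := by
  rw [← Orb.shift hS hp, vel_comp (c := fun t => S (x, p, t)) (g := fun t => τ + t)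
    (Orb.hol hS hp _) (by fun_prop) ((hasDerivAt_id (0 : ℂ)).const_add τ), one_smul, add_zero]

theorem Orb.tv_smul {π : X → P1} {S : X × (ℂ × ℂ) × ℂ → X} (hS : Spray σ π S) {x : X}
    {p : ℂ × ℂ} (hp : Rep p (π x)) {c : ℂ} (hc : c ≠ 0) :
    tv S x (c • p) = c ^ 2 • tv S x p := by
  simp only [tv, hS.smul x p c _ hp hc]
  rw [vel_comp (c := fun t => S (x, p, t)) (g := fun t => c ^ 2 * t) (Orb.hol hS hp _)
    (by fun_prop) ((hasDerivAt_id (0 : ℂ)).const_mul (c ^ 2)), mul_one, mul_zero]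

theorem Orb.line {F : E → X} (h : Hol F 0) (u : E) :
    vel (fun s : ℂ => F (s • u)) 0 = dif F 0 u := by
  have h1 : HasDerivAt (fun s : ℂ => s • u) u 0 := by
    simpa using (hasDerivAt_id (0 : ℂ)).smul_const u
  rw [vel, dif_comp (g := fun s : ℂ => s • u) (by rwa [zero_smul]) (by fun_prop), zero_smul,
    fderiv_apply_one_eq_deriv, h1.deriv]

/-- A map with surjective differential is open at the point. -/
theorem Orb.map_nhds {F : E → X} {z : E} (h : Hol F z) (hs : Function.Surjective (dif F z)) :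
    map F (𝓝 z) = 𝓝 (F z) := by
  have hm := mem_chart_source C2 (F z)
  have h1 : AnalyticAt ℂ (fun w => chartAt C2 (F z) (F w)) z := (holF_chart _ hm).comp h
  haveI : CompleteSpace E := FiniteDimensional.complete ℂ E
  have h2 := h1.hasStrictFDerivAt.map_nhds_eq_of_surj (by
    refine LinearMap.range_eq_top.2 fun w => ?_
    obtain ⟨u, hu⟩ := hs (dif (chartAt C2 (F z)).symm (chartAt C2 (F z) (F z)) w)
    rw [dif_chart (F z) h hm] at hu
    exact ⟨u, (dif_symm_bij (F z) (mem_chart_target C2 (F z))).1 hu⟩)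
  rw [← (chartAt C2 (F z)).symm_map_nhds_eq hm, ← h2, map_map]
  refine Filter.map_congr ?_
  filter_upwards [h.cont.preimage_mem_nhds ((chartAt C2 (F z)).open_source.mem_nhds hm)] with w hw
  exact ((chartAt C2 (F z)).left_inv hw).symm

/-- A curve of homogeneous coordinates with vanishing Wronskian is projectively constant. -/
theorem Orb.const {g : ℂ → ℂ × ℂ} (hg : AnalyticAt ℂ g 0) (h0 : g 0 ≠ 0)
    (hw : ∀ᶠ t in 𝓝 (0 : ℂ), (g t).1 * (deriv g t).2 - (g t).2 * (deriv g t).1 = 0) :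
    ∀ᶠ t in 𝓝 (0 : ℂ), (g 0).1 * (g t).2 = (g 0).2 * (g t).1 := by
  obtain ⟨b, hb⟩ : ∃ b : ℂ × ℂ, b.1 * (g 0).1 + b.2 * (g 0).2 ≠ 0 := by
    by_cases h : (g 0).1 = 0
    · exact ⟨(0, 1), by simpa using fun h' => h0 (Prod.ext h h')⟩
    · exact ⟨(1, 0), by simpa using h⟩
  have h1 : ∀ᶠ t in 𝓝 (0 : ℂ), b.1 * (g t).1 + b.2 * (g t).2 ≠ 0 := by
    have := hg.continuousAt
    exact ContinuousAt.eventually_ne (g := fun t => b.1 * (g t).1 + b.2 * (g t).2)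
      (by fun_prop) hb
  obtain ⟨r, hr, hB⟩ := Metric.eventually_nhds_iff_ball.1 (hg.eventually_analyticAt.and (h1.and hw))
  have hd : ∀ t ∈ ball (0 : ℂ) r, HasDerivAt (fun t => ((g 0).1 * (g t).2 - (g 0).2 * (g t).1)
      / (b.1 * (g t).1 + b.2 * (g t).2)) 0 t := by
    intro t ht
    obtain ⟨k1, k2, k3⟩ := hB t ht
    have d := k1.differentiableAt.hasDerivAt
    have d1 : HasDerivAt (fun t => (g t).1) (deriv g t).1 t := d.fst
    have d2 : HasDerivAt (fun t => (g t).2) (deriv g t).2 t := d.snd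
    refine (((d2.const_mul _).fun_sub (d1.const_mul _)).fun_div
      ((d1.const_mul _).fun_add (d2.const_mul _)) k2).congr_deriv ?_
    rw [div_eq_zero_iff]
    left
    linear_combination (b.1 * (g 0).1 + b.2 * (g 0).2) * k3
  filter_upwards [ball_mem_nhds (0 : ℂ) hr] with t ht
  have := isOpen_ball.is_const_of_deriv_eq_zero (convex_ball (0 : ℂ) r).isPreconnected
    (fun t ht => (hd t ht).differentiableAt.differentiableWithinAt)
    (fun t ht => (hd t ht).deriv) ht (mem_ball_self hr)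
  simp only [mul_comm (g 0).1 (g 0).2, sub_self, zero_div, div_eq_zero_iff, (hB t ht).2.1,
    or_false] at this
  exact sub_eq_zero.1 this

/-- If the two generating vectors are dependent along the orbit then `π'` is constant on it. -/
theorem Orb.const_orbit (hσ : IsSympl σ) {π π' : X → P1} (hπ' : HolP π')
    {S S' : X × (ℂ × ℂ) × ℂ → X} (hS : Spray σ π S) (hS' : Spray σ π' S') {x : X}
    {p : ℂ × ℂ} (hp : Rep p (π x)) (h : ∀ τ q, Rep q (π' (S (x, p, τ))) →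
      sg σ (S (x, p, τ)) (tv S (S (x, p, τ)) p) (tv S' (S (x, p, τ)) q) = 0) :
    ∀ᶠ t in 𝓝 (0 : ℂ), π' (S (x, p, t)) = π' x := by
  obtain ⟨q, hq, hr⟩ := (hπ'.locL (Orb.hol hS hp 0))
  have h0 := hr.self_of_nhds
  have hw : ∀ᶠ t in 𝓝 (0 : ℂ), (q t).1 * (deriv q t).2 - (q t).2 * (deriv q t).1 = 0 := by
    filter_upwards [hq.eventually_analyticAt, hr.eventually_nhds] with τ k1 k2
    have ht : Tendsto (fun s : ℂ => τ + s) (𝓝 0) (𝓝 τ) :=
      (continuous_const.add continuous_id).tendsto' 0 τ (add_zero τ)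
    have k3 := hS'.ham (fun s => S (x, p, τ + s)) (fun s => q (τ + s))
      (Hol.comp (f := fun t => S (x, p, t)) (Orb.hol hS hp _) (by fun_prop))
      (AnalyticAt.comp_of_eq (f := fun s => τ + s) k1 (by fun_prop) (add_zero τ)) (ht.eventually k2)
    rw [Orb.shift hS hp, add_zero, sg_swap hσ, h τ _ k2.self_of_nhds, neg_zero] at k3
    simpa [wr, deriv_comp_const_add] using k3.symm
  filter_upwards [Orb.const hq h0.ne hw, hr] with t k1 k2
  simpa only [hS.zero x p hp] using ((h0.eq_iff k2).2 k1).symm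

theorem exists_tau (hσ : IsSympl σ) {π π' : X → P1} (hπ' : HolP π') {S S' : X × (ℂ × ℂ) × ℂ → X}
    (hS : Spray σ π S) (hS' : Spray σ π' S') {x : X}
    (hr : ∃ p v, LiftAt π p x ∧ Moves p x v) (hf : ∃ᶠ y in 𝓝 x, π y = π x ∧ π' y ≠ π' x)
    {p : ℂ × ℂ} (hp : Rep p (π x)) : ∃ τ q, Rep q (π' (S (x, p, τ))) ∧
      sg σ (S (x, p, τ)) (tv S (S (x, p, τ)) p) (tv S' (S (x, p, τ)) q) ≠ 0 := by
  by_contra hne
  have h1 := Orb.const_orbit hσ hπ' hS hS' hp fun τ q hq => by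
    by_contra h
    exact hne ⟨τ, q, hq, h⟩
  obtain ⟨p₀, v, hl, hm⟩ := hr
  obtain ⟨c, hc, rfl, rfl⟩ := exists_curve x v
  obtain ⟨k, hk, rfl⟩ := hl.2.self_of_nhds.ratio hp
  have hP₀ : AnalyticAt ℂ (fun s => p₀ (c s)) 0 := HolF.comp hl.1 hc
  have hP : AnalyticAt ℂ (fun s => k • p₀ (c s)) 0 := hP₀.fun_const_smul
  have hR : ∀ᶠ s in 𝓝 (0 : ℂ), Rep (k • p₀ (c s)) (π (c s)) :=
    (hc.cont.eventually hl.2).mono fun s hs => hs.smul hk
  have hw : wr (fun s => p₀ (c s)) ≠ 0 := by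
    rw [hl.wr hc]
    exact moves_iff.1 hm
  have hsg : sg σ (c 0) (tv S (c 0) (k • p₀ (c 0))) (vel c 0) ≠ 0 := by
    rw [Orb.tv_smul hS hl.2.self_of_nhds hk, map_smul, LinearMap.smul_apply,
      hS.ham c _ hc hP₀ (hc.cont.eventually hl.2)]
    exact smul_ne_zero (pow_ne_zero 2 hk) hw
  have t1 : Tendsto (fun w : ℂ × ℂ => w.1) (𝓝 0) (𝓝 0) := continuous_fst.tendsto' 0 0 rfl
  have t2 : Tendsto (fun w : ℂ × ℂ => w.2) (𝓝 0) (𝓝 0) := continuous_snd.tendsto' 0 0 rfl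
  have hΨ : Hol (fun w : ℂ × ℂ => S (c w.2, k • p₀ (c w.2), w.1)) 0 :=
    hS.hol_comp (Hol.comp (g := fun w : ℂ × ℂ => w.2) hc analyticAt_snd)
      (AnalyticAt.comp_of_eq' (f := fun w : ℂ × ℂ => w.2) hP analyticAt_snd rfl) analyticAt_fst
      (t2.eventually hR)
  have d1 : dif (fun w : ℂ × ℂ => S (c w.2, k • p₀ (c w.2), w.1)) 0 (1, 0)
      = tv S (c 0) (k • p₀ (c 0)) := by
    rw [← Orb.line hΨ]
    simp [tv]
  have d2 : dif (fun w : ℂ × ℂ => S (c w.2, k • p₀ (c w.2), w.1)) 0 (0, 1) = vel c 0 := by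
    rw [← Orb.line hΨ, vel, vel, dif_congr (g := c)]
    filter_upwards [hR] with s hs
    simpa using hS.zero _ _ hs
  have hmap := Orb.map_nhds hΨ fun u => by
    refine ⟨(sg σ (c 0) (tv S (c 0) (k • p₀ (c 0))) (vel c 0))⁻¹ •
      (sg σ (c 0) u (vel c 0) • ((1, 0) : ℂ × ℂ)
        + sg σ (c 0) (tv S (c 0) (k • p₀ (c 0))) u • ((0, 1) : ℂ × ℂ)), ?_⟩
    rw [map_smul, map_add, map_smul, map_smul, d1, d2, sg_cramer hσ, inv_smul_smul₀ hsg]
  simp only [Prod.snd_zero, Prod.fst_zero, hS.zero _ _ hp] at hmap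
  rw [← hmap, frequently_map] at hf
  have hY : ∀ᶠ s in 𝓝[≠] (0 : ℂ), (p₀ (c 0)).1 * (p₀ (c s)).2 - (p₀ (c 0)).2 * (p₀ (c s)).1
      ≠ (p₀ (c 0)).1 * (p₀ (c 0)).2 - (p₀ (c 0)).2 * (p₀ (c 0)).1 := by
    have d := hP₀.differentiableAt.hasDerivAt
    have e1 : HasDerivAt (fun s => (p₀ (c s)).1) (deriv (fun s => p₀ (c s)) 0).1 0 := d.fst
    have e2 : HasDerivAt (fun s => (p₀ (c s)).2) (deriv (fun s => p₀ (c s)) 0).2 0 := d.snd
    exact HasDerivAt.eventually_ne ((e2.const_mul _).fun_sub (e1.const_mul _)) hw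
  refine hf ?_
  filter_upwards [t1.eventually h1, t2.eventually hR, t2.eventually (hc.cont.eventually hl.2),
    t2.eventually (eventually_nhdsWithin_iff.1 hY)] with w k1 k2 k3 k4 k5
  rw [hS.fib _ _ _ k2] at k5
  have k6 : w.2 = 0 := by
    by_contra k6
    refine k4 k6 ?_
    rw [(hl.2.self_of_nhds.eq_iff k3).1 k5.1.symm, mul_comm (p₀ (c 0)).1, sub_self, sub_self]
  rw [k6] at k5
  exact k5.2 k1

theorem span_nhds (hσ : IsSympl σ) {π π' : X → P1} (hπ' : HolP π')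
    {S S' : X × (ℂ × ℂ) × ℂ → X} (hS : Spray σ π S) (hS' : Spray σ π' S') {f : E → X}
    {p : E → ℂ × ℂ} {z : E} (hf : Hol f z) (hp : AnalyticAt ℂ p z)
    (hr : ∀ᶠ w in 𝓝 z, Rep (p w) (π (f w))) {τ : ℂ}
    (h : ∃ q, Rep q (π' (S (f z, p z, τ))) ∧ sg σ (S (f z, p z, τ))
      (tv S (S (f z, p z, τ)) (p z)) (tv S' (S (f z, p z, τ)) q) ≠ 0) :
    ∀ᶠ w in 𝓝 z, ∃ q, Rep q (π' (S (f w, p w, τ))) ∧ sg σ (S (f w, p w, τ))
      (tv S (S (f w, p w, τ)) (p w)) (tv S' (S (f w, p w, τ)) q) ≠ 0 := by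
  have a1 : AnalyticAt ℂ (fun v : E × ℂ × ℂ => v.2.1) (z, 0) :=
    analyticAt_fst.comp analyticAt_snd
  have a2 : AnalyticAt ℂ (fun v : E × ℂ × ℂ => v.2.2) (z, 0) :=
    analyticAt_snd.comp analyticAt_snd
  have hy : Hol (fun v : E × ℂ × ℂ => S (f v.1, p v.1, τ + v.2.1)) (z, 0) :=
    hS.hol_comp (Hol.comp (g := fun v : E × ℂ × ℂ => v.1) hf analyticAt_fst)
      (AnalyticAt.comp (f := fun v : E × ℂ × ℂ => v.1) hp analyticAt_fst)
      (analyticAt_const.add a1)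
      ((continuous_fst.tendsto' (z, 0) z rfl).eventually hr)
  obtain ⟨q, hq, hR⟩ := hπ'.locL hy
  have hq' : AnalyticAt ℂ (fun v : E × ℂ × ℂ => q (v.1, v.2.1, 0)) (z, 0) :=
    AnalyticAt.comp (f := fun v : E × ℂ × ℂ => (v.1, v.2.1, (0 : ℂ))) hq
      (analyticAt_fst.prod (a1.prod analyticAt_const))
  have hR' : ∀ᶠ v : E × ℂ × ℂ in 𝓝 (z, 0),
      Rep (q (v.1, v.2.1, 0)) (π' (S (f v.1, p v.1, τ + v.2.1))) :=
    (Continuous.tendsto' (f := fun v : E × ℂ × ℂ => (v.1, v.2.1, (0 : ℂ))) (by fun_prop)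
      (z, 0) (z, 0) rfl).eventually hR
  have hG := hS'.hol_comp hy hq' a2 hR'
  have key : ∀ᶠ w in 𝓝 z, Rep (q (w, 0, 0)) (π' (S (f w, p w, τ))) ∧
      sg σ (S (f w, p w, τ)) (tv S (S (f w, p w, τ)) (p w)) (tv S' (S (f w, p w, τ)) (q (w, 0, 0)))
      = sg σ (S' (S (f w, p w, τ + 0), q (w, 0, 0), 0))
        (dT (fun v : E × ℂ × ℂ => S' (S (f v.1, p v.1, τ + v.2.1), q (v.1, v.2.1, 0), v.2.2)) w
          (1, 0))
        (dT (fun v : E × ℂ × ℂ => S' (S (f v.1, p v.1, τ + v.2.1), q (v.1, v.2.1, 0), v.2.2)) w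
          (0, 1)) := by
    filter_upwards [hr, (Continuous.tendsto' (f := fun w : E => (w, (0 : ℂ × ℂ))) (by fun_prop)
      z (z, 0) rfl).eventually (hG.ev.and hR'.eventually_nhds)] with w k1 ⟨k2, k3⟩
    have k4 : Rep (q (w, 0, 0)) (π' (S (f w, p w, τ))) := by simpa using k3.self_of_nhds
    refine ⟨k4, ?_⟩
    rw [dT_vel k2, dT_vel k2, add_zero, hS'.zero _ _ k4, ← Orb.shift hS k1]
    congr 1
    · congr 1
      rw [vel, vel, dif_congr]
      filter_upwards [(Continuous.tendsto' (f := fun s : ℂ => (w, s, (0 : ℂ))) (by fun_prop)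
        0 (w, 0) rfl).eventually k3] with s hs
      simpa using (hS'.zero _ _ hs).symm
    · simp [tv]
  obtain ⟨q₁, hq₁, h₁⟩ := h
  obtain ⟨k0, k1⟩ := key.self_of_nhds
  obtain ⟨c, hc, rfl⟩ := k0.ratio hq₁
  rw [Orb.tv_smul hS' k0 hc, map_smul, k1] at h₁
  filter_upwards [key, (sg_analytic hσ hG (1, 0) (0, 1)).continuousAt.eventually_ne
    (right_ne_zero_of_smul h₁)] with w ⟨k2, k3⟩ k4
  exact ⟨_, k2, k3 ▸ k4⟩

end Vale.Agent.P290
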