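import Vale.Agent.P290.Spr
import Vale.Agent.P290.Orb

/-! Two pencils with finite common fibres. -/

open Set Filter Metric
open scoped Manifold ContDiff Topology

noncomputable section

namespace Vale.Agent.P290

variable {X : Type} [TopologicalSpace X] [ChartedSpace C2 X] [IsManifold 𝓘(ℂ, C2) ω X]
  {σ : Form2 X}

theorem QFin.freq [T2Space X] [CompactSpace X] (hσ : IsSympl σ) {π π' : X → P1} (hπ : HolP π)
    {x : X} (hfin : {y | π y = π x ∧ π' y = π' x}.Finite) {p : X → ℂ × ℂ} {v : C2}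
    (hp : LiftAt π p x) (hm : Moves p x v) : ∃ᶠ y in 𝓝 x, π y = π x ∧ π' y ≠ π' x := by
  intro hf
  obtain ⟨S, hS⟩ := exists_spray hσ hπ
  have hr : Rep (p x) (π x) := hp.2.self_of_nhds
  have hu : tv S x (p x) ≠ 0 := fun h0 => by
    obtain ⟨c, hc, rfl, hv⟩ := exists_curve x v
    have h1 := hS.ham c (fun s => p (c s)) hc (HolF.comp hp.1 hc) (hc.cont.tendsto.eventually hp.2)
    rw [h0, map_zero, LinearMap.zero_apply, hp.wr hc, hv] at h1
    exact moves_iff.1 hm h1.symm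
  have ht : Tendsto (fun s : ℂ => S (x, p x, s)) (𝓝 0) (𝓝 x) := by
    have h1 := (Orb.hol hS hr 0).cont.tendsto
    rwa [hS.zero x _ hr] at h1
  have h1 : ∀ᶠ y in 𝓝 x, y ∉ {y | π y = π x ∧ π' y = π' x} \ {x} :=
    (hfin.subset diff_subset).isClosed.isOpen_compl.mem_nhds fun h => h.2 rfl
  have h2 : (fun s : ℂ => S (x, p x, s)) =ᶠ[𝓝 0] fun _ => x := by
    filter_upwards [ht.eventually hf, ht.eventually h1] with s e1 e2
    by_contra e3
    exact e2 ⟨⟨hS.fib x _ s hr, not_not.1 fun e4 => e1 ⟨hS.fib x _ s hr, e4⟩⟩, e3⟩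
  refine hu ?_
  rw [tv, vel, dif_congr h2, dif, mfderiv_const]
  rfl

theorem pencils_of_finite [T2Space X] [CompactSpace X] (hσ : IsSympl σ) {π π' : X → P1}
    (hπ : HolP π) (hπ' : HolP π') (hfin : ∀ x, {y | π y = π x ∧ π' y = π' x}.Finite)
    (hr : ∀ x, (∃ p v, LiftAt π p x ∧ Moves p x v) ∨ ∃ p v, LiftAt π' p x ∧ Moves p x v) :
    TwoPencils X := fun x => by
  rcases hr x with ⟨p, v, hp, hm⟩ | ⟨p, v, hp, hm⟩
  · exact ⟨π, π', hπ, hπ', ⟨p, v, hp, hm⟩, QFin.freq hσ hπ (hfin x) hp hm⟩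
  · exact ⟨π', π, hπ', hπ, ⟨p, v, hp, hm⟩,
      QFin.freq hσ hπ' ((hfin x).subset fun _ h => h.symm) hp hm⟩

end Vale.Agent.P290
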