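import Vale.Agent.P290.QPen
import Vale.Agent.P290.QFin

/-! Double covers of a quadric. -/

open Set Filter Metric
open scoped Manifold ContDiff Topology

noncomputable section

namespace Vale.Agent.P290

namespace D44

/-- The weights. -/
def dd : Fin 2 → Fin 5 → ℕ := ![![1, 1, 0, 0, 2], ![0, 0, 1, 1, 2]]

/-- The cone. -/
def ZZ (c : Fin 5 → Fin 5 → ℂ) : Set (Fin 5 → ℂ) :=
  {w : Fin 5 → ℂ | (w 0, w 1) ≠ 0 ∧ (w 2, w 3) ≠ 0 ∧ w 4 ^ 2 = bi c w}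

/-- A pair of coordinates. -/
def pp (i j : Fin 5) (w : Fin 5 → ℂ) : ℂ × ℂ := (w i, w j)

theorem tact0 (s : Fin 2 → ℂ) (w : Fin 5 → ℂ) : tact dd s w 0 = s 0 * w 0 := by
  simp [tact, dd, Fin.prod_univ_two]

theorem tact1 (s : Fin 2 → ℂ) (w : Fin 5 → ℂ) : tact dd s w 1 = s 0 * w 1 := by
  simp [tact, dd, Fin.prod_univ_two]

theorem tact2 (s : Fin 2 → ℂ) (w : Fin 5 → ℂ) : tact dd s w 2 = s 1 * w 2 := by
  simp [tact, dd, Fin.prod_univ_two]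

theorem tact3 (s : Fin 2 → ℂ) (w : Fin 5 → ℂ) : tact dd s w 3 = s 1 * w 3 := by
  simp [tact, dd, Fin.prod_univ_two]

theorem tact4 (s : Fin 2 → ℂ) (w : Fin 5 → ℂ) :
    tact dd s w 4 = s 0 ^ 2 * s 1 ^ 2 * w 4 := by
  simp [tact, dd, Fin.prod_univ_two]

theorem orb0 (s : Fin 2 → ℂ) (w : Fin 5 → ℂ) : orb dd s w 0 = s 0 * w 0 := by
  simp [orb, dd, Fin.sum_univ_two]

theorem orb1 (s : Fin 2 → ℂ) (w : Fin 5 → ℂ) : orb dd s w 1 = s 0 * w 1 := by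
  simp [orb, dd, Fin.sum_univ_two]

theorem orb2 (s : Fin 2 → ℂ) (w : Fin 5 → ℂ) : orb dd s w 2 = s 1 * w 2 := by
  simp [orb, dd, Fin.sum_univ_two]

theorem orb3 (s : Fin 2 → ℂ) (w : Fin 5 → ℂ) : orb dd s w 3 = s 1 * w 3 := by
  simp [orb, dd, Fin.sum_univ_two]

theorem orb4 (s : Fin 2 → ℂ) (w : Fin 5 → ℂ) :
    orb dd s w 4 = (s 0 * 2 + s 1 * 2) * w 4 := by
  simp [orb, dd, Fin.sum_univ_two]

theorem bi_congr (c : Fin 5 → Fin 5 → ℂ) {w w' : Fin 5 → ℂ} (h0 : w 0 = w' 0) (h1 : w 1 = w' 1)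
    (h2 : w 2 = w' 2) (h3 : w 3 = w' 3) : bi c w = bi c w' := by
  unfold bi
  rw [h0, h1, h2, h3]

theorem bi_scale (c : Fin 5 → Fin 5 → ℂ) {w w' : Fin 5 → ℂ} {s t : ℂ} (h0 : w' 0 = s * w 0)
    (h1 : w' 1 = s * w 1) (h2 : w' 2 = t * w 2) (h3 : w' 3 = t * w 3) :
    bi c w' = s ^ 4 * t ^ 4 * bi c w := by
  unfold bi
  rw [h0, h1, h2, h3, Finset.mul_sum]
  refine Finset.sum_congr rfl fun i _ => ?_
  rw [Finset.mul_sum]
  refine Finset.sum_congr rfl fun j _ => ?_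
  have hs : s ^ 4 = s ^ (i : ℕ) * s ^ (4 - (i : ℕ)) := by
    rw [← pow_add]
    congr 1
    have := i.2
    omega
  have ht : t ^ 4 = t ^ (j : ℕ) * t ^ (4 - (j : ℕ)) := by
    rw [← pow_add]
    congr 1
    have := j.2
    omega
  rw [hs, ht, mul_pow, mul_pow, mul_pow, mul_pow]
  ring

theorem an_co (i : Fin 5) (w : Fin 5 → ℂ) : AnalyticAt ℂ (fun w : Fin 5 → ℂ => w i) w :=
  (ContinuousLinearMap.proj (R := ℂ) (φ := fun _ : Fin 5 => ℂ) i).analyticAt w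

theorem an_bi (c : Fin 5 → Fin 5 → ℂ) (w : Fin 5 → ℂ) : AnalyticAt ℂ (bi c) w := by
  unfold bi
  refine Finset.analyticAt_fun_sum _ fun i _ => Finset.analyticAt_fun_sum _ fun j _ => ?_
  exact (analyticAt_const.mul (((an_co 0 w).pow _).mul ((an_co 1 w).pow _))).mul
    (((an_co 2 w).pow _).mul ((an_co 3 w).pow _))

theorem dbi4 (c : Fin 5 → Fin 5 → ℂ) (w : Fin 5 → ℂ) :
    fderiv ℂ (bi c) w (Pi.single 4 1) = 0 := by
  have h1 := ((an_bi c w).differentiableAt.hasFDerivAt.hasLineDerivAt (Pi.single 4 1))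
  have h2 : HasLineDerivAt ℂ (bi c) 0 w (Pi.single 4 1) := by
    have e : (fun t : ℂ => bi c (w + t • (Pi.single 4 1 : Fin 5 → ℂ))) = fun _ => bi c w := by
      funext t
      refine bi_congr c ?_ ?_ ?_ ?_ <;> simp
    unfold HasLineDerivAt
    rw [e]
    exact hasDerivAt_const _ _
  exact h1.unique h2

/-- The equation. -/
def ff (c : Fin 5 → Fin 5 → ℂ) (w : Fin 5 → ℂ) : Fin 1 → ℂ := fun _ => w 4 ^ 2 - bi c w

theorem dff (c : Fin 5 → Fin 5 → ℂ) (w ξ : Fin 5 → ℂ) (r : Fin 1) :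
    fderiv ℂ (ff c) w ξ r = 2 * w 4 * ξ 4 - fderiv ℂ (bi c) w ξ := by
  have h4 : HasFDerivAt (fun w : Fin 5 → ℂ => w 4)
      (ContinuousLinearMap.proj (R := ℂ) (φ := fun _ : Fin 5 => ℂ) 4) w :=
    (ContinuousLinearMap.proj (R := ℂ) (φ := fun _ : Fin 5 => ℂ) 4).hasFDerivAt
  have h := (h4.pow 2).sub (an_bi c w).differentiableAt.hasFDerivAt
  have h' := hasFDerivAt_pi.2 fun _ : Fin 1 => h
  have e : fderiv ℂ (ff c) w = _ := h'.fderiv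
  rw [e]
  simp

theorem eqs (c : Fin 5 → Fin 5 → ℂ)
    (hc : ∀ w : Fin 5 → ℂ, (w 0, w 1) ≠ 0 → (w 2, w 3) ≠ 0 → bi c w = 0 →
      fderiv ℂ (bi c) w ≠ 0) : Eqs dd (ZZ c) (ff c) (fun _ _ => 4) where
  an := fun w _ => AnalyticAt.pi fun _ => ((an_co 4 w).pow 2).sub (an_bi c w)
  zero := fun w hw => funext fun _ => sub_eq_zero.2 hw.2.2
  hom := fun s w => by
    funext r
    have e := bi_scale c (tact0 s w) (tact1 s w) (tact2 s w) (tact3 s w)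
    have e' : tact (fun (_ : Fin 2) (_ : Fin 1) => 4) s (ff c w) r =
        s 0 ^ 4 * s 1 ^ 4 * (w 4 ^ 2 - bi c w) := by
      simp [tact, ff, Fin.prod_univ_two]
    rw [e']
    change tact dd s w 4 ^ 2 - bi c (tact dd s w) = _
    rw [e, tact4]
    ring
  surj := fun w hw => by
    obtain ⟨ξ, hξ⟩ : ∃ ξ : Fin 5 → ℂ, 2 * w 4 * ξ 4 - fderiv ℂ (bi c) w ξ ≠ 0 := by
      by_cases h4 : w 4 = 0
      · have hb : bi c w = 0 := by
          rw [← hw.2.2, h4]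
          simp
        obtain ⟨ξ, hξ⟩ := DFunLike.ne_iff.1 (hc w hw.1 hw.2.1 hb)
        refine ⟨ξ, ?_⟩
        rw [h4]
        simpa using hξ
      · refine ⟨Pi.single 4 1, ?_⟩
        rw [dbi4]
        simpa using h4
    intro y
    refine ⟨(y 0 / (2 * w 4 * ξ 4 - fderiv ℂ (bi c) w ξ)) • ξ, funext fun r => ?_⟩
    rw [map_smul, Pi.smul_apply, dff, smul_eq_mul, div_mul_cancel₀ _ hξ, Subsingleton.elim r 0]
  cy := fun k => by
    fin_cases k <;> simp [dd, Fin.sum_univ_five]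
  dim := by simp

theorem ex01 {w : Fin 5 → ℂ} (h : (w 0, w 1) ≠ 0) : w 0 ≠ 0 ∨ w 1 ≠ 0 := by
  by_contra hn
  push Not at hn
  exact h (Prod.ext hn.1 hn.2)

theorem ex23 {w : Fin 5 → ℂ} (h : (w 2, w 3) ≠ 0) : w 2 ≠ 0 ∨ w 3 ≠ 0 := by
  by_contra hn
  push Not at hn
  exact h (Prod.ext hn.1 hn.2)

theorem free_aux {w : Fin 5 → ℂ} {i : Fin 5} (hi : w i ≠ 0) {k : Fin 2}
    (hd : ∀ k', (dd k' i : ℤ) = if k' = k then 1 else 0) :
    ∃ m : Fin 5 → ℤ, (∀ i, m i ≠ 0 → w i ≠ 0) ∧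
      ∀ k', ∑ i, m i * (dd k' i : ℤ) = if k' = k then 1 else 0 := by
  refine ⟨Pi.single i 1, fun j hj => ?_, fun k' => ?_⟩
  · by_cases e : j = i
    · rwa [e]
    · exact absurd (Pi.single_eq_of_ne e 1) hj
  · rw [Finset.sum_eq_single i, Pi.single_eq_same, one_mul, hd]
    · intro j _ e
      rw [Pi.single_eq_of_ne e, zero_mul]
    · intro h
      exact absurd (Finset.mem_univ i) h

theorem free (c : Fin 5 → Fin 5 → ℂ) : Free dd (ZZ c) := by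
  intro w hw k
  fin_cases k
  · rcases ex01 hw.1 with h | h
    · exact free_aux h (by intro k'; fin_cases k' <;> simp [dd])
    · exact free_aux h (by intro k'; fin_cases k' <;> simp [dd])
  · rcases ex23 hw.2.1 with h | h
    · exact free_aux h (by intro k'; fin_cases k' <;> simp [dd])
    · exact free_aux h (by intro k'; fin_cases k' <;> simp [dd])

theorem an_pp (i j : Fin 5) : AnalyticOnNhd ℂ (pp i j) univ :=
  fun w _ => (an_co i w).prod (an_co j w)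

theorem cr_pp (i j : Fin 5) (w ξ : Fin 5 → ℂ) : cr (pp i j) w ξ = w i * ξ j - w j * ξ i := by
  have e : fderiv ℂ (pp i j) w =
      (ContinuousLinearMap.proj (R := ℂ) (φ := fun _ : Fin 5 => ℂ) i).prod
        (ContinuousLinearMap.proj (R := ℂ) (φ := fun _ : Fin 5 => ℂ) j) :=
    ((ContinuousLinearMap.proj (R := ℂ) (φ := fun _ : Fin 5 => ℂ) i).prod
        (ContinuousLinearMap.proj (R := ℂ) (φ := fun _ : Fin 5 => ℂ) j)).fderiv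
  unfold cr
  rw [e]
  rfl

theorem pen01 (c : Fin 5 → Fin 5 → ℂ) : Pen dd (ZZ c) (pp 0 1) (pp 0 1) := by
  have h : ∀ (s : Fin 2 → ℂ) (w : Fin 5 → ℂ), (∀ k, s k ≠ 0) →
      ∃ t : ℂ, t ≠ 0 ∧ pp 0 1 (tact dd s w) = t • pp 0 1 w := fun s w hs =>
    ⟨s 0, hs 0, Prod.ext (tact0 s w) (tact1 s w)⟩
  exact ⟨an_pp 0 1, an_pp 0 1, h, h, fun w hw => Or.inl hw.1, fun w _ => mul_comm _ _⟩

theorem pen23 (c : Fin 5 → Fin 5 → ℂ) : Pen dd (ZZ c) (pp 2 3) (pp 2 3) := by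
  have h : ∀ (s : Fin 2 → ℂ) (w : Fin 5 → ℂ), (∀ k, s k ≠ 0) →
      ∃ t : ℂ, t ≠ 0 ∧ pp 2 3 (tact dd s w) = t • pp 2 3 w := fun s w hs =>
    ⟨s 1, hs 1, Prod.ext (tact2 s w) (tact3 s w)⟩
  exact ⟨an_pp 2 3, an_pp 2 3, h, h, fun w hw => Or.inl hw.2.1, fun w _ => mul_comm _ _⟩

theorem vec_ext {u v : Fin 5 → ℂ} (h0 : u 0 = v 0) (h1 : u 1 = v 1) (h2 : u 2 = v 2)
    (h3 : u 3 = v 3) (h4 : u 4 = v 4) : u = v := by
  funext i
  fin_cases i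
  exacts [h0, h1, h2, h3, h4]

/-- The sheet exchange. -/
def sw (w : Fin 5 → ℂ) : Fin 5 → ℂ := Function.update w 4 (-w 4)

theorem sw0 (w : Fin 5 → ℂ) : sw w 0 = w 0 := by simp [sw]
theorem sw1 (w : Fin 5 → ℂ) : sw w 1 = w 1 := by simp [sw]
theorem sw2 (w : Fin 5 → ℂ) : sw w 2 = w 2 := by simp [sw]
theorem sw3 (w : Fin 5 → ℂ) : sw w 3 = w 3 := by simp [sw]
theorem sw4 (w : Fin 5 → ℂ) : sw w 4 = -w 4 := by simp [sw]

theorem sw_mem {c : Fin 5 → Fin 5 → ℂ} {w : Fin 5 → ℂ} (hw : w ∈ ZZ c) : sw w ∈ ZZ c := by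
  refine ⟨?_, ?_, ?_⟩
  · rw [sw0, sw1]
    exact hw.1
  · rw [sw2, sw3]
    exact hw.2.1
  · rw [sw4, bi_congr c (sw0 w) (sw1 w) (sw2 w) (sw3 w), neg_sq]
    exact hw.2.2

theorem two {c : Fin 5 → Fin 5 → ℂ} {w w' : Fin 5 → ℂ} (hw : w ∈ ZZ c) (hw' : w' ∈ ZZ c)
    {s t : ℂ} (h : pp 0 1 w' = s • pp 0 1 w) (h' : pp 2 3 w' = t • pp 2 3 w) :
    w' = tact dd ![s, t] w ∨ w' = tact dd ![s, t] (sw w) := by
  have h0 : w' 0 = s * w 0 := congrArg Prod.fst h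
  have h1 : w' 1 = s * w 1 := congrArg Prod.snd h
  have h2 : w' 2 = t * w 2 := congrArg Prod.fst h'
  have h3 : w' 3 = t * w 3 := congrArg Prod.snd h'
  have e : w' 4 ^ 2 = (s ^ 2 * t ^ 2 * w 4) ^ 2 := by
    rw [hw'.2.2, bi_scale c h0 h1 h2 h3, ← hw.2.2]
    ring
  rcases sq_eq_sq_iff_eq_or_eq_neg.1 e with e | e
  · left
    refine vec_ext ?_ ?_ ?_ ?_ ?_
    · rw [tact0, h0]; rfl
    · rw [tact1, h1]; rfl
    · rw [tact2, h2]; rfl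
    · rw [tact3, h3]; rfl
    · rw [tact4, e]; rfl
  · right
    refine vec_ext ?_ ?_ ?_ ?_ ?_
    · rw [tact0, h0, sw0]; rfl
    · rw [tact1, h1, sw1]; rfl
    · rw [tact2, h2, sw2]; rfl
    · rw [tact3, h3, sw3]; rfl
    · rw [tact4, e, sw4, mul_neg]; rfl

theorem ratio {p₁ p₂ : ℂ} (h : p₁ ≠ 0 ∨ p₂ ≠ 0) :
    ∃ a b : ℂ, ∀ q₁ q₂ : ℂ, p₁ * q₂ - p₂ * q₁ = 0 →
      q₁ = (a * q₁ + b * q₂) * p₁ ∧ q₂ = (a * q₁ + b * q₂) * p₂ := by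
  rcases h with h | h
  · refine ⟨p₁⁻¹, 0, fun q₁ q₂ e => ⟨?_, ?_⟩⟩
    · field_simp
      ring
    · field_simp
      linear_combination e
  · refine ⟨0, p₂⁻¹, fun q₁ q₂ e => ⟨?_, ?_⟩⟩
    · field_simp
      linear_combination -e
    · field_simp
      ring

theorem ker {w : Fin 5 → ℂ} (h : (w 0, w 1) ≠ 0) (h' : (w 2, w 3) ≠ 0)
    (L : C2 →L[ℂ] (Fin 5 → ℂ)) (e : ∀ v, cr (pp 0 1) w (L v) = 0)
    (e' : ∀ v, cr (pp 2 3) w (L v) = 0) : ∃ v s, v ≠ 0 ∧ L v = orb dd s w := by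
  obtain ⟨a, b, hab⟩ := ratio (ex01 h)
  obtain ⟨a', b', hab'⟩ := ratio (ex23 h')
  let T : (Fin 5 → ℂ) →ₗ[ℂ] ℂ :=
    { toFun := fun ξ => ξ 4 - ((a * ξ 0 + b * ξ 1) * 2 + (a' * ξ 2 + b' * ξ 3) * 2) * w 4
      map_add' := fun x y => by
        simp only [Pi.add_apply]
        ring
      map_smul' := fun t x => by
        simp only [Pi.smul_apply, smul_eq_mul, RingHom.id_apply]
        ring }
  have hk : LinearMap.ker (T ∘ₗ (L : C2 →ₗ[ℂ] (Fin 5 → ℂ))) ≠ ⊥ := by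
    apply LinearMap.ker_ne_bot_of_finrank_lt
    simp
  obtain ⟨v, hv, hv0⟩ := Submodule.exists_mem_ne_zero_of_ne_bot hk
  have hT : L v 4 - ((a * L v 0 + b * L v 1) * 2 + (a' * L v 2 + b' * L v 3) * 2) * w 4 = 0 := hv
  have e1 := hab _ _ ((cr_pp 0 1 w (L v)).symm.trans (e v))
  have e2 := hab' _ _ ((cr_pp 2 3 w (L v)).symm.trans (e' v))
  refine ⟨v, ![a * L v 0 + b * L v 1, a' * L v 2 + b' * L v 3], hv0, vec_ext ?_ ?_ ?_ ?_ ?_⟩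
  · rw [orb0]; exact e1.1
  · rw [orb1]; exact e1.2
  · rw [orb2]; exact e2.1
  · rw [orb3]; exact e2.2
  · rw [orb4]; exact sub_eq_zero.1 hT

end D44

variable {X : Type} [MetricSpace X] [CompactSpace X] [ChartedSpace C2 X] [IsManifold 𝓘(ℂ, C2) ω X]

open D44 in
theorem oka_double (h : IsDouble X) : IsOka X := by
  obtain ⟨c, hc, hq⟩ := h
  obtain ⟨ρ, hρ⟩ : ∃ ρ : (Fin 5 → ℂ) → X, QD dd (ZZ c) ρ := IsQuot.qd hq (free c)
  obtain ⟨σ, hσ⟩ := hρ.sympl (eqs c hc)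
  obtain ⟨π, hπ, hr⟩ := hρ.pencil (pen01 c)
  obtain ⟨π', hπ', hr'⟩ := hρ.pencil (pen23 c)
  have onto : ∀ x : X, ∃ w ∈ ZZ c, ρ w = x := fun x => by
    obtain ⟨l, hl⟩ := hρ.ex x
    exact ⟨l x, hl.2.self_of_nhds.1, hl.2.self_of_nhds.2⟩
  refine oka_of_pencils hσ (pencils_of_finite hσ hπ hπ' (fun x => ?_) fun x => ?_)
  · obtain ⟨w, hw, rfl⟩ := onto x
    refine (Set.toFinite {ρ w, ρ (sw w)}).subset fun y hy => ?_
    obtain ⟨w', hw', rfl⟩ := onto y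
    obtain ⟨s, hs, es⟩ := ((hr w hw).1 hw.1).ratio (hy.1 ▸ (hr w' hw').1 hw'.1)
    obtain ⟨t, ht, et⟩ := ((hr' w hw).1 hw.2.1).ratio (hy.2 ▸ (hr' w' hw').1 hw'.2.1)
    have hst : ∀ k, (![s, t] : Fin 2 → ℂ) k ≠ 0 := fun k => by
      fin_cases k
      exacts [hs, ht]
    rcases two hw hw' es et with e | e
    · exact Or.inl ((hρ.fib w hw w' hw').2 ⟨_, hst, e⟩).symm
    · exact Or.inr ((hρ.fib _ (sw_mem hw) w' hw').2 ⟨_, hst, e⟩).symm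
  · obtain ⟨l, hl⟩ := hρ.ex x
    have hw : l x ∈ ZZ c := hl.2.self_of_nhds.1
    by_contra hn
    rw [not_or] at hn
    have e : ∀ v, cr (pp 0 1) (l x) (dfn l x v) = 0 := fun v => by
      by_contra hv
      exact hn.1 ⟨_, v, hl.liftAt (an_pp 0 1) (fun w hw => (hr w hw).1) hw.1,
        (hl.moves_iff (an_pp 0 1) v).2 hv⟩
    have e' : ∀ v, cr (pp 2 3) (l x) (dfn l x v) = 0 := fun v => by
      by_contra hv
      exact hn.2 ⟨_, v, hl.liftAt (an_pp 2 3) (fun w hw => (hr' w hw).1) hw.2.1,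
        (hl.moves_iff (an_pp 2 3) v).2 hv⟩
    obtain ⟨v, s, hv, hs⟩ := ker hw.1 hw.2.1 (dfn l x) e e'
    exact hv (hρ.imm x l hl v s hs)

end Vale.Agent.P290
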