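import Vale.Agent.P290.QPen

/-! Three diagonal quadrics. -/

open Set Filter Metric
open scoped Manifold ContDiff Topology

noncomputable section

namespace Vale.Agent.P290

namespace Diag

open Matrix

variable {a : Matrix (Fin 3) (Fin 6) ℂ}

theorem supp (ha : ∀ s : Fin 3 → Fin 6, Function.Injective s → (a.submatrix id s).det ≠ 0)
    (τ : Equiv.Perm (Fin 6)) {y : Fin 6 → ℂ} (hy : ∀ i, ∑ j, a i j * y j = 0) (h0 : y (τ 0) = 0)
    (h1 : y (τ 1) = 0) (h2 : y (τ 2) = 0) : y = 0 := by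
  have h := Matrix.eq_zero_of_mulVec_eq_zero (v := fun k => y (τ (Fin.natAdd 3 k)))
    (ha (fun k => τ (Fin.natAdd 3 k)) (τ.injective.comp (Fin.natAdd_injective 3 3)))
    (funext fun i => by
      have := hy i
      rw [← Equiv.sum_comp τ, Fin.sum_univ_six, h0, h1, h2] at this
      simpa [mulVec, dotProduct, Fin.sum_univ_three] using this)
  funext j
  obtain ⟨k, rfl⟩ := τ.surjective j
  fin_cases k
  exacts [h0, h1, h2, congrFun h 0, congrFun h 1, congrFun h 2]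

theorem supp_sq (ha : ∀ s : Fin 3 → Fin 6, Function.Injective s → (a.submatrix id s).det ≠ 0)
    (τ : Equiv.Perm (Fin 6)) {w : Fin 6 → ℂ} (hw : ∀ i, ∑ j, a i j * w j ^ 2 = 0)
    (h0 : w (τ 0) = 0) (h1 : w (τ 1) = 0) (h2 : w (τ 2) = 0) : w = 0 :=
  funext fun j => pow_eq_zero_iff two_ne_zero |>.1 (congrFun (supp ha τ (y := fun j => w j ^ 2) hw
    (by simp [h0]) (by simp [h1]) (by simp [h2])) j)

theorem three (ha : ∀ s : Fin 3 → Fin 6, Function.Injective s → (a.submatrix id s).det ≠ 0)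
    {w : Fin 6 → ℂ} (h0 : w ≠ 0) (hw : ∀ i, ∑ j, a i j * w j ^ 2 = 0) :
    ∃ τ : Equiv.Perm (Fin 6), ∀ k, 2 ≤ k → w (τ k) ≠ 0 := by
  refine ⟨Tuple.sort fun j => ‖w j‖, fun k hk hz => h0 ?_⟩
  have h : ∀ j, j ≤ 2 → w (Tuple.sort (fun j => ‖w j‖) j) = 0 := fun j hj =>
    norm_le_zero_iff.1 ((Tuple.monotone_sort (fun j => ‖w j‖) (hj.trans hk)).trans_eq
      (norm_eq_zero.2 hz))
  exact supp_sq ha _ hw (h 0 (by decide)) (h 1 (by decide)) (h 2 le_rfl)

theorem row (ha : ∀ s : Fin 3 → Fin 6, Function.Injective s → (a.submatrix id s).det ≠ 0)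
    (τ : Equiv.Perm (Fin 6)) : ∃ β : Fin 6 → ℂ, (∀ k, k < 4 → β k ≠ 0) ∧
      ∀ y : Fin 6 → ℂ, (∀ i, ∑ j, a i j * y j = 0) → β 0 ^ 2 * y (τ 0) + β 1 ^ 2 * y (τ 1) +
        β 2 ^ 2 * y (τ 2) + β 3 ^ 2 * y (τ 3) = 0 := by
  choose β hβ using fun k => IsAlgClosed.exists_pow_nat_eq
    (aᵀ (τ k) ⬝ᵥ crossProduct (aᵀ (τ 4)) (aᵀ (τ 5))) two_pos
  refine ⟨β, fun k hk h0 => ?_, fun y hy => ?_⟩
  · have hi : Function.Injective ![k, 4, 5] :=
      (by decide : ∀ k : Fin 6, k < 4 → Function.Injective ![k, 4, 5]) k hk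
    refine ha (fun r => τ (![k, 4, 5] r)) (τ.injective.comp hi) ?_
    have h1 := hβ k
    rw [h0, zero_pow two_ne_zero, triple_product_eq_det] at h1
    rw [← det_transpose, h1]
    congr 1
    ext r i
    fin_cases r <;> rfl
  · have h1 : ∑ k, β k ^ 2 * y (τ k) = 0 := by
      simp only [hβ, dotProduct, Finset.sum_mul]
      rw [Finset.sum_comm]
      refine Finset.sum_eq_zero fun i _ => ?_
      have h2 := hy i
      rw [← Equiv.sum_comp τ] at h2
      simp only [transpose_apply, mul_right_comm (a i _)]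
      rw [← Finset.sum_mul, h2, zero_mul]
    rw [Fin.sum_univ_six, hβ 4, hβ 5, dot_self_cross, dot_cross_self] at h1
    simpa using h1

/-- a linear form in two coordinates -/
def lin (i j : Fin 6) (p q : ℂ) : (Fin 6 → ℂ) →L[ℂ] ℂ :=
  p • ContinuousLinearMap.proj i + q • ContinuousLinearMap.proj j

theorem lin_apply (i j : Fin 6) (p q : ℂ) (w : Fin 6 → ℂ) : lin i j p q w = p * w i + q * w j := rfl

theorem lin_zero {p q x y : ℂ} (hp : p ≠ 0) (hq : q ≠ 0) (h : p * x + Complex.I * q * y = 0)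
    (h' : p * x + -(Complex.I * q) * y = 0) : x = 0 ∧ y = 0 :=
  ⟨(mul_eq_zero.1 (by linear_combination (h + h') / 2 : p * x = 0)).resolve_left hp,
    (mul_eq_zero.1 (by linear_combination (h - h') / 2 : Complex.I * q * y = 0)).resolve_left
      (mul_ne_zero Complex.I_ne_zero hq)⟩

theorem quad (ha : ∀ s : Fin 3 → Fin 6, Function.Injective s → (a.submatrix id s).det ≠ 0)
    (τ : Equiv.Perm (Fin 6)) : ∃ A B C D : (Fin 6 → ℂ) →L[ℂ] ℂ,
      (∀ w ξ : Fin 6 → ℂ, (∀ i, ∑ j, a i j * (w j * ξ j) = 0) →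
        A w * B ξ + B w * A ξ + C w * D ξ + D w * C ξ = 0) ∧
      ∀ z, A z = 0 → B z = 0 → C z = 0 → D z = 0 →
        (z (τ 0) = 0 ∧ z (τ 1) = 0) ∧ z (τ 2) = 0 ∧ z (τ 3) = 0 := by
  obtain ⟨β, h0, h⟩ := row ha τ
  refine ⟨lin (τ 0) (τ 1) (β 0) (Complex.I * β 1), lin (τ 0) (τ 1) (β 0) (-(Complex.I * β 1)),
    lin (τ 2) (τ 3) (β 2) (Complex.I * β 3), lin (τ 2) (τ 3) (β 2) (-(Complex.I * β 3)),
    fun w ξ hw => ?_, fun z hA hB hC hD => ⟨lin_zero (h0 0 (by decide)) (h0 1 (by decide)) hA hB,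
      lin_zero (h0 2 (by decide)) (h0 3 (by decide)) hC hD⟩⟩
  simp only [lin_apply]
  linear_combination 2 * h _ hw - 2 * (β 1 ^ 2 * (w (τ 1) * ξ (τ 1)) +
    β 3 ^ 2 * (w (τ 3) * ξ (τ 3))) * Complex.I_sq

theorem four {A B C D p q r s : ℂ} (h0 : A * B + C * D = 0)
    (h1 : A * q + B * p + C * s + D * r = 0) (h2 : A * r = C * p) (h3 : A * s = D * p)
    (hA : A ≠ 0) : ∃ t, p = t * A ∧ q = t * B ∧ r = t * C ∧ s = t * D := by
  obtain ⟨t, rfl⟩ : ∃ t, p = t * A := ⟨p / A, (div_mul_cancel₀ p hA).symm⟩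
  obtain rfl : r = t * C := mul_left_cancel₀ hA (by linear_combination h2)
  obtain rfl : s = t * D := mul_left_cancel₀ hA (by linear_combination h3)
  exact ⟨t, rfl, mul_left_cancel₀ hA (by linear_combination h1 - 2 * t * h0), rfl, rfl⟩

theorem four' {A B C D p q r s : ℂ} (h0 : A * B + C * D = 0)
    (h1 : A * q + B * p + C * s + D * r = 0) (h2 : A * r = C * p) (h3 : A * s = D * p)
    (h4 : B * r = C * q) (h5 : B * s = D * q) (hne : ¬(A = 0 ∧ B = 0 ∧ C = 0 ∧ D = 0)) :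
    ∃ t, p = t * A ∧ q = t * B ∧ r = t * C ∧ s = t * D := by
  by_cases hA : A = 0
  swap
  · exact four h0 h1 h2 h3 hA
  by_cases hB : B = 0
  swap
  · obtain ⟨t, e1, e2, e3, e4⟩ := four (B := A) (C := C) (D := D) (q := p)
      (by linear_combination h0) (by linear_combination h1) h4 h5 hB
    exact ⟨t, e2, e1, e3, e4⟩
  by_cases hC : C = 0
  swap
  · obtain ⟨t, e1, e2, e3, e4⟩ := four (B := D) (C := A) (D := B) (q := s)
      (by linear_combination h0) (by linear_combination h1) h2.symm h4.symm hC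
    exact ⟨t, e3, e4, e1, e2⟩
  · obtain ⟨t, e1, e2, e3, e4⟩ := four (B := C) (C := A) (D := B) (q := r)
      (by linear_combination h0) (by linear_combination h1) h3.symm h5.symm
      fun hD => hne ⟨hA, hB, hC, hD⟩
    exact ⟨t, e3, e4, e2, e1⟩

theorem tact_eq (c : Fin 1 → ℂ) (w : Fin 6 → ℂ) : tact (fun _ _ => 1) c w = c 0 • w := by
  funext i
  simp [tact]

theorem pen {Z : Set (Fin 6 → ℂ)} (L L' : (Fin 6 → ℂ) →L[ℂ] ℂ × ℂ)
    (h : ∀ w ∈ Z, L w ≠ 0 ∨ L' w ≠ 0) (h' : ∀ w ∈ Z, (L w).1 * (L' w).2 = (L w).2 * (L' w).1) :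
    Pen (fun (_ : Fin 1) (_ : Fin 6) => 1) Z L L' :=
  ⟨L.analyticOnNhd _, L'.analyticOnNhd _,
    fun c w hc => ⟨c 0, hc 0, by rw [tact_eq, map_smul]⟩,
    fun c w hc => ⟨c 0, hc 0, by rw [tact_eq, map_smul]⟩, h, h'⟩

theorem cr_lin (L : (Fin 6 → ℂ) →L[ℂ] ℂ × ℂ) (w ξ : Fin 6 → ℂ) :
    cr L w ξ = (L w).1 * (L ξ).2 - (L w).2 * (L ξ).1 := by
  rw [cr, L.fderiv]

theorem df (a : Matrix (Fin 3) (Fin 6) ℂ) (w ξ : Fin 6 → ℂ) (i : Fin 3) :
    fderiv ℂ (fun (w : Fin 6 → ℂ) i => ∑ j, a i j * w j ^ 2) w ξ i =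
      2 * ∑ j, a i j * (w j * ξ j) := by
  rw [(hasFDerivAt_pi.2 fun i => HasFDerivAt.fun_sum fun j _ =>
    ((hasFDerivAt_apply (𝕜 := ℂ) j w).pow 2).const_mul (a i j)).fderiv, Finset.mul_sum]
  simp only [ContinuousLinearMap.pi_apply, _root_.sum_apply, _root_.smul_apply,
    ContinuousLinearMap.proj_apply, smul_eq_mul, nsmul_eq_mul]
  exact Finset.sum_congr rfl fun j _ => by
    push_cast
    ring

end Diag

variable {X : Type} [MetricSpace X] [CompactSpace X] [ChartedSpace C2 X] [IsManifold 𝓘(ℂ, C2) ω X]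

theorem oka_diag (h : IsDiag X) : IsOka X := by
  obtain ⟨a, ha, h⟩ := h
  choose A B C D h1 h2 using Diag.quad ha
  have h3 : ∀ τ w, (∀ i, ∑ j, a i j * w j ^ 2 = 0) → A τ w * B τ w + C τ w * D τ w = 0 :=
    fun τ w hw => by linear_combination h1 τ w w (by simpa only [pow_two] using hw) / 2
  have h4 : ∀ τ w, w ≠ 0 → (∀ i, ∑ j, a i j * w j ^ 2 = 0) →
      ¬(A τ w = 0 ∧ B τ w = 0 ∧ C τ w = 0 ∧ D τ w = 0) := fun τ w h0 hw h =>
    have h5 := h2 τ w h.1 h.2.1 h.2.2.1 h.2.2.2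
    h0 (Diag.supp_sq ha τ hw h5.1.1 h5.1.2 h5.2.1)
  refine oka_of_quot h (fun w hw k => ?_) (f := fun w i => ∑ j, a i j * w j ^ 2)
    (e := fun _ _ => 2) ⟨fun w _ => analyticAt_pi_iff.2 fun i => Finset.analyticAt_fun_sum _
      fun j _ => analyticAt_const.mul (((ContinuousLinearMap.proj j :
        (Fin 6 → ℂ) →L[ℂ] ℂ).analyticAt w).pow 2), fun w hw => funext hw.2, fun c w => ?_,
      fun w hw t => ?_, fun _ => by simp, by simp⟩ (J := Equiv.Perm (Fin 6) × Bool)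
    (a := fun j => (A j.1).prod (cond j.2 (C j.1) (D j.1)))
    (b := fun j => (-cond j.2 (D j.1) (C j.1)).prod (B j.1))
    (fun j => Diag.pen _ _ (fun w hw => ?_) fun w hw => ?_) fun w hw ξ hξ hc => ?_
  · obtain ⟨i, hi⟩ := Function.ne_iff.1 hw.1
    refine ⟨Pi.single i 1, fun j hj => ?_, fun k' => by simp [Subsingleton.elim k' k]⟩
    obtain rfl : j = i := by_contra fun h => hj (Pi.single_eq_of_ne h _)
    exact hi
  · funext i
    simp only [tact, Fin.prod_univ_one, Finset.mul_sum]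
    exact Finset.sum_congr rfl fun j _ => by ring
  · obtain ⟨τ, hτ⟩ := Diag.three ha hw.1 hw.2
    obtain ⟨y, rfl⟩ := Matrix.mulVec_surjective_iff_isUnit.2 ((Matrix.isUnit_iff_isUnit_det _).2
      (ha (fun k => τ (Fin.natAdd 3 k)) (τ.injective.comp (Fin.natAdd_injective 3 3))).isUnit) t
    refine ⟨∑ k, Pi.single (τ (Fin.natAdd 3 k)) (y k / (2 * w (τ (Fin.natAdd 3 k)))), ?_⟩
    rw [map_sum]
    funext i
    rw [Finset.sum_apply, Matrix.mulVec, dotProduct]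
    refine Finset.sum_congr rfl fun k _ => ?_
    have h0 := hτ (Fin.natAdd 3 k)
      ((by decide : ∀ k : Fin 3, (2 : Fin 6) ≤ Fin.natAdd 3 k) k)
    rw [Diag.df, Finset.sum_eq_single (τ (Fin.natAdd 3 k))
      (fun j _ hj => by rw [Pi.single_eq_of_ne hj, mul_zero, mul_zero])
      (fun h => (h (Finset.mem_univ _)).elim), Pi.single_eq_same, Matrix.submatrix_apply, id]
    field_simp
  · by_contra hc
    push Not at hc
    obtain ⟨τ, _ | _⟩ := j <;>
    simp only [ContinuousLinearMap.prod_apply, Prod.mk_eq_zero, cond, neg_apply,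
      neg_eq_zero] at hc
    exacts [h4 τ w hw.1 hw.2 ⟨hc.1.1, hc.2.2, hc.2.1, hc.1.2⟩,
      h4 τ w hw.1 hw.2 ⟨hc.1.1, hc.2.2, hc.1.2, hc.2.1⟩]
  · obtain ⟨τ, _ | _⟩ := j <;>
    simp only [ContinuousLinearMap.prod_apply, cond, neg_apply] <;>
    linear_combination h3 τ w hw.2
  · obtain ⟨τ, hτ⟩ := Diag.three ha hw.1 hw.2
    have h5 : ∀ i, ∑ j, a i j * (w j * ξ j) = 0 := fun i =>
      (mul_eq_zero.1 ((Diag.df a w ξ i).symm.trans (congrFun hξ i))).resolve_left two_ne_zero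
    obtain ⟨c1, c2⟩ := hc (τ, true)
    obtain ⟨c3, c4⟩ := hc (τ, false)
    simp only [Diag.cr_lin, ContinuousLinearMap.prod_apply, cond, neg_apply] at c1 c2 c3 c4
    obtain ⟨t, e1, e2, e3, e4⟩ := Diag.four' (h3 τ w hw.2) (h1 τ w ξ h5) (sub_eq_zero.1 c1)
      (sub_eq_zero.1 c3) (by linear_combination c4) (by linear_combination c2) (h4 τ w hw.1 hw.2)
    obtain ⟨⟨z0, z1⟩, z2, z3⟩ := h2 τ (ξ - t • w) (by simp [e1]) (by simp [e2]) (by simp [e3])
      (by simp [e4])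
    have h6 := Diag.supp ha τ (y := fun j => w j * (ξ - t • w) j) (fun i => by
      have h7 := hw.2 i
      have h8 := h5 i
      simp only [Fin.sum_univ_six, Pi.sub_apply, Pi.smul_apply, smul_eq_mul] at h7 h8 ⊢
      linear_combination h8 - t * h7) (by simp only [z0, mul_zero]) (by simp only [z1, mul_zero])
      (by simp only [z2, mul_zero])
    have h7 : ξ - t • w = 0 := funext fun j => by
      obtain ⟨k, rfl⟩ := τ.surjective j
      by_cases hk : 2 ≤ k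
      · exact (mul_eq_zero.1 (congrFun h6 (τ k))).resolve_left (hτ k hk)
      · obtain rfl | rfl := (by decide : ∀ k : Fin 6, ¬2 ≤ k → k = 0 ∨ k = 1) k hk
        exacts [z0, z1]
    refine ⟨fun _ => t, funext fun j => ?_⟩
    simpa [orb, sub_eq_zero] using congrFun h7 j

end Vale.Agent.P290
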