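import Vale.Agent.P290.SplitB

/-! The extension lemma of Oka. -/

open Set Filter Metric
open scoped Manifold ContDiff Topology

noncomputable section

namespace Vale.Agent.P290

variable {E : Type} [NormedAddCommGroup E] [NormedSpace ℂ E] [FiniteDimensional ℂ E]

variable {J : Type} [Fintype J] [DecidableEq J]

theorem Ext.split {ι : E →L[ℂ] (J → ℂ)} (h : Ext ι) {a b : J × Bool → ℝ} {k : J × Bool} {c : ℝ}
    (h₁ : a k ≤ c) (h₂ : c ≤ b k) :
    Split (ι ⁻¹' Box a (Function.update b k c)) (ι ⁻¹' Box (Function.update a k c) b) := by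
  intro g hg
  rw [← preimage_inter, box_inter h₁ h₂] at hg ⊢
  obtain ⟨g', k1, k2⟩ := h _ _ g hg
  obtain ⟨c₁, c₂, k3, k4, k5⟩ := split_box h₁ h₂ g' (by rwa [box_inter h₁ h₂])
  rw [box_inter h₁ h₂] at k5
  refine ⟨fun z => c₁ (ι z), fun z => c₂ (ι z), fun z hz => (k3 _ hz).comp (ι.analyticAt z),
    fun z hz => (k4 _ hz).comp (ι.analyticAt z), ?_⟩
  filter_upwards [k2, (ι.continuous.tendsto_nhdsSet (mapsTo_preimage _ _)).eventually k5]
    with z e1 e2
  rw [← e1, e2]

omit [FiniteDimensional ℂ E] in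
theorem Ext.slice {w : E × ℂ} (hw : w.2 = 0) : Tendsto (fun z : E => (z, (0 : ℂ))) (𝓝 w.1) (𝓝 w) := by
  have h1 : w = (w.1, 0) := Prod.ext rfl hw
  nth_rewrite 2 [h1]
  exact (Continuous.prodMk_left (0 : ℂ)).tendsto w.1

theorem ext_step {ι' : E × ℂ →L[ℂ] (J → ℂ)} (hι : Function.Injective ι') (h : Ext ι') :
    Ext (ι' ∘L ContinuousLinearMap.inl ℂ E ℂ) := by
  intro a b c hc
  have key := bisect_pre hι (fun S => ∃ c' : E × ℂ → ℂ, AnalyticOnNhd ℂ c' S ∧
    ∀ w ∈ S, w.2 = 0 → ∀ᶠ z in 𝓝 w.1, c' (z, 0) = c z) a b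
    ⟨0, fun _ hw => hw.elim, fun _ hw => hw.elim⟩ (fun w hw => ?_) ?_
  · obtain ⟨c', k1, k2⟩ := key
    obtain ⟨c'', k3, k4⟩ := h a b c' k1
    refine ⟨c'', k3, eventually_nhdsSet_iff_forall.2 fun z hz => ?_⟩
    filter_upwards [k2 (z, 0) hz rfl, (Ext.slice (w := (z, 0)) rfl).eventually
      (eventually_nhdsSet_iff_forall.1 k4 (z, 0) hz)] with y e1 e2
    exact e2.trans e1
  · by_cases h0 : w.2 = 0
    · have h1 : w = (w.1, 0) := Prod.ext rfl h0
      have h2 : AnalyticAt ℂ (fun v : E × ℂ => c v.1) w :=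
        (hc w.1 (by rwa [h1] at hw)).comp analyticAt_fst
      exact ⟨_, h2.eventually_analyticAt, fun S hS => ⟨fun v => c v.1, fun v hv => hS hv,
        fun _ _ _ => Eventually.of_forall fun _ => rfl⟩⟩
    · exact ⟨{v | v.2 ≠ 0}, continuous_snd.continuousAt.eventually_ne h0, fun S hS =>
        ⟨0, fun _ _ => analyticAt_const, fun v hv e => absurd e (hS hv)⟩⟩
  · rintro a' b' k t - - h₁ h₂ ⟨c₁, m1, n1⟩ ⟨c₂, m2, n2⟩
    obtain ⟨g, g1, g2⟩ := divide (g := fun v => c₁ v - c₂ v)
      (S := ι' ⁻¹' Box a' (Function.update b' k t) ∩ ι' ⁻¹' Box (Function.update a' k t) b')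
      (fun v hv => (m1 v hv.1).sub (m2 v hv.2)) fun v hv e => by
        filter_upwards [n1 v hv.1 e, n2 v hv.2 e] with z e1 e2
        rw [e1, e2, sub_self]
    obtain ⟨d₁, d₂, p1, p2, p3⟩ := h.split h₁ h₂ g g1
    obtain ⟨f, f1, f2⟩ := glue2 (isCompact_pre hι _ _).isClosed (isCompact_pre hι _ _).isClosed
      (f₁ := fun v => c₁ v - v.2 * d₁ v) (f₂ := fun v => c₂ v - v.2 * d₂ v) (by
        filter_upwards [g2, p3] with v e1 e2
        rw [e2] at e1
        linear_combination e1)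
    rw [eventually_nhdsSet_iff_forall] at f1 f2
    rw [← box_union h₁ h₂, preimage_union]
    refine ⟨f, fun v hv => ?_, fun v hv e => ?_⟩
    · rcases hv with hv | hv
      · exact ((m1 v hv).sub (analyticAt_snd.mul (p1 v hv))).congr (EventuallyEq.symm (f1 v hv))
      · exact ((m2 v hv).sub (analyticAt_snd.mul (p2 v hv))).congr (EventuallyEq.symm (f2 v hv))
    · rcases hv with hv | hv
      · filter_upwards [n1 v hv e, (Ext.slice e).eventually (f1 v hv)] with z e1 e2
        rw [e2, e1, zero_mul, sub_zero]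
      · filter_upwards [n2 v hv e, (Ext.slice e).eventually (f2 v hv)] with z e1 e2
        rw [e2, e1, zero_mul, sub_zero]

omit [DecidableEq J] in
theorem Ext.surj {ι : E →L[ℂ] (J → ℂ)} (hι : Function.Injective ι) (hs : Function.Surjective ι) :
    Ext ι := by
  intro a b c hc
  set e := (LinearEquiv.ofBijective ι.toLinearMap ⟨hι, hs⟩).toContinuousLinearEquiv with he
  have h1 : ∀ z, e.symm (ι z) = z := fun z => e.symm_apply_apply z
  have h2 : ∀ w, ι (e.symm w) = w := fun w => e.apply_symm_apply w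
  refine ⟨fun w => c (e.symm w), fun w hw => (hc _ ?_).comp (e.symm.analyticAt w),
    Eventually.of_forall fun z => congrArg c (h1 z)⟩
  rwa [mem_preimage, h2]

theorem Ext.ind (n : ℕ) : ∀ (E : Type) [NormedAddCommGroup E] [NormedSpace ℂ E]
    [FiniteDimensional ℂ E] (ι : E →L[ℂ] (J → ℂ)), Function.Injective ι →
    Fintype.card J ≤ Module.finrank ℂ E + n → Ext ι := by
  induction n using Nat.strong_induction_on with
  | _ n ih =>
    intro E _ _ _ ι hι hn
    by_cases hs : Function.Surjective ι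
    · exact Ext.surj hι hs
    obtain ⟨v, hv⟩ := not_forall.1 hs
    have h1 : Function.Injective (ι.coprod (ContinuousLinearMap.toSpanSingleton ℂ v)) := by
      refine (injective_iff_map_eq_zero _).2 fun w hw => ?_
      have h2 : ι w.1 + w.2 • v = 0 := hw
      have h3 : w.2 = 0 := by
        by_contra h0
        refine hv ⟨-(w.2⁻¹ • w.1), ?_⟩
        rw [map_neg, map_smul, eq_neg_of_add_eq_zero_left h2, smul_neg, neg_neg,
          inv_smul_smul₀ h0]
      rw [h3, zero_smul, add_zero] at h2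
      exact Prod.ext ((injective_iff_map_eq_zero _).1 hι _ h2) h3
    have h4 := LinearMap.finrank_le_finrank_of_injective
      (f := (ι.coprod (ContinuousLinearMap.toSpanSingleton ℂ v)).toLinearMap) h1
    have h5 : Module.finrank ℂ (E × ℂ) = Module.finrank ℂ E + 1 := by
      rw [Module.finrank_prod, Module.finrank_self]
    rw [h5, Module.finrank_fintype_fun_eq_card] at h4
    have h6 := ext_step h1 (ih (n - 1) (by omega) (E × ℂ) _ h1 (by omega))
    rwa [ContinuousLinearMap.coprod_comp_inl] at h6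

theorem ext_all {ι : E →L[ℂ] (J → ℂ)} (hι : Function.Injective ι) : Ext ι :=
  Ext.ind (Fintype.card J) E ι hι (Nat.le_add_left _ _)

end Vale.Agent.P290
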