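import Vale.Agent.P290.Sg
import Vale.Agent.P278.Frob

/-! Local flows. -/

open Set Filter Metric
open scoped Manifold ContDiff Topology

noncomputable section

namespace Vale.Agent.P290

namespace F1

/-- The local flow of an analytic vector field. -/
theorem flow {v : C2 → C2} {q₀ : C2} (hv : AnalyticAt ℂ v q₀) :
    ∃ φ : ℂ × C2 → C2, AnalyticAt ℂ φ 0 ∧ (∀ᶠ b in 𝓝 (0 : C2), φ (0, b) = b) ∧
      ∀ᶠ p in 𝓝 (0 : ℂ × C2), fderiv ℂ φ p (1, 0) = v (q₀ + φ p) := by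
  let L : C2 →L[ℂ] ℂ →L[ℂ] C2 := ContinuousLinearMap.smulRightL ℂ ℂ C2 (ContinuousLinearMap.id ℂ ℂ)
  have hL : ∀ w (u : ℂ), L w u = u • w := fun w u => rfl
  have h1 : AnalyticAt ℂ (fun p : ℂ × C2 => v (q₀ + p.2)) 0 :=
    AnalyticAt.comp_of_eq hv (analyticAt_const.add analyticAt_snd) (by simp)
  have hA : AnalyticAt ℂ (fun p : ℂ × C2 => L (v (q₀ + p.2))) 0 := (L.analyticAt _).comp h1
  obtain ⟨φ, h2, h3, h4⟩ := Vale.Agent.P278.frob_graph _ hA (Eventually.of_forall fun p u w => by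
    have key : ∀ a b : ℂ, fderiv ℂ (fun p : ℂ × C2 => L (v (q₀ + p.2))) p (a, L (v (q₀ + p.2)) a) b
        = (a * b) • fderiv ℂ (fun p : ℂ × C2 => L (v (q₀ + p.2))) p (1, v (q₀ + p.2)) 1 := by
      intro a b
      have e : ((a, L (v (q₀ + p.2)) a) : ℂ × C2) = a • ((1 : ℂ), v (q₀ + p.2)) := by
        rw [hL]
        simp
      have e' : b = b • (1 : ℂ) := by simp
      rw [e, map_smul, smul_apply, e', map_smul, smul_smul]
      simp
    rw [key, key, mul_comm])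
  refine ⟨φ, h2, h3, h4.mono fun p hp => ?_⟩
  rw [hp 1, hL, one_smul]

end F1

variable {X : Type} [TopologicalSpace X] [ChartedSpace C2 X] [IsManifold 𝓘(ℂ, C2) ω X]
  {E : Type} [NormedAddCommGroup E] [NormedSpace ℂ E] [FiniteDimensional ℂ E]
  {A : Type} [NormedAddCommGroup A] [NormedSpace ℂ A] [FiniteDimensional ℂ A]
  {σ : Form2 X}

theorem loc_flow (hσ : IsSympl σ) {y : X → ℂ} {O : Set X} (hO : IsOpen O) {x₀ : X} (hx : x₀ ∈ O)
    (hy : HolF y x₀) : ∃ (N : Set X) (r : ℝ) (Φ : X × ℂ → X), IsOpen N ∧ x₀ ∈ N ∧ 0 < r ∧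
      LocFlow σ y O N r Φ := by
  obtain ⟨v, hv, hham⟩ := ham_chart hσ hy
  obtain ⟨φ, h1, h2, h3⟩ := F1.flow hv
  set c := chartAt C2 x₀ with hc
  have hs : x₀ ∈ c.source := mem_chart_source C2 x₀
  have h0 : φ 0 = 0 := h2.self_of_nhds
  have ht : Tendsto (fun p : ℂ × C2 => c x₀ + φ p) (𝓝 0) (𝓝 (c x₀)) := by
    have := (h1.continuousAt.tendsto).const_add (c x₀)
    rwa [h0, add_zero] at this
  have h4 : ∀ᶠ q in 𝓝 (c x₀), q ∈ c.target ∧ c.symm q ∈ O := by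
    refine Eventually.and (c.open_target.mem_nhds (c.map_source hs)) ?_
    have h5 := (c.continuousAt_symm (c.map_source hs)).tendsto
    rw [c.left_inv hs] at h5
    exact h5.eventually (hO.mem_nhds hx)
  have h2' : ∀ᶠ p in 𝓝 (0 : ℂ × C2), φ (0, p.2) = p.2 :=
    (continuous_snd.tendsto' (0 : ℂ × C2) 0 rfl).eventually h2
  have h5 := h1.eventually_analyticAt.and (h2'.and (h3.and
    ((ht.eventually h4).and (ht.eventually hham))))
  obtain ⟨r, hr, h6⟩ := Metric.eventually_nhds_iff_ball.1 h5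
  have hm : ∀ x ∈ c.source ∩ c ⁻¹' ball (c x₀) r, ∀ t ∈ ball (0 : ℂ) r,
      ((t, c x - c x₀) : ℂ × C2) ∈ ball (0 : ℂ × C2) r := by
    intro x hx t ht
    rw [mem_ball_zero_iff, Prod.norm_def, max_lt_iff]
    exact ⟨mem_ball_zero_iff.1 ht, mem_ball_iff_norm.1 hx.2⟩
  have hG : ∀ p ∈ ball (0 : ℂ × C2) r, Hol (fun p : ℂ × C2 => c.symm (c x₀ + φ p)) p :=
    fun p hp => Hol.comp (g := fun p : ℂ × C2 => c x₀ + φ p) (hol_symm x₀ (h6 p hp).2.2.2.1.1)
      (analyticAt_const.add (h6 p hp).1)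
  refine ⟨c.source ∩ c ⁻¹' ball (c x₀) r, r, fun w => c.symm (c x₀ + φ (w.2, c w.1 - c x₀)),
    c.isOpen_inter_preimage isOpen_ball, ⟨hs, mem_ball_self hr⟩, hr, fun x hx t ht => ?_,
    fun x hx t ht => (h6 _ (hm x hx t ht)).2.2.2.1.2, fun x hx => ?_, fun x hx t ht => ?_⟩
  · have a1 : HolF (fun w => c w - c x₀) x :=
      HolF.post (g := fun q : C2 => q - c x₀) (holF_chart x₀ hx.1)
        (analyticAt_id.sub analyticAt_const)
    have a2 : ContMDiffAt (𝓘(ℂ, C2).prod 𝓘(ℂ, ℂ)) 𝓘(ℂ, ℂ × C2) ω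
        (fun w : X × ℂ => ((w.2, c w.1 - c x₀) : ℂ × C2)) (x, t) :=
      contMDiffAt_snd.prodMk_space (ContMDiffAt.comp (x, t) (g := fun w => c w - c x₀)
        (f := Prod.fst) a1 contMDiffAt_fst)
    exact ContMDiffAt.comp (x, t) (g := fun p : ℂ × C2 => c.symm (c x₀ + φ p))
      (hG _ (hm x hx t ht)) a2
  · have a1 := (h6 _ (hm x hx 0 (mem_ball_self hr))).2.1
    change c.symm (c x₀ + φ (0, c x - c x₀)) = x
    rw [a1, add_sub_cancel, c.left_inv hx.1]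
  · obtain ⟨a1, -, a2, a3, a4⟩ := h6 _ (hm x hx t ht)
    have a5 : AnalyticAt ℂ (fun s : ℂ => ((s, c x - c x₀) : ℂ × C2)) t :=
      analyticAt_id.prod analyticAt_const
    have a6 : AnalyticAt ℂ (fun s : ℂ => c x₀ + φ (s, c x - c x₀)) t :=
      analyticAt_const.add (AnalyticAt.comp (f := fun s : ℂ => ((s, c x - c x₀) : ℂ × C2)) a1 a5)
    refine ⟨Hol.comp (g := fun s : ℂ => c x₀ + φ (s, c x - c x₀)) (hol_symm x₀ a3.1) a6, ?_⟩
    have a7 : HasFDerivAt (fun s : ℂ => c x₀ + φ (s, c x - c x₀))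
        ((fderiv ℂ φ (t, c x - c x₀)).comp (ContinuousLinearMap.inl ℂ ℂ C2)) t :=
      (HasFDerivAt.comp t (f := fun s : ℂ => ((s, c x - c x₀) : ℂ × C2))
        a1.differentiableAt.hasFDerivAt (hasFDerivAt_prodMk_left t _)).const_add _
    have a8 : vel (fun s : ℂ => c.symm (c x₀ + φ (s, c x - c x₀))) t
        = dif c.symm (c x₀ + φ (t, c x - c x₀)) (v (c x₀ + φ (t, c x - c x₀))) := by
      rw [vel, dif_comp (g := fun s : ℂ => c x₀ + φ (s, c x - c x₀)) (hol_symm x₀ a3.1) a6,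
        a7.fderiv, ← a2]
      rfl
    intro w
    change sg σ (c.symm (c x₀ + φ (t, c x - c x₀)))
      (vel (fun s : ℂ => c.symm (c x₀ + φ (s, c x - c x₀))) t) w = _
    rw [a8]
    exact (a4 _).2 rfl w

end Vale.Agent.P290
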