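import Vale.Agent.P290.Sg

/-! Uniqueness of integral curves. -/

open Set Filter Metric
open scoped Manifold ContDiff Topology

noncomputable section

namespace Vale.Agent.P290

variable {X : Type} [TopologicalSpace X] [ChartedSpace C2 X] [IsManifold 𝓘(ℂ, C2) ω X]
  {E : Type} [NormedAddCommGroup E] [NormedSpace ℂ E] [FiniteDimensional ℂ E]
  {A : Type} [NormedAddCommGroup A] [NormedSpace ℂ A] [FiniteDimensional ℂ A]
  {σ : Form2 X}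

namespace F2

theorem ode {y : X → ℂ} {x₀ : X} {v : C2 → C2}
    (hv : ∀ᶠ q in 𝓝 (chartAt C2 x₀ x₀), ∀ u : C2,
      (∀ w, sg σ ((chartAt C2 x₀).symm q) (dif (chartAt C2 x₀).symm q u) w =
        dfn y ((chartAt C2 x₀).symm q) w) ↔ u = v q)
    {γ : ℂ → X} {D : Set ℂ} (hD : IsOpen D) (h : HamOn σ y γ D) {s : ℂ} (hs : s ∈ D)
    (e : γ s = x₀) : AnalyticAt ℂ (fun t => chartAt C2 x₀ (γ t)) s ∧
      ∀ᶠ t in 𝓝 s, γ t ∈ (chartAt C2 x₀).source ∧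
        HasDerivAt (fun t => chartAt C2 x₀ (γ t)) (v (chartAt C2 x₀ (γ t))) t := by
  subst e
  have hx := mem_chart_source C2 (γ s)
  have ha := (holF_chart (γ s) hx).comp (h s hs).1
  refine ⟨ha, ?_⟩
  filter_upwards [hD.mem_nhds hs,
    (h s hs).1.cont.eventually ((chartAt C2 (γ s)).open_source.mem_nhds hx),
    ha.continuousAt.eventually hv, ha.eventually_analyticAt] with t ht h1 h2 h3
  refine ⟨h1, ?_⟩
  rw [← (h2 (fderiv ℂ (fun t => chartAt C2 (γ s) (γ t)) t 1)).1 fun w => ?_]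
  · exact h3.differentiableAt.hasDerivAt
  · rw [← dif_chart (γ s) (h t ht).1 h1, (chartAt C2 (γ s)).left_inv h1]
    exact (h t ht).2 w

theorem loc (hσ : IsSympl σ) {y : X → ℂ} {γ₁ γ₂ : ℂ → X} {s : ℂ} (hy : HolF y (γ₂ s))
    {D : Set ℂ} (hD : IsOpen D) (h₁ : HamOn σ y γ₁ D) (h₂ : HamOn σ y γ₂ D) (hs : s ∈ D)
    (h0 : γ₁ s = γ₂ s) : γ₁ =ᶠ[𝓝 s] γ₂ := by
  obtain ⟨v, va, hv⟩ := ham_chart hσ hy
  obtain ⟨a1, b1⟩ := ode hv hD h₁ hs h0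
  obtain ⟨a2, b2⟩ := ode hv hD h₂ hs rfl
  obtain ⟨K, U, hU, hK⟩ := (va.contDiffAt (n := 1)).exists_lipschitzOnWith
  have hd : ∀ τ : ℝ, HasDerivAt (fun τ : ℝ => s + τ) 1 τ := fun τ =>
    Complex.ofRealCLM.hasDerivAt.const_add s
  have ht : Tendsto (fun τ : ℝ => s + τ) (𝓝 0) (𝓝 s) := by
    simpa using (hd 0).continuousAt.tendsto
  have key : ∀ γ : ℂ → X, γ s = γ₂ s → AnalyticAt ℂ (fun t => chartAt C2 (γ₂ s) (γ t)) s →
      (∀ᶠ t in 𝓝 s, γ t ∈ (chartAt C2 (γ₂ s)).source ∧ HasDerivAt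
        (fun t => chartAt C2 (γ₂ s) (γ t)) (v (chartAt C2 (γ₂ s) (γ t))) t) →
      ∀ᶠ τ : ℝ in 𝓝 0, HasDerivAt (fun τ : ℝ => chartAt C2 (γ₂ s) (γ (s + τ)))
        (v (chartAt C2 (γ₂ s) (γ (s + τ)))) τ ∧ chartAt C2 (γ₂ s) (γ (s + τ)) ∈ U := by
    intro γ e a b
    filter_upwards [ht.eventually b, ht.eventually (a.continuousAt.eventually_mem (by rwa [e]))]
      with τ k1 k2
    have k3 := k1.2.scomp τ (hd τ)
    rw [one_smul] at k3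
    exact ⟨k3, k2⟩
  have hu := ODE_solution_unique_of_eventually (v := fun _ => v) (s := fun _ => U)
    (Eventually.of_forall fun _ => hK) (key γ₁ h0 a1 b1) (key γ₂ rfl a2 b2) (by simp [h0])
  have ht' : Tendsto (fun τ : ℝ => s + τ) (𝓝[≠] 0) (𝓝[≠] s) :=
    tendsto_nhdsWithin_iff.2 ⟨ht.mono_left nhdsWithin_le_nhds,
      eventually_mem_nhdsWithin.mono fun τ h => by simpa using h⟩
  filter_upwards [b1, b2, (a1.frequently_eq_iff_eventually_eq a2).1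
    (ht'.frequently (hu.filter_mono nhdsWithin_le_nhds).frequently)] with t k1 k2 k3
  exact (chartAt C2 (γ₂ s)).injOn k1.1 k2.1 k3

end F2

theorem ham_uniq [T2Space X] (hσ : IsSympl σ) {y : X → ℂ} {O : Set X} (hy : ∀ x ∈ O, HolF y x)
    {γ₁ γ₂ : ℂ → X} {D : Set ℂ} (hD : IsOpen D) (hc : IsPreconnected D) (h₁ : HamOn σ y γ₁ D)
    (h₂ : HamOn σ y γ₂ D) (hO : ∀ s ∈ D, γ₂ s ∈ O) {s₀ : ℂ} (hs : s₀ ∈ D) (h0 : γ₁ s₀ = γ₂ s₀) :
    EqOn γ₁ γ₂ D := by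
  refine fun s hsD => EventuallyEq.eq_of_nhds (hc.subset_of_closure_inter_subset
    (u := {t | γ₁ =ᶠ[𝓝 t] γ₂}) isOpen_setOfPred_eventually_nhds
    ⟨s₀, hs, F2.loc hσ (hy _ (hO _ hs)) hD h₁ h₂ hs h0⟩ ?_ hsD)
  rintro t ⟨ht, htD⟩
  exact F2.loc hσ (hy _ (hO _ htD)) hD h₁ h₂ htD (tendsto_nhds_unique_of_frequently_eq
    (h₁ t htD).1.cont (h₂ t htD).1.cont
    ((mem_closure_iff_frequently.1 ht).mono fun _ h => EventuallyEq.eq_of_nhds h))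

theorem ham_inv (hσ : IsSympl σ) {y : X → ℂ} {O : Set X} (hy : ∀ x ∈ O, HolF y x)
    {γ : ℂ → X} {D : Set ℂ} (hD : IsOpen D) (hc : IsPreconnected D) (h : HamOn σ y γ D)
    (hO : ∀ s ∈ D, γ s ∈ O) {s t : ℂ} (hs : s ∈ D) (ht : t ∈ D) : y (γ s) = y (γ t) := by
  refine hD.is_const_of_deriv_eq_zero (f := fun w => y (γ w)) hc (fun w hw =>
    ((hy _ (hO w hw)).comp (h w hw).1).differentiableAt.differentiableWithinAt) (fun w hw => ?_)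
    hs ht
  exact (dfn_comp (hy _ (hO w hw)) (h w hw).1 1).trans
    (((h w hw).2 _).symm.trans (sg_alt hσ _ _))

theorem HamOn.shift {y : X → ℂ} {γ : ℂ → X} {D : Set ℂ} (h : HamOn σ y γ D) (a : ℂ) :
    HamOn σ y (fun s => γ (a + s)) {s | a + s ∈ D} := by
  intro s hs
  have ha : AnalyticAt ℂ (fun t => a + t) s := analyticAt_const.add analyticAt_id
  refine ⟨(h _ hs).1.comp ha, fun v => ?_⟩
  rw [vel_comp (h _ hs).1 ha ((hasDerivAt_id s).const_add a), one_smul]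
  exact (h _ hs).2 v

theorem HamOn.congr {y : X → ℂ} {γ γ' : ℂ → X} {D : Set ℂ} (h : HamOn σ y γ D)
    (e : ∀ s ∈ D, γ' =ᶠ[𝓝 s] γ) : HamOn σ y γ' D := by
  refine fun s hs => ⟨(h s hs).1.congr (e s hs), fun v => ?_⟩
  rw [vel, dif_congr (e s hs), (e s hs).eq_of_nhds]
  exact (h s hs).2 v

theorem HamCurve.hamOn {y : X → ℂ} {γ : ℂ → X} (h : HamCurve σ y γ) : HamOn σ y γ univ := 
  fun s hs => ⟨hol_of_mdiff isOpen_univ h.1.mdifferentiableOn hs, h.2 s⟩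

end Vale.Agent.P290
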