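import Vale.Agent.P290.F1
import Vale.Agent.P290.F2

/-! Complete flows. -/

open Set Filter Metric
open scoped Manifold ContDiff Topology

noncomputable section

namespace Vale.Agent.P290

variable {X : Type} [TopologicalSpace X] [ChartedSpace C2 X] [IsManifold 𝓘(ℂ, C2) ω X]
  {E : Type} [NormedAddCommGroup E] [NormedSpace ℂ E] [FiniteDimensional ℂ E]
  {A : Type} [NormedAddCommGroup A] [NormedSpace ℂ A] [FiniteDimensional ℂ A]
  {σ : Form2 X}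

namespace F3

variable {y : X → ℂ} {O N N' : Set X} {r r' : ℝ} {Φ Φ' : X × ℂ → X}

omit [IsManifold 𝓘(ℂ, C2) ω X] in
theorem mono (h : LocFlow σ y O N r Φ) (hN : N' ⊆ N) (hr : r' ≤ r) : LocFlow σ y O N' r' Φ :=
  ⟨fun x hx t ht => h.hol x (hN hx) t (ball_subset_ball hr ht),
    fun x hx t ht => h.mem x (hN hx) t (ball_subset_ball hr ht), fun x hx => h.zero x (hN hx),
    fun x hx t ht => h.ham x (hN hx) t (ball_subset_ball hr ht)⟩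

omit [IsManifold 𝓘(ℂ, C2) ω X] in
theorem union (h : LocFlow σ y O N r Φ) (h' : LocFlow σ y O N' r Φ) :
    LocFlow σ y O (N ∪ N') r Φ :=
  ⟨fun x hx => hx.elim (h.hol x) (h'.hol x), fun x hx => hx.elim (h.mem x) (h'.mem x),
    fun x hx => hx.elim (h.zero x) (h'.zero x), fun x hx => hx.elim (h.ham x) (h'.ham x)⟩

theorem agree [T2Space X] (hσ : IsSympl σ) (hy : ∀ x ∈ O, HolF y x) (h : LocFlow σ y O N r Φ)
    (h' : LocFlow σ y O N' r' Φ') {x : X} (hx : x ∈ N) (hx' : x ∈ N') {t : ℂ}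
    (ht : t ∈ ball (0 : ℂ) r) (ht' : t ∈ ball (0 : ℂ) r') : Φ (x, t) = Φ' (x, t) := by
  have k := mono h subset_rfl (min_le_left r r')
  have k' := mono h' subset_rfl (min_le_right r r')
  have hm : t ∈ ball (0 : ℂ) (min r r') := mem_ball.2 (lt_min (mem_ball.1 ht) (mem_ball.1 ht'))
  exact ham_uniq hσ hy isOpen_ball (convex_ball _ _).isPreconnected (k.ham x hx) (k'.ham x hx')
    (k'.mem x hx') (mem_ball_self (pos_of_mem_ball hm))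
    ((h.zero x hx).trans (h'.zero x hx').symm) hm

theorem glue [T2Space X] (hσ : IsSympl σ) (hy : ∀ x ∈ O, HolF y x) {ι : Type} {N : ι → Set X}
    {r : ι → ℝ} {Φ : ι → X × ℂ → X} (hN : ∀ i, IsOpen (N i))
    (h : ∀ i, LocFlow σ y O (N i) (r i) (Φ i)) :
    ∃ Ψ, ∀ i, LocFlow σ y O (N i) (r i) Ψ := by
  classical
  obtain ⟨Ψ, h1, h2⟩ : ∃ Ψ : X × ℂ → X,
      (∀ i, ∀ x ∈ N i, ∀ t ∈ ball (0 : ℂ) (r i), Ψ (x, t) = Φ i (x, t)) ∧ ∀ x, Ψ (x, 0) = x := by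
    refine ⟨fun w => if k : ∃ i, w.1 ∈ N i ∧ w.2 ∈ ball (0 : ℂ) (r i) then Φ k.choose w else w.1,
      fun i x hx t ht => ?_, fun x => ?_⟩
    · have k : ∃ i, x ∈ N i ∧ t ∈ ball (0 : ℂ) (r i) := ⟨i, hx, ht⟩
      exact (dif_pos k).trans (agree hσ hy (h _) (h i) k.choose_spec.1 hx k.choose_spec.2 ht)
    · by_cases k : ∃ i, x ∈ N i ∧ (0 : ℂ) ∈ ball (0 : ℂ) (r i)
      · exact (dif_pos k).trans ((h _).zero x k.choose_spec.1)
      · exact dif_neg k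
  refine ⟨Ψ, fun i => ⟨fun x hx t ht => ?_, fun x hx t ht => ?_, fun x _ => h2 x,
    fun x hx => ?_⟩⟩
  · refine ((h i).hol x hx t ht).congr_of_eventuallyEq ?_
    filter_upwards [((hN i).prod isOpen_ball).mem_nhds (mk_mem_prod hx ht)] with w hw
    exact h1 i w.1 hw.1 w.2 hw.2
  · rw [h1 i x hx t ht]
    exact (h i).mem x hx t ht
  · refine ((h i).ham x hx).congr fun s hs => ?_
    filter_upwards [isOpen_ball.mem_nhds hs] with t ht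
    exact h1 i x hx t ht

theorem inv (hσ : IsSympl σ) (hy : ∀ x ∈ O, HolF y x) (h : LocFlow σ y O N r Φ) {x : X}
    (hx : x ∈ N) {t : ℂ} (ht : t ∈ ball (0 : ℂ) r) : y (Φ (x, t)) = y x := by
  have k := ham_inv hσ hy isOpen_ball (convex_ball _ _).isPreconnected (h.ham x hx) (h.mem x hx)
    ht (mem_ball_self (pos_of_mem_ball ht))
  rwa [h.zero x hx] at k

theorem stay (hσ : IsSympl σ) (hy : ∀ x ∈ O, HolF y x) {R : ℝ}
    (h : LocFlow σ y O {x ∈ O | ‖y x‖ < R} r Φ) {x : X} (hx : x ∈ {x ∈ O | ‖y x‖ < R}) {t : ℂ}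
    (ht : t ∈ ball (0 : ℂ) r) : Φ (x, t) ∈ {x ∈ O | ‖y x‖ < R} :=
  ⟨h.mem x hx t ht, by rw [inv hσ hy h hx ht]; exact hx.2⟩

theorem group [T2Space X] (hσ : IsSympl σ) (hy : ∀ x ∈ O, HolF y x) {R : ℝ}
    (h : LocFlow σ y O {x ∈ O | ‖y x‖ < R} r Φ) {x : X} (hx : x ∈ {x ∈ O | ‖y x‖ < R}) {s t : ℂ}
    (hst : ‖s‖ + ‖t‖ < r) : Φ (Φ (x, s), t) = Φ (x, s + t) := by
  have hs : s ∈ ball (0 : ℂ) r := mem_ball_zero_iff.2 (by linarith [norm_nonneg t])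
  have k1 : ∀ u ∈ ball (0 : ℂ) (r - ‖s‖), s + u ∈ ball (0 : ℂ) r := fun u hu =>
    mem_ball_zero_iff.2 (by linarith [norm_add_le s u, mem_ball_zero_iff.1 hu])
  have k2 : HamOn σ y (fun u => Φ (Φ (x, s), u)) (ball 0 (r - ‖s‖)) := fun u hu =>
    h.ham _ (stay hσ hy h hx hs) u (ball_subset_ball (sub_le_self _ (norm_nonneg _)) hu)
  have k3 : HamOn σ y (fun u => Φ (x, s + u)) (ball 0 (r - ‖s‖)) := fun u hu =>
    (h.ham x hx).shift s u (k1 u hu)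
  have ht : t ∈ ball (0 : ℂ) (r - ‖s‖) := mem_ball_zero_iff.2 (by linarith)
  refine ham_uniq hσ hy isOpen_ball (convex_ball _ _).isPreconnected k2 k3
    (fun u hu => h.mem x hx _ (k1 u hu)) (mem_ball_self (pos_of_mem_ball ht)) ?_ ht
  rw [add_zero, h.zero _ (stay hσ hy h hx hs)]

theorem double [T2Space X] (hσ : IsSympl σ) (hy : ∀ x ∈ O, HolF y x) {R : ℝ}
    (h : LocFlow σ y O {x ∈ O | ‖y x‖ < R} r Φ) :
    LocFlow σ y O {x ∈ O | ‖y x‖ < R} (2 * r) fun w => Φ (Φ (w.1, w.2 / 2), w.2 / 2) := by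
  have hn : ∀ t : ℂ, ‖t / 2‖ = ‖t‖ / 2 := fun t => by rw [norm_div, Complex.norm_two]
  have hh : ∀ t ∈ ball (0 : ℂ) (2 * r), t / 2 ∈ ball (0 : ℂ) r := fun t ht =>
    mem_ball_zero_iff.2 (by linarith [hn t, mem_ball_zero_iff.1 ht])
  refine ⟨fun x hx t ht => ?_, fun x hx t ht => ?_, fun x hx => ?_, fun x hx t ht => ?_⟩
  · have k0 : ContDiff ℂ ω fun t : ℂ => t / 2 := contDiff_id.div_const 2
    have k1 : ContMDiffAt (𝓘(ℂ, C2).prod 𝓘(ℂ, ℂ)) 𝓘(ℂ, ℂ) ω (fun w : X × ℂ => w.2 / 2) (x, t) :=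
      k0.contMDiff.contMDiffAt.comp (x, t) contMDiffAt_snd
    have k2 : HolX (fun w : X × ℂ => Φ (w.1, w.2 / 2)) (x, t) :=
      ContMDiffAt.comp (f := fun w : X × ℂ => (w.1, w.2 / 2)) (x, t) (h.hol x hx _ (hh t ht))
        (contMDiffAt_fst.prodMk k1)
    exact ContMDiffAt.comp (f := fun w : X × ℂ => (Φ (w.1, w.2 / 2), w.2 / 2)) (x, t)
      (h.hol _ (stay hσ hy h hx (hh t ht)) _ (hh t ht)) (ContMDiffAt.prodMk k2 k1)
  · exact h.mem _ (stay hσ hy h hx (hh t ht)) _ (hh t ht)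
  · simp only [zero_div, h.zero x hx]
  · have ha := hh t ht
    have hz := stay hσ hy h hx ha
    have k1 : HamOn σ y (fun s => Φ (Φ (x, t / 2), -(t / 2) + s)) {t} := by
      rintro s rfl
      refine (h.ham _ hz).shift (-(s / 2)) s ?_
      have e : -(s / 2) + s = s / 2 := by ring
      change -(s / 2) + s ∈ ball (0 : ℂ) r
      rwa [e]
    refine k1.congr ?_ t rfl
    rintro s rfl
    have ha' := mem_ball_zero_iff.1 ha
    filter_upwards [ball_mem_nhds s (sub_pos.2 ha')] with u hu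
    have k2 := mem_ball_iff_norm.1 hu
    have k3 := hn (u - s)
    have k4 := norm_nonneg (u - s)
    have e1 : u / 2 = s / 2 + (u - s) / 2 := by ring
    have k5 : ‖u / 2‖ ≤ ‖s / 2‖ + ‖(u - s) / 2‖ := by
      rw [e1]
      exact norm_add_le _ _
    have k6 := group hσ hy h hx (s := s / 2) (t := (u - s) / 2) (by linarith)
    have k7 := group hσ hy h hz (s := (u - s) / 2) (t := u / 2) (by linarith)
    have e2 : (u - s) / 2 + u / 2 = -(s / 2) + u := by ring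
    rw [← e1] at k6
    rw [k6, e2] at k7
    exact k7

omit [IsManifold 𝓘(ℂ, C2) ω X] in
theorem isOpen_lt (hO : IsOpen O) (hy : ∀ x ∈ O, HolF y x) (R : ℝ) :
    IsOpen {x ∈ O | ‖y x‖ < R} := by
  refine isOpen_iff_mem_nhds.2 fun x hx => ?_
  have k : ContinuousAt (fun x => ‖y x‖) x := (hy x hx.1).continuousAt.norm
  filter_upwards [hO.mem_nhds hx.1, k.eventually_lt continuousAt_const hx.2] with w h1 h2
  exact ⟨h1, h2⟩

theorem unif [T2Space X] (hσ : IsSympl σ) (hO : IsOpen O) (hy : ∀ x ∈ O, HolF y x) {K : Set X}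
    (hK : IsCompact K) (hKO : K ⊆ O) : ∃ r Φ, 0 < r ∧ LocFlow σ y O K r Φ := by
  choose N r Φ hN hx hr h using fun x : O => loc_flow hσ hO x.2 (hy x x.2)
  obtain ⟨Ψ, hΨ⟩ := glue hσ hy hN h
  obtain ⟨ρ, h1, h2⟩ := hK.induction_on (p := fun s => ∃ ρ, 0 < ρ ∧ LocFlow σ y O s ρ Ψ)
    ⟨1, one_pos, fun _ h => h.elim, fun _ h => h.elim, fun _ h => h.elim, fun _ h => h.elim⟩
    (fun _ _ hst ⟨ρ, k1, k2⟩ => ⟨ρ, k1, mono k2 hst le_rfl⟩)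
    (fun _ _ ⟨ρ, k1, k2⟩ ⟨ρ', k3, k4⟩ => ⟨min ρ ρ', lt_min k1 k3,
      union (mono k2 subset_rfl (min_le_left _ _)) (mono k4 subset_rfl (min_le_right _ _))⟩)
    fun x hxK => ⟨N ⟨x, hKO hxK⟩, mem_nhdsWithin_of_mem_nhds ((hN _).mem_nhds (hx _)),
      r ⟨x, hKO hxK⟩, hr _, hΨ _⟩
  exact ⟨ρ, Ψ, h1, h2⟩

theorem all [T2Space X] (hσ : IsSympl σ) (hO : IsOpen O) (hy : ∀ x ∈ O, HolF y x)
    (hp : ∀ R : ℝ, IsCompact {x ∈ O | ‖y x‖ ≤ R}) (R ρ : ℝ) :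
    ∃ Φ, LocFlow σ y O {x ∈ O | ‖y x‖ < R} ρ Φ := by
  obtain ⟨r, Φ, hr, h⟩ := unif hσ hO hy (hp R) (sep_subset _ _)
  have k : ∀ n : ℕ, ∃ Φ, LocFlow σ y O {x ∈ O | ‖y x‖ < R} (2 ^ n * r) Φ := by
    intro n
    induction n with
    | zero => exact ⟨Φ, mono h (fun x hx => ⟨hx.1, hx.2.le⟩) (by simp)⟩
    | succ n ih =>
      obtain ⟨Ψ, hΨ⟩ := ih
      exact ⟨_, mono (double hσ hy hΨ) subset_rfl (le_of_eq (by ring))⟩
  obtain ⟨n, hn⟩ := pow_unbounded_of_one_lt (ρ / r) (one_lt_two (α := ℝ))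
  obtain ⟨Ψ, hΨ⟩ := k n
  exact ⟨Ψ, mono hΨ subset_rfl ((div_lt_iff₀ hr).1 hn).le⟩

end F3

theorem exists_flow [T2Space X] (hσ : IsSympl σ) {y : X → ℂ} {O : Set X} (hO : IsOpen O)
    (hy : ∀ x ∈ O, HolF y x) (hp : ∀ R : ℝ, IsCompact {x ∈ O | ‖y x‖ ≤ R}) :
    ∃ Φ, IsFlow σ y O Φ := by
  choose Φ h using fun i : ℝ × ℝ => F3.all hσ hO hy hp i.1 i.2
  obtain ⟨Ψ, hΨ⟩ := F3.glue hσ hy (fun i : ℝ × ℝ => F3.isOpen_lt hO hy i.1) h
  have hx : ∀ x ∈ O, x ∈ {w ∈ O | ‖y w‖ < ‖y x‖ + 1} := fun x hx => ⟨hx, lt_add_one _⟩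
  have ht : ∀ t : ℂ, t ∈ ball (0 : ℂ) (‖t‖ + 1) := fun t => mem_ball_zero_iff.2 (lt_add_one _)
  exact ⟨Ψ, fun x k t => (hΨ (‖y x‖ + 1, ‖t‖ + 1)).hol x (hx x k) t (ht t),
    fun x k t => (hΨ (‖y x‖ + 1, ‖t‖ + 1)).mem x (hx x k) t (ht t),
    fun x k t => F3.inv hσ hy (hΨ (‖y x‖ + 1, ‖t‖ + 1)) (hx x k) (ht t),
    fun x k => (hΨ (‖y x‖ + 1, 1)).zero x (hx x k),
    fun x k s t => F3.group hσ hy (hΨ (‖y x‖ + 1, ‖s‖ + ‖t‖ + 1)) (hx x k) (lt_add_one _),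
    fun x k t _ => (hΨ (‖y x‖ + 1, ‖t‖ + 1)).ham x (hx x k) t (ht t)⟩

end Vale.Agent.P290
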