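import Vale.Agent.P290.Mfd

/-! The local implicit function step. -/

open Set Filter Metric
open scoped Manifold ContDiff Topology

noncomputable section

namespace Vale.Agent.P290

variable {X : Type} [TopologicalSpace X] [ChartedSpace C2 X] [IsManifold 𝓘(ℂ, C2) ω X]
  {E : Type} [NormedAddCommGroup E] [NormedSpace ℂ E] [FiniteDimensional ℂ E]
  {A : Type} [NormedAddCommGroup A] [NormedSpace ℂ A] [FiniteDimensional ℂ A]
  {σ : Form2 X}

namespace Ift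

variable {V : Type} [NormedAddCommGroup V] [NormedSpace ℂ V] [FiniteDimensional ℂ V]

theorem inj_near {D : E → V →L[ℂ] V} {z₀ : E} (hc : ContinuousAt D z₀)
    (h0 : D z₀ = ContinuousLinearMap.id ℂ V) : ∀ᶠ z in 𝓝 z₀, ∀ v, D z v = 0 → v = 0 := by
  have h1 : ∀ᶠ z in 𝓝 z₀, dist (D z) (D z₀) < 1 / 2 :=
    Metric.tendsto_nhds.1 hc.tendsto _ (by norm_num)
  filter_upwards [h1] with z hz v hv
  rw [dist_eq_norm, h0] at hz
  have h2 : ‖(D z - ContinuousLinearMap.id ℂ V) v‖ ≤ ‖D z - ContinuousLinearMap.id ℂ V‖ * ‖v‖ :=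
    ContinuousLinearMap.le_opNorm _ _
  have h3 : (D z - ContinuousLinearMap.id ℂ V) v = -v := by simp [hv]
  rw [h3, norm_neg] at h2
  have h4 := norm_nonneg v
  have h5 : ‖v‖ ≤ 0 := by nlinarith
  exact norm_le_zero_iff.1 h5

theorem core {f : E × A → V} {g : E × ℂ → V} {Q : E → A →L[ℂ] A} {z₀ : E}
    (hf : AnalyticAt ℂ f (z₀, 0)) (hg : AnalyticAt ℂ g (z₀, 0)) (h0 : f (z₀, 0) = g (z₀, 0))
    (hQ : AnalyticAt ℂ Q z₀)
    (hD : ∀ᶠ z in 𝓝 z₀, ∀ u, fderiv ℂ f (z, 0) (0, Q z u) = fderiv ℂ f (z, 0) (0, u) ∧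
      (fderiv ℂ f (z, 0) (0, u) = 0 → Q z u = 0))
    (hs : ∀ v, ∃ u, fderiv ℂ f (z₀, 0) (0, u) = v) :
    ∃ l : E × ℂ → A, AnalyticAt ℂ l (z₀, 0) ∧ l (z₀, 0) = 0 ∧
      (∀ᶠ w in 𝓝 ((z₀, 0) : E × ℂ), f (w.1, l w) = g w ∧ Q w.1 (l w) = l w) ∧
      ∀ᶠ v in 𝓝 (((z₀, 0), 0) : (E × ℂ) × A),
        f (v.1.1, v.2) = g v.1 → Q v.1.1 v.2 = v.2 → v.2 = l v.1 := by
  have : CompleteSpace E := FiniteDimensional.complete ℂ E
  have : CompleteSpace A := FiniteDimensional.complete ℂ A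
  have : CompleteSpace V := FiniteDimensional.complete ℂ V
  obtain ⟨D, hDd⟩ : ∃ D : E → A →L[ℂ] V,
      D = fun z => fderiv ℂ f (z, 0) ∘L ContinuousLinearMap.inr ℂ E A := ⟨_, rfl⟩
  have hDa : ∀ z u, D z u = fderiv ℂ f (z, 0) (0, u) := by
    intro z u; rw [hDd]; rfl
  have hDc : ContinuousAt D z₀ := by
    rw [hDd]
    have k1 : ContinuousAt (fun z : E => fderiv ℂ f (z, 0)) z₀ :=
      ContinuousAt.comp (f := fun z : E => ((z, 0) : E × A)) hf.fderiv.continuousAt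
        (by fun_prop)
    exact k1.clm_comp continuousAt_const
  have hsurj : LinearMap.range (D z₀ : A →ₗ[ℂ] V) = ⊤ := by
    rw [LinearMap.range_eq_top]
    intro v
    obtain ⟨u, hu⟩ := hs v
    exact ⟨u, (hDa z₀ u).trans hu⟩
  obtain ⟨R₀, hR₀⟩ := LinearMap.exists_rightInverse_of_surjective _ hsurj
  obtain ⟨R, hR⟩ : ∃ R : V →L[ℂ] A, ∀ v, D z₀ (R v) = v :=
    ⟨LinearMap.toContinuousLinearMap R₀, fun v => LinearMap.congr_fun hR₀ v⟩
  have hD' : ∀ᶠ z in 𝓝 z₀, ∀ u, D z (Q z u) = D z u ∧ (D z u = 0 → Q z u = 0) := by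
    filter_upwards [hD] with z hz u
    rw [hDa, hDa]; exact hz u
  have hinj : ∀ᶠ z in 𝓝 z₀, ∀ v, (D z ∘L R) v = 0 → v = 0 :=
    inj_near (D := fun z => D z ∘L R) (hDc.clm_comp continuousAt_const)
      (ContinuousLinearMap.ext fun v => hR v)
  obtain ⟨Ψ, hΨ⟩ : ∃ Ψ : (E × ℂ) × A → A,
      Ψ = fun v => Q v.1.1 (R (f (v.1.1, v.2) - g v.1)) + v.2 - Q v.1.1 v.2 := ⟨_, rfl⟩
  have hQ' : AnalyticAt ℂ (fun v : (E × ℂ) × A => Q v.1.1) ((z₀, 0), 0) :=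
    AnalyticAt.comp (f := fun v : (E × ℂ) × A => v.1.1) hQ (analyticAt_fst.comp analyticAt_fst)
  have hf' : AnalyticAt ℂ (fun v : (E × ℂ) × A => f (v.1.1, v.2)) ((z₀, 0), 0) :=
    AnalyticAt.comp (f := fun v : (E × ℂ) × A => (v.1.1, v.2)) hf
      ((analyticAt_fst.comp analyticAt_fst).prod analyticAt_snd)
  have hg' : AnalyticAt ℂ (fun v : (E × ℂ) × A => g v.1) ((z₀, 0), 0) :=
    AnalyticAt.comp (f := fun v : (E × ℂ) × A => v.1) hg analyticAt_fst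
  have happ : ∀ {u : (E × ℂ) × A → A}, AnalyticAt ℂ u ((z₀, 0), 0) →
      AnalyticAt ℂ (fun v : (E × ℂ) × A => Q v.1.1 (u v)) ((z₀, 0), 0) := fun hu =>
    (ContinuousLinearMap.apply ℂ A).flip.analyticAt_bilinear _ |>.comp₂ hQ' hu
  have h1 : AnalyticAt ℂ Ψ ((z₀, 0), 0) := by
    rw [hΨ]
    exact ((happ ((R.analyticAt _).comp (hf'.sub hg'))).add analyticAt_snd).sub
      (happ analyticAt_snd)
  have h2 : ContDiffAt ℂ ⊤ Ψ ((z₀, 0), 0) := h1.contDiffAt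
  have h3 : fderiv ℂ Ψ ((z₀, 0), 0) ∘L ContinuousLinearMap.inr ℂ (E × ℂ) A =
      ContinuousLinearMap.id ℂ A := by
    have k0 : HasFDerivAt (fun t : A => ((((z₀, 0) : E × ℂ), t) : (E × ℂ) × A))
        (ContinuousLinearMap.inr ℂ (E × ℂ) A) 0 := hasFDerivAt_prodMk_right _ _
    have k1 : HasFDerivAt Ψ (fderiv ℂ Ψ ((z₀, 0), 0)) ((z₀, 0), 0) :=
      h1.differentiableAt.hasFDerivAt
    have k2 := HasFDerivAt.comp (0 : A)
      (f := fun t : A => ((((z₀, 0) : E × ℂ), t) : (E × ℂ) × A)) k1 k0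
    have k3 : HasFDerivAt (fun t : A => f (z₀, t)) (D z₀) 0 := by
      rw [hDd]
      exact HasFDerivAt.comp (0 : A) (f := fun t : A => ((z₀, t) : E × A))
        hf.differentiableAt.hasFDerivAt (hasFDerivAt_prodMk_right _ _)
    have k4 : HasFDerivAt (fun t : A => Q z₀ (R (f (z₀, t) - g (z₀, 0))) + t - Q z₀ t)
        (Q z₀ ∘L (R ∘L D z₀) + ContinuousLinearMap.id ℂ A - Q z₀) 0 :=
      (((Q z₀).hasFDerivAt.comp (0 : A) (R.hasFDerivAt.comp (0 : A) (k3.sub_const _))).add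
        (hasFDerivAt_id _)).sub (Q z₀).hasFDerivAt
    have k5 : Q z₀ ∘L (R ∘L D z₀) + ContinuousLinearMap.id ℂ A - Q z₀ =
        ContinuousLinearMap.id ℂ A := by
      ext u
      have e1 := (hD'.self_of_nhds (R (D z₀ u) - u)).2 (by rw [map_sub, hR, sub_self])
      rw [map_sub, sub_eq_zero] at e1
      simp [e1]
    rw [k5] at k4
    refine k2.unique (k4.congr_of_eventuallyEq (Eventually.of_forall fun t => ?_))
    rw [hΨ]; rfl
  have h4 : (fderiv ℂ Ψ ((z₀, 0), 0) ∘L ContinuousLinearMap.inr ℂ (E × ℂ) A).IsInvertible :=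
    h3 ▸ ⟨ContinuousLinearEquiv.refl ℂ A, rfl⟩
  have h5 : Ψ ((z₀, 0), 0) = 0 := by
    rw [hΨ]; simp [h0]
  refine ⟨h2.implicitFunction (by simp) h4, ?_, h2.implicitFunction_apply_self (by simp) h4,
    ?_, ?_⟩
  · exact (h2.contDiffAt_implicitFunction (by simp) h4).analyticAt
  · have t1 : Tendsto (fun w : E × ℂ => w.1) (𝓝 (z₀, 0)) (𝓝 z₀) := continuous_fst.tendsto _
    filter_upwards [h2.eventually_apply_implicitFunction (by simp) h4, t1.eventually hD',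
      t1.eventually hinj] with w hw hw1 hw2
    generalize h2.implicitFunction (by simp) h4 w = t at hw
    rw [h5, hΨ] at hw
    have hw' : Q w.1 (R (f (w.1, t) - g w)) + t - Q w.1 t = 0 := hw
    have qq : ∀ u, Q w.1 (Q w.1 u) = Q w.1 u := by
      intro u
      have e1 := (hw1 (Q w.1 u - u)).2 (by rw [map_sub, (hw1 u).1, sub_self])
      rwa [map_sub, sub_eq_zero] at e1
    have e2 : Q w.1 (R (f (w.1, t) - g w)) = 0 := by
      have e3 := congrArg (Q w.1) hw'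
      rw [map_sub, map_add, qq, qq, map_zero, add_sub_cancel_right] at e3
      exact e3
    rw [e2, zero_add, sub_eq_zero] at hw'
    refine ⟨sub_eq_zero.1 (hw2 _ ?_), hw'.symm⟩
    have e4 := (hw1 (R (f (w.1, t) - g w))).1
    rw [e2, map_zero] at e4
    exact e4.symm
  · filter_upwards [h2.eventually_apply_eq_iff_implicitFunction (by simp) h4] with v hv e1 e2
    refine (hv.1 ?_).symm
    rw [h5, hΨ]
    show Q v.1.1 (R (f (v.1.1, v.2) - g v.1)) + v.2 - Q v.1.1 v.2 = 0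
    rw [e1, e2]; simp

end Ift

theorem ift_loc {F : E × A → X} {g : E × ℂ → X} {Q : E → A →L[ℂ] A} {z₀ : E}
    (hF : Hol F (z₀, 0)) (hg : Hol g (z₀, 0)) (h0 : F (z₀, 0) = g (z₀, 0))
    (hQ : AnalyticAt ℂ Q z₀)
    (hD : ∀ᶠ z in 𝓝 z₀, ∀ u, dT F z (Q z u) = dT F z u ∧ (dT F z u = 0 → Q z u = 0))
    (hs : Function.Surjective (dT F z₀)) :
    ∃ l : E × ℂ → A, AnalyticAt ℂ l (z₀, 0) ∧ l (z₀, 0) = 0 ∧
      (∀ᶠ w in 𝓝 ((z₀, 0) : E × ℂ), F (w.1, l w) = g w ∧ Q w.1 (l w) = l w) ∧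
      ∀ᶠ v in 𝓝 (((z₀, 0), 0) : (E × ℂ) × A),
        F (v.1.1, v.2) = g v.1 → Q v.1.1 v.2 = v.2 → v.2 = l v.1 := by
  obtain ⟨x₀, hx⟩ : ∃ x₀ : X, F (z₀, 0) ∈ (chartAt C2 x₀).source := ⟨_, mem_chart_source _ _⟩
  have hx' : g (z₀, 0) ∈ (chartAt C2 x₀).source := h0 ▸ hx
  have hf : AnalyticAt ℂ (fun w => chartAt C2 x₀ (F w)) (z₀, 0) := (holF_chart x₀ hx).comp hF
  have hg' : AnalyticAt ℂ (fun w => chartAt C2 x₀ (g w)) (z₀, 0) := (holF_chart x₀ hx').comp hg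
  have sF : ∀ᶠ w in 𝓝 ((z₀, 0) : E × A), F w ∈ (chartAt C2 x₀).source :=
    hF.cont.eventually ((chartAt C2 x₀).open_source.mem_nhds hx)
  have sg' : ∀ᶠ w in 𝓝 ((z₀, 0) : E × ℂ), g w ∈ (chartAt C2 x₀).source :=
    hg.cont.eventually ((chartAt C2 x₀).open_source.mem_nhds hx')
  have t0 : Tendsto (fun z : E => ((z, 0) : E × A)) (𝓝 z₀) (𝓝 (z₀, 0)) :=
    (by fun_prop : Continuous fun z : E => ((z, 0) : E × A)).tendsto _
  have key : ∀ z : E, Hol F (z, 0) → F (z, 0) ∈ (chartAt C2 x₀).source → ∀ u,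
      dT F z u = dif (chartAt C2 x₀).symm (chartAt C2 x₀ (F (z, 0)))
        (fderiv ℂ (fun w => chartAt C2 x₀ (F w)) (z, 0) (0, u)) := fun z h1 h2 u =>
    (dT_eq h1 u).trans (dif_chart x₀ h1 h2 _)
  obtain ⟨l, l1, l2, l3, l4⟩ := Ift.core (Q := Q) hf hg' (by rw [h0]) hQ (by
    filter_upwards [hD, t0.eventually hF.ev, t0.eventually sF] with z hz h1 h2 u
    have hb := (dif_symm_bij x₀ ((chartAt C2 x₀).map_source h2)).1
    refine ⟨hb ?_, fun h3 => (hz u).2 ?_⟩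
    · rw [← key z h1 h2, ← key z h1 h2]; exact (hz u).1
    · rw [key z h1 h2, h3, map_zero]) (by
    intro v
    have hb := (dif_symm_bij x₀ ((chartAt C2 x₀).map_source hx)).1
    obtain ⟨u, hu⟩ := hs (dif (chartAt C2 x₀).symm (chartAt C2 x₀ (F (z₀, 0))) v)
    exact ⟨u, hb ((key z₀ hF hx u).symm.trans hu)⟩)
  refine ⟨l, l1, l2, ?_, ?_⟩
  · have t1 : Tendsto (fun w : E × ℂ => ((w.1, l w) : E × A)) (𝓝 (z₀, 0)) (𝓝 (z₀, 0)) := by
      have := (continuousAt_fst (p := ((z₀, 0) : E × ℂ))).prodMk l1.continuousAt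
      rwa [ContinuousAt, l2] at this
    filter_upwards [l3, t1.eventually sF, sg'] with w hw h1 h2
    exact ⟨(chartAt C2 x₀).injOn h1 h2 hw.1, hw.2⟩
  · filter_upwards [l4] with v hv h1 h2
    exact hv (by rw [h1]) h2

end Vale.Agent.P290
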