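import Vale.Agent.P290.Idem
import Vale.Agent.P290.Ift

/-! Nearby maps are values of a dominating family. -/

open Set Filter Metric
open scoped Manifold ContDiff Topology

noncomputable section

namespace Vale.Agent.P290

variable {X : Type} [TopologicalSpace X] [ChartedSpace C2 X] [IsManifold 𝓘(ℂ, C2) ω X]
  {E : Type} [NormedAddCommGroup E] [NormedSpace ℂ E] [FiniteDimensional ℂ E]
  {A : Type} [NormedAddCommGroup A] [NormedSpace ℂ A] [FiniteDimensional ℂ A]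
  {σ : Form2 X}

theorem solve (hσ : IsSympl σ) {P : Set E} (hP : IsCompact P) (hc : Convex ℝ P)
    {F : E × A → X} (hF : ∀ z ∈ P, Hol F (z, 0))
    (hs : ∀ z ∈ P, ∃ u v, sg σ (F (z, 0)) (dT F z u) (dT F z v) ≠ 0) {g : E × ℂ → X}
    (hg : ∀ z ∈ P, Hol g (z, 0)) (h0 : ∀ᶠ z in 𝓝ˢ P, F (z, 0) = g (z, 0)) :
    ∃ l : E × ℂ → A, AnalyticOnNhd ℂ l (P ×ˢ {0}) ∧ (∀ z ∈ P, l (z, 0) = 0) ∧
      ∀ᶠ w in 𝓝ˢ (P ×ˢ ({0} : Set ℂ)), F (w.1, l w) = g w := by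
  obtain ⟨Q, hQ, hD⟩ := exists_idem hσ hP hc hF hs
  have h0' := eventually_nhdsSet_iff_forall.1 h0
  have key := fun z (hz : z ∈ P) => ift_loc (hF z hz) (hg z hz) (h0' z hz).self_of_nhds (hQ z hz)
    (eventually_nhdsSet_iff_forall.1 hD z hz) (surj_of_span hσ (hs z hz))
  choose! l hA hz hS hU using key
  obtain ⟨f, hf⟩ := glueFam (hP.prod (isCompact_singleton (x := (0 : ℂ)))) (fun a => l a.1) (by
    rintro ⟨z, _⟩ ⟨hzP, rfl⟩
    have t1 : Tendsto (fun y : E => (((y, 0), 0) : (E × ℂ) × A)) (𝓝 z) (𝓝 ((z, 0), 0)) :=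
      Continuous.tendsto (by fun_prop) z
    have c1 : ∀ᶠ y in 𝓝 z, l z (y, 0) = 0 := by
      filter_upwards [t1.eventually (hU z hzP), h0' z hzP] with y h1 h2
      exact (h1 h2 (map_zero _)).symm
    filter_upwards [(hA z hzP).eventually_analyticAt, (hS z hzP).eventually_nhds,
      (continuous_fst.tendsto ((z, 0) : E × ℂ)).eventually c1]
    rintro ⟨y, _⟩ h1 h2 h3 ⟨hyP, rfl⟩
    have t2 : Tendsto (fun w : E × ℂ => (w, l z w)) (𝓝 (y, 0)) (𝓝 ((y, 0), 0)) := by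
      have t3 := h1.continuousAt.tendsto
      rw [show l z (y, 0) = 0 from h3] at t3
      exact tendsto_id.prodMk_nhds t3
    filter_upwards [t2.eventually (hU y hyP), h2] with w h4 h5
    exact h4 h5.1 h5.2)
  refine ⟨f, ?_, fun z hzP => ?_, eventually_nhdsSet_iff_forall.2 ?_⟩
  · rintro ⟨z, _⟩ ⟨hzP, rfl⟩
    exact (hA z hzP).congr (hf _ ⟨hzP, rfl⟩).symm
  · exact (hf (z, 0) ⟨hzP, rfl⟩).eq_of_nhds.trans (hz z hzP)
  · rintro ⟨z, _⟩ ⟨hzP, rfl⟩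
    filter_upwards [hf (z, 0) ⟨hzP, rfl⟩, hS z hzP] with w h1 h2
    rw [h1]
    exact h2.1

end Vale.Agent.P290
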