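import Vale.Agent.P290.F3

/-! The spray of a map to the projective line. -/

open Set Filter Metric
open scoped Manifold ContDiff Topology

noncomputable section

namespace Vale.Agent.P290

variable {X : Type} [TopologicalSpace X] [ChartedSpace C2 X] [IsManifold 𝓘(ℂ, C2) ω X]
  {E : Type} [NormedAddCommGroup E] [NormedSpace ℂ E] [FiniteDimensional ℂ E]
  {A : Type} [NormedAddCommGroup A] [NormedSpace ℂ A] [FiniteDimensional ℂ A]
  {σ : Form2 X}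

namespace Spr

theorem ne_iff (l : ℂ × ℂ →L[ℂ] ℂ) {p : ℂ × ℂ} {a : P1} (h : Rep p a) :
    l a.rep ≠ 0 ↔ l p ≠ 0 := by
  obtain ⟨c, hc, e⟩ := h.ratio (rep_rep a)
  rw [e, map_smul, smul_eq_mul]
  simp [hc]

theorem div_eq (l m : ℂ × ℂ →L[ℂ] ℂ) {p : ℂ × ℂ} {a : P1} (h : Rep p a) :
    m a.rep / l a.rep = m p / l p := by
  obtain ⟨c, hc, e⟩ := h.ratio (rep_rep a)
  rw [e, map_smul, map_smul, smul_eq_mul, smul_eq_mul, mul_div_mul_left _ _ hc]

theorem lt_iff (l m : ℂ × ℂ →L[ℂ] ℂ) (R : ℝ) {p : ℂ × ℂ} {a : P1} (h : Rep p a) :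
    R * ‖l a.rep‖ < ‖m a.rep‖ ↔ R * ‖l p‖ < ‖m p‖ := by
  obtain ⟨c, hc, e⟩ := h.ratio (rep_rep a)
  have hc' : 0 < ‖c‖ := norm_pos_iff.mpr hc
  rw [e, map_smul, map_smul, norm_smul, norm_smul, mul_left_comm]
  exact mul_lt_mul_iff_right₀ hc'

omit [IsManifold 𝓘(ℂ, C2) ω X] in
theorem isOpen_O {π : X → P1} (hπ : HolP π) (l : ℂ × ℂ →L[ℂ] ℂ) :
    IsOpen {x | l (π x).rep ≠ 0} := by
  rw [isOpen_iff_mem_nhds]
  intro x hx
  obtain ⟨p, hp, hr⟩ := hπ x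
  have h0 : l (p x) ≠ 0 := (ne_iff l hr.self_of_nhds).mp hx
  have hc : ContinuousAt (fun w => l (p w)) x := l.continuous.continuousAt.comp hp.continuousAt
  filter_upwards [hr, hc.eventually_ne h0] with w hw hw'
  exact (ne_iff l hw).mpr hw'

theorem holF_y {π : X → P1} (hπ : HolP π) (l m : ℂ × ℂ →L[ℂ] ℂ) {x : X}
    (hx : l (π x).rep ≠ 0) : HolF (fun w => m (π w).rep / l (π w).rep) x := by
  obtain ⟨p, hp, hr⟩ := hπ x
  have h0 : l (p x) ≠ 0 := (ne_iff l hr.self_of_nhds).mp hx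
  have hg : AnalyticAt ℂ (fun q : ℂ × ℂ => m q / l q) (p x) :=
    (m.analyticAt _).div (l.analyticAt _) h0
  have h1 : HolF (fun w => m (p w) / l (p w)) x := HolF.post (y := p) hp hg
  refine ContMDiffAt.congr_of_eventuallyEq h1 ?_
  filter_upwards [hr] with w hw
  exact div_eq l m hw

omit [IsManifold 𝓘(ℂ, C2) ω X] in
theorem compact_O [CompactSpace X] {π : X → P1} (hπ : HolP π) (l m : ℂ × ℂ →L[ℂ] ℂ)
    (hlm : ∀ q, l q = 0 → m q = 0 → q = 0) (R : ℝ) :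
    IsCompact {x ∈ {x | l (π x).rep ≠ 0} | ‖m (π x).rep / l (π x).rep‖ ≤ R} := by
  have e : {x ∈ {x | l (π x).rep ≠ 0} | ‖m (π x).rep / l (π x).rep‖ ≤ R} =
      {x | R * ‖l (π x).rep‖ < ‖m (π x).rep‖}ᶜ := by
    ext x
    simp only [mem_ofPred_eq, mem_compl_iff, not_lt]
    constructor
    · rintro ⟨h1, h2⟩
      rw [norm_div, div_le_iff₀ (norm_pos_iff.mpr h1)] at h2
      exact h2
    · intro h
      have h1 : l (π x).rep ≠ 0 := by
        intro h0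
        rw [h0, norm_zero, mul_zero] at h
        exact (rep_rep (π x)).ne (hlm _ h0 (norm_le_zero_iff.mp h))
      refine ⟨h1, ?_⟩
      rw [norm_div, div_le_iff₀ (norm_pos_iff.mpr h1)]
      exact h
  rw [e]
  refine IsClosed.isCompact (IsOpen.isClosed_compl ?_)
  rw [isOpen_iff_mem_nhds]
  intro x hx
  obtain ⟨p, hp, hr⟩ := hπ x
  have h0 : R * ‖l (p x)‖ < ‖m (p x)‖ := (lt_iff l m R hr.self_of_nhds).mp hx
  have hc1 : ContinuousAt (fun w => R * ‖l (p w)‖) x :=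
    continuousAt_const.mul (l.continuous.continuousAt.comp hp.continuousAt).norm
  have hc2 : ContinuousAt (fun w => ‖m (p w)‖) x :=
    (m.continuous.continuousAt.comp hp.continuousAt).norm
  filter_upwards [hr, hc1.eventually_lt hc2 h0] with w hw hw'
  exact (lt_iff l m R hw).mpr hw'

theorem flow_of [T2Space X] [CompactSpace X] (hσ : IsSympl σ) {π : X → P1} (hπ : HolP π)
    (l m : ℂ × ℂ →L[ℂ] ℂ) (hlm : ∀ q, l q = 0 → m q = 0 → q = 0) :
    ∃ Φ, IsFlow σ (fun w => m (π w).rep / l (π w).rep) {x | l (π x).rep ≠ 0} Φ :=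
  exists_flow hσ (isOpen_O hπ l) (fun _ hx => holF_y hπ l m hx) (compact_O hπ l m hlm)

theorem an_mul (k s : ℂ) : AnalyticAt ℂ (fun t : ℂ => k * t) s :=
  analyticAt_const.mul analyticAt_id

theorem hd_mul (k s : ℂ) : HasDerivAt (fun t : ℂ => k * t) k s := by
  simpa using (hasDerivAt_id s).const_mul k

/-- Rescaling the time of a flow line. -/
theorem sg_scale {y : X → ℂ} {O : Set X} {Φ : X × ℂ → X} (h : IsFlow σ y O Φ) {x : X}
    (hx : x ∈ O) (k s : ℂ) (v : C2) :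
    sg σ (Φ (x, k * s)) (vel (fun t => Φ (x, k * t)) s) v = k * dfn y (Φ (x, k * s)) v := by
  obtain ⟨h1, h2⟩ := h.ham x hx (k * s) (mem_univ _)
  have e := vel_comp (c := fun t => Φ (x, t)) (g := fun t => k * t) h1 (an_mul k s) (hd_mul k s)
  rw [e, map_smul, LinearMap.smul_apply, smul_eq_mul, h2 v]

/-- The two flows agree after rescaling. -/
theorem key [T2Space X] (hσ : IsSympl σ) {y₀ y₁ : X → ℂ} {O₀ O₁ : Set X} {Φ₀ Φ₁ : X × ℂ → X}
    (h₀ : IsFlow σ y₀ O₀ Φ₀) (h₁ : IsFlow σ y₁ O₁ Φ₁) (hy₀ : ∀ x ∈ O₀, HolF y₀ x)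
    (hy₁ : ∀ x ∈ O₁, HolF y₁ x) (e : ∀ x, y₁ x = (y₀ x)⁻¹) {x : X} (hx₀ : x ∈ O₀) (hx₁ : x ∈ O₁)
    (hne : y₀ x ≠ 0) (s : ℂ) : Φ₀ (x, -((y₀ x) ^ 2)⁻¹ * s) = Φ₁ (x, s) := by
  have hH : HamOn σ y₁ (fun t => Φ₀ (x, -((y₀ x) ^ 2)⁻¹ * t)) univ := by
    intro t _
    refine ⟨?_, fun v => ?_⟩
    · exact Hol.comp (f := fun t => Φ₀ (x, t)) (g := fun t => -((y₀ x) ^ 2)⁻¹ * t)
        (h₀.ham x hx₀ _ (mem_univ _)).1 (an_mul _ t)
    · rw [sg_scale h₀ hx₀]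
      have hi := h₀.inv x hx₀ (-((y₀ x) ^ 2)⁻¹ * t)
      have hf : y₁ = fun w => (y₀ w)⁻¹ := funext e
      have hg : AnalyticAt ℂ (fun u : ℂ => u⁻¹) (y₀ (Φ₀ (x, -((y₀ x) ^ 2)⁻¹ * t))) := by
        rw [hi]
        exact analyticAt_id.inv hne
      have h3 := dfn_post (g := fun u : ℂ => u⁻¹) (hy₀ _ (h₀.mem x hx₀ _)) hg v
      rw [hf, h3, hi, (hasDerivAt_inv hne).hasFDerivAt.fderiv]
      simp [mul_comm]
  have h := ham_uniq hσ hy₁ isOpen_univ isPreconnected_univ hH (h₁.ham x hx₁)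
    (fun t _ => h₁.mem x hx₁ t) (mem_univ (0 : ℂ))
    (by simp only [mul_zero]; rw [h₀.zero x hx₀, h₁.zero x hx₁])
  exact h (mem_univ s)

omit [IsManifold 𝓘(ℂ, C2) ω X] [FiniteDimensional ℂ A] in
theorem holX_time {Φ : X × ℂ → X} {φ : A → ℂ} {w : X × A} (h : HolX Φ (w.1, φ w.2))
    (hφ : AnalyticAt ℂ φ w.2) : HolX (fun v : X × A => Φ (v.1, φ v.2)) w := by
  have h1 : ContMDiffAt 𝓘(ℂ, A) 𝓘(ℂ, ℂ) ω φ w.2 := hφ.contDiffAt.contMDiffAt
  have h2 : ContMDiffAt (𝓘(ℂ, C2).prod 𝓘(ℂ, A)) 𝓘(ℂ, ℂ) ω (fun v : X × A => φ v.2) w :=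
    h1.comp w contMDiffAt_snd
  have h3 : ContMDiffAt (𝓘(ℂ, C2).prod 𝓘(ℂ, A)) (𝓘(ℂ, C2).prod 𝓘(ℂ, ℂ)) ω
      (fun v : X × A => (v.1, φ v.2)) w := contMDiffAt_fst.prodMk h2
  exact ContMDiffAt.comp w (g := Φ) (f := fun v : X × A => (v.1, φ v.2)) h h3

/-- The derivative of a ratio along a curve. -/
theorem dfn_ratio {π : X → P1} (hπ : HolP π) (l m : ℂ × ℂ →L[ℂ] ℂ) {c : ℂ → X}
    {p : ℂ → ℂ × ℂ} (hc : Hol c 0) (hp : AnalyticAt ℂ p 0)
    (hr : ∀ᶠ s in 𝓝 0, Rep (p s) (π (c s))) (h0 : l (p 0) ≠ 0) :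
    l (p 0) ^ 2 * dfn (fun w => m (π w).rep / l (π w).rep) (c 0) (vel c 0) =
      m (deriv p 0) * l (p 0) - m (p 0) * l (deriv p 0) := by
  have hx : l (π (c 0)).rep ≠ 0 := (ne_iff l hr.self_of_nhds).mpr h0
  have h1 := dfn_comp (holF_y hπ l m hx) hc (1 : ℂ)
  have hd := hp.differentiableAt.hasDerivAt
  have hl : HasDerivAt (fun s => l (p s)) (l (deriv p 0)) 0 :=
    l.hasFDerivAt.comp_hasDerivAt (0 : ℂ) hd
  have hm : HasDerivAt (fun s => m (p s)) (m (deriv p 0)) 0 :=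
    m.hasFDerivAt.comp_hasDerivAt (0 : ℂ) hd
  have hq := hm.fun_div hl h0
  have ee : (fun s => m (π (c s)).rep / l (π (c s)).rep) =ᶠ[𝓝 0]
      fun s => m (p s) / l (p s) := by
    filter_upwards [hr] with s hs
    exact div_eq l m hs
  have hq' := hq.congr_of_eventuallyEq ee
  rw [hq'.hasFDerivAt.fderiv] at h1
  unfold vel
  rw [← h1]
  simp only [ContinuousLinearMap.toSpanSingleton_apply, one_smul]
  field_simp

end Spr

open Spr in
theorem exists_spray [T2Space X] [CompactSpace X] (hσ : IsSympl σ) {π : X → P1} (hπ : HolP π) :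
    ∃ S, Spray σ π S := by
  classical
  obtain ⟨Φ₀, h₀⟩ := flow_of hσ hπ (ContinuousLinearMap.fst ℂ ℂ ℂ) (ContinuousLinearMap.snd ℂ ℂ ℂ)
    (fun q a b => Prod.ext a b)
  obtain ⟨Φ₁, h₁⟩ := flow_of hσ hπ (ContinuousLinearMap.snd ℂ ℂ ℂ) (ContinuousLinearMap.fst ℂ ℂ ℂ)
    (fun q a b => Prod.ext b a)
  have hy₀ := fun x hx => holF_y hπ (ContinuousLinearMap.fst ℂ ℂ ℂ)
    (ContinuousLinearMap.snd ℂ ℂ ℂ) (x := x) hx
  have hy₁ := fun x hx => holF_y hπ (ContinuousLinearMap.snd ℂ ℂ ℂ)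
    (ContinuousLinearMap.fst ℂ ℂ ℂ) (x := x) hx
  have m₀ : ∀ {x p}, Rep p (π x) → p.1 ≠ 0 →
      x ∈ {x | ContinuousLinearMap.fst ℂ ℂ ℂ (π x).rep ≠ 0} :=
    fun h hp => (ne_iff (ContinuousLinearMap.fst ℂ ℂ ℂ) h).mpr hp
  have m₁ : ∀ {x p}, Rep p (π x) → p.2 ≠ 0 →
      x ∈ {x | ContinuousLinearMap.snd ℂ ℂ ℂ (π x).rep ≠ 0} :=
    fun h hp => (ne_iff (ContinuousLinearMap.snd ℂ ℂ ℂ) h).mpr hp
  have n₂ : ∀ {x p}, Rep p (π x) → ¬ p.1 ≠ 0 → p.2 ≠ 0 := by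
    intro x p h hp h2
    exact h.ne (Prod.ext (not_not.mp hp) h2)
  have K : ∀ {x p} (t : ℂ), Rep p (π x) → p.1 ≠ 0 → p.2 ≠ 0 →
      Φ₀ (x, p.1 ^ 2 * t) = Φ₁ (x, -(p.2 ^ 2) * t) := by
    intro x p t h hp1 hp2
    have hd := div_eq (ContinuousLinearMap.fst ℂ ℂ ℂ) (ContinuousLinearMap.snd ℂ ℂ ℂ) h
    have hk := key hσ h₀ h₁ hy₀ hy₁ (fun x => by rw [inv_div]) (m₀ h hp1) (m₁ h hp2)
      (by rw [hd]; exact div_ne_zero hp2 hp1) (-(p.2 ^ 2) * t)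
    rw [hd] at hk
    rw [← hk]
    congr 2
    simp only [ContinuousLinearMap.coe_fst', ContinuousLinearMap.coe_snd']
    field_simp
  refine ⟨fun w => if w.2.1.1 ≠ 0 then Φ₀ (w.1, w.2.1.1 ^ 2 * w.2.2)
    else Φ₁ (w.1, -(w.2.1.2 ^ 2) * w.2.2), ?_, ?_, ?_, ?_, ?_, ?_, ?_⟩
  · intro w hw
    have hw' : Rep w.2.1 (π w.1) := hw
    by_cases hp : w.2.1.1 ≠ 0
    · refine ⟨fun v => Φ₀ (v.1, v.2.1.1 ^ 2 * v.2.2), ?_, ?_⟩
      · exact holX_time (φ := fun u : (ℂ × ℂ) × ℂ => u.1.1 ^ 2 * u.2)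
          (h₀.hol _ (m₀ hw' hp) _)
          (((analyticAt_fst.comp analyticAt_fst).pow 2).mul analyticAt_snd)
      · have hc : ContinuousAt (fun v : X × (ℂ × ℂ) × ℂ => v.2.1.1) w := by fun_prop
        filter_upwards [hc.eventually_ne hp] with v hv _
        rw [if_pos hv]
    · have hp2 := n₂ hw' hp
      refine ⟨fun v => Φ₁ (v.1, -(v.2.1.2 ^ 2) * v.2.2), ?_, ?_⟩
      · exact holX_time (φ := fun u : (ℂ × ℂ) × ℂ => -(u.1.2 ^ 2) * u.2)
          (h₁.hol _ (m₁ hw' hp2) _)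
          (((analyticAt_snd.comp analyticAt_fst).pow 2).neg.mul analyticAt_snd)
      · have hc : ContinuousAt (fun v : X × (ℂ × ℂ) × ℂ => v.2.1.2) w := by fun_prop
        filter_upwards [hc.eventually_ne hp2] with v hv hY
        by_cases hv1 : v.2.1.1 ≠ 0
        · rw [if_pos hv1]
          exact K _ hY hv1 hv
        · rw [if_neg hv1]
  · intro x p t h
    by_cases hp : p.1 ≠ 0
    · simp only [if_pos hp]
      have a := h₀.mem x (m₀ h hp) (p.1 ^ 2 * t)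
      have b := h₀.inv x (m₀ h hp) (p.1 ^ 2 * t)
      have c := m₀ h hp
      simp only [ContinuousLinearMap.coe_fst', ContinuousLinearMap.coe_snd', mem_ofPred_eq] at a b c
      rw [(rep_rep _).eq_iff (rep_rep _)]
      rw [div_eq_div_iff a c] at b
      linear_combination -b
    · simp only [if_neg hp]
      have hp2 := n₂ h hp
      have a := h₁.mem x (m₁ h hp2) (-(p.2 ^ 2) * t)
      have b := h₁.inv x (m₁ h hp2) (-(p.2 ^ 2) * t)
      have c := m₁ h hp2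
      simp only [ContinuousLinearMap.coe_fst', ContinuousLinearMap.coe_snd', mem_ofPred_eq] at a b c
      rw [(rep_rep _).eq_iff (rep_rep _)]
      rw [div_eq_div_iff a c] at b
      linear_combination b
  · intro x p h
    by_cases hp : p.1 ≠ 0
    · simp only [if_pos hp, mul_zero]
      exact h₀.zero x (m₀ h hp)
    · simp only [if_neg hp, mul_zero]
      exact h₁.zero x (m₁ h (n₂ h hp))
  · intro x p s t h
    by_cases hp : p.1 ≠ 0
    · simp only [if_pos hp, mul_add]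
      exact h₀.add x (m₀ h hp) _ _
    · simp only [if_neg hp, mul_add]
      exact h₁.add x (m₁ h (n₂ h hp)) _ _
  · intro x p c t h hc
    by_cases hp : p.1 ≠ 0
    · have hp' : (c • p).1 ≠ 0 := mul_ne_zero hc hp
      simp only [if_pos hp, if_pos hp']
      congr 2
      simp only [Prod.smul_fst, smul_eq_mul]
      ring
    · have hp' : ¬ (c • p).1 ≠ 0 := by
        rw [not_not] at hp ⊢
        simp [hp]
      simp only [if_neg hp, if_neg hp']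
      congr 2
      simp only [Prod.smul_snd, smul_eq_mul]
      ring
  · intro c p hc hpa hr
    have h := hr.self_of_nhds
    by_cases hp : (p 0).1 ≠ 0
    · have a := sg_scale h₀ (m₀ h hp) ((p 0).1 ^ 2) 0 (vel c 0)
      rw [mul_zero, h₀.zero _ (m₀ h hp)] at a
      have b := dfn_ratio hπ (ContinuousLinearMap.fst ℂ ℂ ℂ) (ContinuousLinearMap.snd ℂ ℂ ℂ)
        hc hpa hr hp
      simp only [tv, if_pos hp]
      rw [a]
      simp only [ContinuousLinearMap.coe_fst', ContinuousLinearMap.coe_snd'] at b ⊢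
      rw [b, wr]
      ring
    · have hp2 := n₂ h hp
      have a := sg_scale h₁ (m₁ h hp2) (-((p 0).2 ^ 2)) 0 (vel c 0)
      rw [mul_zero, h₁.zero _ (m₁ h hp2)] at a
      have b := dfn_ratio hπ (ContinuousLinearMap.snd ℂ ℂ ℂ) (ContinuousLinearMap.fst ℂ ℂ ℂ)
        hc hpa hr hp2
      simp only [tv, if_neg hp]
      rw [a]
      simp only [ContinuousLinearMap.coe_fst', ContinuousLinearMap.coe_snd'] at b ⊢
      rw [neg_mul, b, wr]
      ring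
  · intro γ hγ h s
    have hx := m₀ h one_ne_zero
    have e := ham_uniq hσ hy₀ isOpen_univ isPreconnected_univ hγ.hamOn (h₀.ham _ hx)
      (fun t _ => h₀.mem _ hx t) (mem_univ (0 : ℂ)) (h₀.zero _ hx).symm
    simp only [ne_eq, one_ne_zero, not_false_eq_true, if_true, one_pow, one_mul]
    exact e (mem_univ s)

end Vale.Agent.P290
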