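import Vale.Agent.P290.FamX
import Vale.Agent.P290.Solve
import Vale.Agent.P290.Spr

/-! The factorisation theorem. -/

open Set Filter Metric
open scoped Manifold ContDiff Topology

noncomputable section

namespace Vale.Agent.P290

variable {X : Type} [TopologicalSpace X] [ChartedSpace C2 X] [IsManifold 𝓘(ℂ, C2) ω X]
  {E : Type} [NormedAddCommGroup E] [NormedSpace ℂ E] [FiniteDimensional ℂ E]
  {A : Type} [NormedAddCommGroup A] [NormedSpace ℂ A] [FiniteDimensional ℂ A]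
  {σ : Form2 X}

namespace Fact

theorem fam_mono {P D D' : Set E} {f : E → X} {F : E × A → X} (h : Fam σ P f F D)
    (hD : D' ⊆ D) : Fam σ P f F D' :=
  ⟨h.hol, h.zero, h.eqv, fun z hz => h.span z ⟨hz.1, hD hz.2⟩⟩

theorem fam_fin {P D : Set E} {f : E → X} {F : E × A → X} (h : Fam σ P f F D) :
    ∃ (n : ℕ) (F' : E × (Fin n → ℂ) → X), Fam σ P f F' D := by
  let e : (Fin (Module.finrank ℂ A) → ℂ) ≃L[ℂ] A :=
    (ContinuousLinearEquiv.ofFinrankEq (by simp))
  let ρ : E × (Fin (Module.finrank ℂ A) → ℂ) →L[ℂ] E × A :=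
    (ContinuousLinearMap.id ℂ E).prodMap (e : (Fin (Module.finrank ℂ A) → ℂ) →L[ℂ] A)
  have hρ : ∀ w, ρ w = (w.1, e w.2) := fun w => rfl
  have hρ0 : ∀ z : E, ρ (z, 0) = (z, 0) := fun z => by simp [hρ]
  have hh : ∀ z ∈ P, Hol (fun w => F (ρ w)) (z, 0) := fun z hz =>
    Hol.comp (g := ρ) (by rw [hρ0]; exact h.hol z hz) (ρ.analyticAt _)
  refine ⟨_, fun w => F (ρ w), hh, ?_, ?_, ?_⟩
  · simpa only [hρ0] using h.zero
  · obtain ⟨W, hW, e0⟩ := h.eqv
    refine ⟨ρ ⁻¹' W, ρ.continuous.tendsto_nhdsSet ?_ hW,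
      e0.comp (ρ := ρ) fun w _ => ρ.analyticAt w⟩
    rintro ⟨z, t⟩ ⟨hz, ht⟩
    obtain rfl : t = 0 := ht
    rw [hρ0]
    exact ⟨hz, rfl⟩
  · intro z hz
    obtain ⟨u, v, huv⟩ := h.span z hz
    have key : ∀ u : A, dT (fun w => F (ρ w)) z (e.symm u) = dT F z u := fun u => by
      rw [dT_vel (hh z hz.1), dT_vel (h.hol z hz.1)]
      simp [hρ]
    exact ⟨e.symm u, e.symm v, by rwa [key, key]⟩

/-- Small deformations of a holomorphic map are good together with the map. -/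
theorem good_iff (hσ : IsSympl σ) {P : Set E} (hP : IsCompact P) (hc : Convex ℝ P)
    {g : E × ℂ → X} (hg : ∀ z ∈ P, Hol g (z, 0)) {F : E × A → X}
    (hF : Fam σ P (fun z => g (z, 0)) F P) :
    ∀ᶠ s in 𝓝 (0 : ℂ), Good P (fun z => g (z, 0)) ↔ Good P fun z => g (z, s) := by
  obtain ⟨l, hl, hl0, hl1⟩ := solve hσ hP hc hF.hol (fun z hz => by
    rw [hF.zero.self_of_nhdsSet z hz]
    exact hF.span z ⟨hz, hz⟩) hg hF.zero
  obtain ⟨W, hW, e0⟩ := hF.eqv
  have h1 : ∀ᶠ s in 𝓝 (0 : ℂ), ∀ z ∈ P, AnalyticAt ℂ l (z, s) ∧ (z, l (z, s)) ∈ W ∧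
      ∀ᶠ w in 𝓝 ((z, s) : E × ℂ), F (w.1, l w) = g w := by
    refine hP.eventually_forall_of_forall_eventually fun z hz => ?_
    have hz0 : ((z, 0) : E × ℂ) ∈ P ×ˢ ({0} : Set ℂ) := ⟨hz, rfl⟩
    have hcont : ContinuousAt (fun w : E × ℂ => (w.1, l w)) (z, 0) :=
      continuousAt_fst.prodMk (hl _ hz0).continuousAt
    have hW' : W ∈ 𝓝 ((fun w : E × ℂ => (w.1, l w)) (z, 0)) := by
      refine mem_nhdsSet_iff_forall.1 hW _ ⟨hz, ?_⟩
      exact hl0 z hz
    have h2 : ∀ᶠ w in 𝓝 ((z, 0) : E × ℂ), AnalyticAt ℂ l w ∧ (w.1, l w) ∈ W ∧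
        ∀ᶠ w' in 𝓝 w, F (w'.1, l w') = g w' :=
      (hl _ hz0).eventually_analyticAt.and ((hcont.eventually hW').and
        (FamX.ev_at hl1 hz0).eventually_nhds)
    exact (continuous_swap.tendsto ((0, z) : ℂ × E)).eventually h2
  filter_upwards [h1] with s hs
  have hΛ : AnalyticOnNhd ℂ (fun z : E => (z, l (z, s))) P := fun z hz =>
    analyticAt_id.prod ((hs z hz).1.comp (f := fun z : E => (z, s))
      (analyticAt_id.prod analyticAt_const))
  have h3 : ∀ᶠ z in 𝓝ˢ P, F (z, l (z, s)) = g (z, s) :=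
    eventually_nhdsSet_iff_forall.2 fun z hz =>
      ((continuous_id.prodMk continuous_const).tendsto z).eventually (hs z hz).2.2
  refine (e0 _ hΛ fun z hz => (hs z hz).2.1).trans ⟨fun h => h.congr ?_, fun h => h.congr ?_⟩
  · exact h3.mono fun z hz => hz.symm
  · exact h3

end Fact

open Fact

theorem exists_fam [T2Space X] [CompactSpace X] (hσ : IsSympl σ) (hX : TwoPencils X) {P : Set E}
    (hP : IsCompact P) (hc : Convex ℝ P) {f : E → X} (hf : ∀ z ∈ P, Hol f z) :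
    ∃ (n : ℕ) (F : E × (Fin n → ℂ) → X), Fam σ P f F P := by
  have key : ∀ (n : ℕ) (F : E × (Fin n → ℂ) → X) (D : Set E), Fam σ P f F D →
      ∃ (n' : ℕ) (F' : E × (Fin n' → ℂ) → X), Fam σ P f F' (D ∪ P) := by
    refine hP.induction_on (p := fun D' => ∀ (n : ℕ) (F : E × (Fin n → ℂ) → X) (D : Set E),
      Fam σ P f F D → ∃ (n' : ℕ) (F' : E × (Fin n' → ℂ) → X), Fam σ P f F' (D ∪ D'))
      ?_ ?_ ?_ ?_
    · exact fun n F D h => ⟨n, F, fam_mono h (by simp)⟩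
    · intro s t hst ht n F D h
      obtain ⟨n', F', h'⟩ := ht n F D h
      exact ⟨n', F', fam_mono h' (union_subset_union_right _ hst)⟩
    · intro s t hs ht n F D h
      obtain ⟨n', F', h'⟩ := hs n F D h
      obtain ⟨n'', F'', h''⟩ := ht n' F' _ h'
      exact ⟨n'', F'', fam_mono h'' (by rw [union_assoc])⟩
    · intro z hz
      obtain ⟨π, π', hπ, hπ', hr, hfr⟩ := hX (f z)
      obtain ⟨S, hS⟩ := exists_spray hσ hπ
      obtain ⟨S', hS'⟩ := exists_spray hσ hπ'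
      obtain ⟨p, hp⟩ := lift_near (G := fun w => π (f w)) hP hc fun w hw => hπ.locL (hf w hw)
      obtain ⟨τ, hτ⟩ := exists_tau hσ hπ' hS hS' hr hfr (hp.rep hz)
      have h1 := span_nhds hσ hπ' hS hS' (hf z hz) (hp.1 z hz) (FamX.ev_at hp.2 hz) hτ
      refine ⟨_, mem_nhdsWithin_of_mem_nhds h1, fun n F D h => ?_⟩
      obtain ⟨F', hF'⟩ := fam_ext hσ hP hc h hπ hπ' hS hS' hp τ
      exact fam_fin hF'
  obtain ⟨n, F, h⟩ := fam_fin (fam_zero (σ := σ) hf)
  obtain ⟨n', F', h'⟩ := key n F _ h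
  exact ⟨n', F', fam_mono h' subset_union_right⟩

theorem fact [T2Space X] [CompactSpace X] (hσ : IsSympl σ) (hX : TwoPencils X) {P : Set E}
    (hP : IsCompact P) (hc : Convex ℝ P) (hne : P.Nonempty) {f : E → X} (hf : ∀ z ∈ P, Hol f z) :
    Good P f := by
  obtain ⟨a, ha⟩ := hne
  have key := (isPreconnected_Icc (a := (0 : ℝ)) (b := 1)).induction₂
    (fun t t' : ℝ => Good P (fun z => f (a + (t : ℂ) • (z - a))) ↔
      Good P fun z => f (a + (t' : ℂ) • (z - a))) ?_ (fun _ _ _ _ _ _ h h' => h.trans h')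
    (fun _ _ _ _ h => h.symm) (left_mem_Icc.2 zero_le_one) (right_mem_Icc.2 zero_le_one)
  · simp only [Complex.ofReal_zero, zero_smul, add_zero, Complex.ofReal_one, one_smul,
      add_sub_cancel] at key
    exact key.1 (good_const P (f a))
  intro t ht
  let g : E × ℂ → X := fun w => f (a + ((t : ℂ) + w.2) • (w.1 - a))
  have hmem : ∀ z ∈ P, a + ((t : ℂ) + 0) • (z - a) ∈ P := fun z hz => by
    rw [add_zero, Complex.coe_smul]
    exact hc.add_smul_sub_mem ha hz ht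
  have hg : ∀ z ∈ P, Hol g (z, 0) := fun z hz =>
    Hol.comp (g := fun w : E × ℂ => a + ((t : ℂ) + w.2) • (w.1 - a)) (z := (z, 0))
      (hf _ (hmem z hz)) (analyticAt_const.add ((analyticAt_const.add analyticAt_snd).smul
        (analyticAt_fst.sub analyticAt_const)))
  obtain ⟨n, F, hF⟩ := exists_fam hσ hX hP hc (f := fun z => g (z, 0)) fun z hz =>
    Hol.comp (g := fun z : E => ((z, 0) : E × ℂ)) (hg z hz) (analyticAt_id.prod analyticAt_const)
  have h1 := good_iff hσ hP hc hg hF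
  have h2 : Tendsto (fun t' : ℝ => (t' : ℂ) - t) (𝓝 t) (𝓝 0) := by
    have : Continuous fun t' : ℝ => (t' : ℂ) - t := by fun_prop
    exact this.tendsto' t 0 (by simp)
  filter_upwards [mem_nhdsWithin_of_mem_nhds (h2.eventually h1)] with t' ht'
  simpa only [g, add_zero, add_sub_cancel] using ht'

theorem oka_of_pencils {X : Type} [MetricSpace X] [CompactSpace X] [ChartedSpace C2 X]
    [IsManifold 𝓘(ℂ, C2) ω X] {σ : Form2 X} (hσ : IsSympl σ) (hX : TwoPencils X) : IsOka X := by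
  intro m K U f ε hne hK hc hU hKU hf hε
  obtain ⟨F, hF, hF'⟩ :=
    (fact hσ hX hK hc hne fun z hz => hol_of_mdiff hU hf (hKU hz)).approx hK hc hε
  exact ⟨F, fun z => (hF z).mdiff, hF'⟩

end Vale.Agent.P290
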