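import Vale.Agent.P290.GoodL

/-! Extension of a family by a conjugated pair of flows. -/

open Set Filter Metric
open scoped Manifold ContDiff Topology

noncomputable section

namespace Vale.Agent.P290

variable {X : Type} [TopologicalSpace X] [ChartedSpace C2 X] [IsManifold 𝓘(ℂ, C2) ω X]
  {E : Type} [NormedAddCommGroup E] [NormedSpace ℂ E] [FiniteDimensional ℂ E]
  {A : Type} [NormedAddCommGroup A] [NormedSpace ℂ A] [FiniteDimensional ℂ A]
  {σ : Form2 X}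

namespace FamX

theorem ev_comp {α β : Type} [TopologicalSpace α] [TopologicalSpace β] {r : α → β} {K : Set α}
    {L : Set β} (hr : Continuous r) (hm : MapsTo r K L) {Q : β → Prop}
    (h : ∀ᶠ w in 𝓝ˢ L, Q w) : ∀ᶠ z in 𝓝ˢ K, Q (r z) :=
  (hr.tendsto_nhdsSet hm).eventually h

theorem ev_at {α : Type} [TopologicalSpace α] {K : Set α} {Q : α → Prop}
    (h : ∀ᶠ w in 𝓝ˢ K, Q w) {z : α} (hz : z ∈ K) : ∀ᶠ w in 𝓝 z, Q w :=
  eventually_nhdsSet_iff_forall.1 h z hz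

theorem lifts_comp {G : A → P1} {p : A → ℂ × ℂ} {L : Set A} (h : Lifts G p L) (r : E →L[ℂ] A)
    {K : Set E} (hm : MapsTo r K L) : Lifts (fun z => G (r z)) (fun z => p (r z)) K :=
  ⟨fun z hz => (h.1 _ (hm hz)).comp (r.analyticAt z), ev_comp r.continuous hm h.2⟩

theorem lifts_congr {G G' : E → P1} {p : E → ℂ × ℂ} {K : Set E} (h : Lifts G p K)
    (e : ∀ᶠ z in 𝓝ˢ K, G' z = G z) : Lifts G' p K :=
  ⟨h.1, (h.2.and e).mono fun z hz => hz.2 ▸ hz.1⟩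

/-- A lift with prescribed values on a linear slice. -/
theorem lift_slice {Z : Set E} (hZ : IsCompact Z) (hc : Convex ℝ Z) (r : E →L[ℂ] E)
    (hm : MapsTo r Z Z) (hrr : ∀ w, r (r w) = r w) {G : E → P1} (hG : ∀ z ∈ Z, LocL G z)
    {p : E → ℂ × ℂ} (hp : Lifts (fun w => G (r w)) p Z) :
    ∃ q, Lifts G q Z ∧ ∀ᶠ w in 𝓝ˢ Z, q (r w) = p (r w) := by
  obtain ⟨q, hq⟩ := lift_near hZ hc hG
  obtain ⟨ν, hν, hν'⟩ := (lifts_comp hq r hm).ratio hp
  have h2 := ev_comp r.continuous hm hν'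
  refine ⟨fun w => ν (r w) • q w, ⟨fun z hz => ?_, ?_⟩, ?_⟩
  · exact ((hν _ (hm hz)).comp (r.analyticAt z)).smul (hq.1 z hz)
  · filter_upwards [h2, hq.2] with w h1 h3 using h3.smul h1.1
  · filter_upwards [h2] with w h1
    rw [h1.2, hrr]

theorem hol_spray {π : X → P1} {S : X × (ℂ × ℂ) × ℂ → X} (hS : Spray σ π S) {h : E → X}
    {p : E → ℂ × ℂ} {μ : E → ℂ} {Z : Set E} (hh : ∀ z ∈ Z, Hol h z)
    (hp : Lifts (fun w => π (h w)) p Z) (hμ : AnalyticOnNhd ℂ μ Z) :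
    ∀ z ∈ Z, Hol (fun w => S (h w, p w, μ w)) z := fun z hz =>
  hS.hol_comp (hh z hz) (hp.1 z hz) (hμ z hz) (ev_at hp.2 hz)

theorem tv_smul {π : X → P1} {S : X × (ℂ × ℂ) × ℂ → X} (hS : Spray σ π S) {x : X} {p : ℂ × ℂ}
    (hp : Rep p (π x)) {c : ℂ} (hc : c ≠ 0) : tv S x (c • p) = c ^ 2 • tv S x p := by
  have h1 : (fun t => S (x, c • p, t)) = fun t => (fun t => S (x, p, t)) (c ^ 2 * t) :=
    funext fun t => hS.smul x p c t hp hc
  have h2 : Hol (fun t : ℂ => S (x, p, t)) (c ^ 2 * 0) :=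
    hS.hol_comp (h := fun _ => x) (p := fun _ => p) (μ := fun t => t) (hol_const x _)
      analyticAt_const analyticAt_id (Eventually.of_forall fun _ => hp)
  have h3 := vel_comp (g := fun t : ℂ => c ^ 2 * t) (g' := c ^ 2) (s := 0) h2
    (analyticAt_const.mul analyticAt_id)
    (by simpa using (hasDerivAt_id (0 : ℂ)).const_mul (c ^ 2))
  unfold tv
  rw [h1, h3, mul_zero]

theorem vel_congr {c c' : ℂ → X} (e : c =ᶠ[𝓝 0] c') : vel c 0 = vel c' 0 := by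
  unfold vel
  rw [dif_congr e]

end FamX

open FamX

theorem fam_zero {P : Set E} {f : E → X} (hf : ∀ z ∈ P, Hol f z) :
    Fam σ P f (fun w : E × ℂ => f w.1) ∅ where
  hol z hz := Hol.comp (g := fun w : E × ℂ => w.1) (z := (z, 0)) (hf z hz) analyticAt_fst
  zero := Eventually.of_forall fun _ => rfl
  eqv := ⟨univ, univ_mem, Eqv.refl _ _ _⟩
  span _ hz := hz.2.elim

theorem fam_ext (hσ : IsSympl σ) {P : Set E} (hP : IsCompact P) (hc : Convex ℝ P) {f : E → X}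
    {F : E × A → X} {D : Set E} (hF : Fam σ P f F D) {π π' : X → P1} (hπ : HolP π)
    (hπ' : HolP π') {S S' : X × (ℂ × ℂ) × ℂ → X} (hS : Spray σ π S) (hS' : Spray σ π' S')
    {p : E → ℂ × ℂ} (hp : Lifts (fun z => π (f z)) p P) (τ : ℂ) :
    ∃ F' : E × (A × ℂ × ℂ) → X, Fam σ P f F' (D ∪ {w | ∃ q, Rep q (π' (S (f w, p w, τ))) ∧
      sg σ (S (f w, p w, τ)) (tv S (S (f w, p w, τ)) (p w)) (tv S' (S (f w, p w, τ)) q) ≠ 0}) := by
  obtain ⟨p0, hp0, hp0'⟩ := lift_norm (G := fun w => π (F w)) hP hc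
    (fun z hz => hπ.locL (hF.hol z hz))
    (lifts_congr hp (hF.zero.mono fun z hz => by simp only [hz]))
  set Z : Set (E × (A × ℂ × ℂ)) := P ×ˢ {0} with hZdef
  have hZ : IsCompact Z := hP.prod isCompact_singleton
  have hZc : Convex ℝ Z := hc.prod (convex_singleton _)
  have hmem : ∀ z ∈ P, ((z, 0) : E × (A × ℂ × ℂ)) ∈ Z := fun z hz => ⟨hz, rfl⟩
  have hZ' : ∀ w ∈ Z, ∃ z ∈ P, w = (z, 0) := fun w hw => ⟨w.1, hw.1, Prod.ext rfl hw.2⟩
  let ρ : E × (A × ℂ × ℂ) →L[ℂ] E × A :=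
    (ContinuousLinearMap.id ℂ E).prodMap (ContinuousLinearMap.fst ℂ A (ℂ × ℂ))
  let r : E × (A × ℂ × ℂ) →L[ℂ] E × (A × ℂ × ℂ) :=
    (ContinuousLinearMap.id ℂ E).prodMap ((ContinuousLinearMap.id ℂ A).prodMap
      ((ContinuousLinearMap.id ℂ ℂ).prodMap (0 : ℂ →L[ℂ] ℂ)))
  have hρ : ∀ w, ρ w = (w.1, w.2.1) := fun w => rfl
  have hr : ∀ w, r w = (w.1, w.2.1, w.2.2.1, 0) := fun w => rfl
  have hρm : MapsTo ρ Z (P ×ˢ {0}) := fun w hw => by
    obtain ⟨z, hz, rfl⟩ := hZ' w hw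
    exact ⟨hz, rfl⟩
  have hrm : MapsTo r Z Z := fun w hw => by
    obtain ⟨z, hz, rfl⟩ := hZ' w hw
    exact ⟨hz, rfl⟩
  have h1 : ∀ w ∈ Z, Hol (fun w => F (ρ w)) w := fun w hw => by
    obtain ⟨z, hz, rfl⟩ := hZ' w hw
    exact Hol.comp (g := ρ) (hF.hol z hz) (ρ.analyticAt _)
  have hp1 := lifts_comp hp0 ρ hρm
  have hμ1 : AnalyticOnNhd ℂ (fun w : E × (A × ℂ × ℂ) => τ + w.2.2.1) Z := fun w _ =>
    analyticAt_const.add (analyticAt_fst.comp (analyticAt_snd.comp analyticAt_snd))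
  have hμ2 : AnalyticOnNhd ℂ (fun w : E × (A × ℂ × ℂ) => w.2.2.2) Z := fun w _ =>
    analyticAt_snd.comp (analyticAt_snd.comp analyticAt_snd)
  have hμ3 : AnalyticOnNhd ℂ (fun _ : E × (A × ℂ × ℂ) => -τ) Z := fun w _ => analyticAt_const
  obtain ⟨F2, hF2⟩ : ∃ F2 : E × (A × ℂ × ℂ) → X,
      F2 = fun w => S (F (ρ w), p0 (ρ w), τ + w.2.2.1) := ⟨_, rfl⟩
  have h2 : ∀ w ∈ Z, Hol F2 w := hF2 ▸ hol_spray hS h1 hp1 hμ1
  have h2r : ∀ w, F2 (r w) = F2 w := fun w => by rw [hF2]; rfl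
  obtain ⟨q0, hq0⟩ := lift_near (G := fun w => π' (F2 w)) hZ hZc fun w hw => hπ'.locL (h2 w hw)
  have hq : Lifts (fun w => π' (F2 w)) (fun w => q0 (r w)) Z :=
    lifts_congr (lifts_comp hq0 r hrm) (Eventually.of_forall fun w => by simp only [h2r])
  obtain ⟨F3, hF3⟩ : ∃ F3 : E × (A × ℂ × ℂ) → X,
      F3 = fun w => S' (F2 w, q0 (r w), w.2.2.2) := ⟨_, rfl⟩
  have h3 : ∀ w ∈ Z, Hol F3 w := hF3 ▸ hol_spray hS' h2 hq hμ2
  have h3r : ∀ᶠ w in 𝓝ˢ Z, F3 (r w) = F2 w := by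
    filter_upwards [hq.2] with w hw
    rw [hF3]
    show S' (F2 (r w), q0 (r w), 0) = F2 w
    rw [h2r, hS'.zero _ _ hw]
  have h2π : ∀ᶠ w in 𝓝ˢ Z, π (F2 w) = π (F (ρ w)) := by
    filter_upwards [hp1.2] with w hw
    rw [hF2]
    exact hS.fib _ _ _ hw
  obtain ⟨p3, hp3, hp3'⟩ := lift_slice hZ hZc r hrm (fun w => rfl) (G := fun w => π (F3 w))
    (fun w hw => hπ.locL (h3 w hw)) (p := fun w => p0 (ρ w)) (lifts_congr hp1 (by
      filter_upwards [h3r, h2π] with w e1 e2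
      rw [e1, e2]))
  obtain ⟨F', hF'⟩ : ∃ F' : E × (A × ℂ × ℂ) → X, F' = fun w => S (F3 w, p3 w, -τ) := ⟨_, rfl⟩
  have h4 : ∀ w ∈ Z, Hol F' w := hF' ▸ hol_spray hS h3 hp3 hμ3
  have h4r : ∀ᶠ w in 𝓝ˢ Z, F' (r w) = S (F (ρ w), p0 (ρ w), w.2.2.1) := by
    filter_upwards [h3r, hp3', hp1.2] with w e1 e2 e3
    rw [hF']
    show S (F3 (r w), p3 (r w), -τ) = _
    rw [e1, e2, hF2]
    show S (S (F (ρ w), p0 (ρ w), τ + w.2.2.1), p0 (ρ w), -τ) = _
    rw [hS.add _ _ _ _ e3]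
    congr 3
    ring
  have hline : ∀ z ∈ P, ∀ u : A × ℂ × ℂ, Tendsto (fun s : ℂ => ((z, s • u) : E × (A × ℂ × ℂ)))
      (𝓝 0) (𝓝ˢ Z) := fun z hz u => by
    have : Continuous fun s : ℂ => ((z, s • u) : E × (A × ℂ × ℂ)) := by fun_prop
    refine (this.tendsto' 0 (z, 0) (by simp)).mono_right (nhds_le_nhdsSet (hmem z hz))
  refine ⟨F', fun z hz => h4 _ (hmem z hz), ?_, ?_, ?_⟩
  · have hc0 : Continuous fun z : E => ((z, 0) : E × (A × ℂ × ℂ)) := by fun_prop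
    filter_upwards [ev_comp hc0 hmem h4r, ev_comp hc0 hmem hp1.2, hF.zero] with z e1 e2 e3
    have e4 : F' (z, 0) = S (F (z, 0), p0 (z, 0), 0) := e1
    have e5 : Rep (p0 (z, 0)) (π (F (z, 0))) := e2
    rw [e4, hS.zero _ _ e5, e3]
  · obtain ⟨W0, hW0, e0⟩ := hF.eqv
    obtain ⟨W1, hW1, e1⟩ := eqv_spray hπ hS P hp1 hμ1
    obtain ⟨W2, hW2, e2⟩ := eqv_spray hπ' hS' P hq hμ2
    obtain ⟨W3, hW3, e3⟩ := eqv_spray hπ hS P hp3 hμ3
    have hW0' : ρ ⁻¹' W0 ∈ 𝓝ˢ Z := ρ.continuous.tendsto_nhdsSet hρm hW0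
    have e0' := e0.comp (ρ := ρ) fun w _ => ρ.analyticAt w
    rw [← hF2] at e1
    rw [← hF3] at e2
    rw [← hF'] at e3
    refine ⟨ρ ⁻¹' W0 ∩ W1 ∩ W2 ∩ W3, inter_mem (inter_mem (inter_mem hW0' hW1) hW2) hW3, ?_⟩
    exact (((e0'.mono fun w hw => hw.1.1.1).trans (e1.mono fun w hw => hw.1.1.2)).trans
      (e2.mono fun w hw => hw.1.2)).trans (e3.mono fun w hw => hw.2)
  · rintro z ⟨hz, hD | ⟨q, hq1, hq2⟩⟩
    · obtain ⟨u, v, huv⟩ := hF.span z ⟨hz, hD⟩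
      have key : ∀ u : A, dT F' z (u, 0, 0) = dT F z u := fun u => by
        rw [dT_vel (h4 _ (hmem z hz)), dT_vel (hF.hol z hz)]
        refine vel_congr ?_
        filter_upwards [(hline z hz (u, 0, 0)).eventually h4r,
          (hline z hz (u, 0, 0)).eventually hp1.2] with s e1 e2
        have e3 : r (z, s • ((u, 0, 0) : A × ℂ × ℂ)) = (z, s • ((u, 0, 0) : A × ℂ × ℂ)) := by
          simp [hr]
        rw [e3] at e1
        rw [e1]
        have e4 : ((z, s • ((u, 0, 0) : A × ℂ × ℂ)) : E × (A × ℂ × ℂ)).2.2.1 = 0 := by simp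
        rw [e4, hS.zero _ _ e2]
        rfl
      exact ⟨(u, 0, 0), (v, 0, 0), by rwa [key, key]⟩
    · have hfz : F (z, 0) = f z := hF.zero.self_of_nhdsSet z hz
      have hpz : p0 (z, 0) = p z := hp0'.self_of_nhdsSet z hz
      have k1 : dT F' z (0, 1, 0) = tv S (f z) (p z) := by
        rw [dT_vel (h4 _ (hmem z hz))]
        refine vel_congr ?_
        filter_upwards [(hline z hz (0, 1, 0)).eventually h4r] with s e1
        have e3 : r (z, s • ((0, 1, 0) : A × ℂ × ℂ)) = (z, s • ((0, 1, 0) : A × ℂ × ℂ)) := by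
          simp [hr]
        rw [e3] at e1
        rw [e1]
        simp [hρ, hfz, hpz]
      let l : ℂ → E × (A × ℂ × ℂ) := fun s => (z, s • ((0, 0, 1) : A × ℂ × ℂ))
      have hl : AnalyticAt ℂ l 0 := by fun_prop
      have hl0 : l 0 = (z, 0) := by simp [l]
      have hlZ : l 0 ∈ Z := hl0 ▸ hmem z hz
      have hlt : Tendsto l (𝓝 0) (𝓝ˢ Z) := hline z hz _
      have hp3l : AnalyticAt ℂ (fun s => p3 (l s)) 0 := (hp3.1 _ hlZ).comp hl
      have hr0 : r (z, 0) = (z, 0) := rfl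
      have hp30 : p3 (l 0) = p z := by
        have := hp3'.self_of_nhdsSet _ (hmem z hz)
        rw [hr0] at this
        rw [hl0, this, ← hpz]
        rfl
      have m1 := hS.ham (fun s => F' (l s)) (fun s => p3 (l s)) (Hol.comp (h4 _ hlZ) hl) hp3l (by
        filter_upwards [hlt.eventually hp3.2] with s e1
        rw [hF']
        simp only []
        rwa [hS.fib _ _ _ e1])
      have m2 := hS.ham (fun s => F3 (l s)) (fun s => p3 (l s)) (Hol.comp (h3 _ hlZ) hl) hp3l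
        (hlt.eventually hp3.2)
      have hF20 : ∀ s, F2 (l s) = S (f z, p z, τ) := fun s => by
        rw [hF2]
        simp [l, hρ, hfz, hpz]
      have hrl : ∀ s, r (l s) = (z, 0) := fun s => by
        simp [l, hr]
      have hF3l : (fun s => F3 (l s)) = fun s => S' (S (f z, p z, τ), q0 (z, 0), s) := by
        funext s
        rw [hF3]
        simp only [hF20, hrl]
        simp [l]
      have hq3 : Rep (q0 (z, 0)) (π' (S (f z, p z, τ))) := by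
        have := hq.rep hlZ
        simpa only [hF20, hrl] using this
      obtain ⟨ν, hν, hνq⟩ := hq1.ratio hq3
      have hF'0 : F' (l 0) = f z := by
        have := h4r.self_of_nhdsSet _ (hmem z hz)
        rw [hr0] at this
        rw [hl0, this]
        show S (F (z, 0), p0 (z, 0), 0) = f z
        rw [hfz, hpz, hS.zero _ _ (hp.rep hz)]
      have hF30 : F3 (l 0) = S (f z, p z, τ) := by
        have := congrFun hF3l 0
        rw [this, hS'.zero _ _ hq3]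
      have hv3 : vel (fun s => F3 (l s)) 0 = ν ^ 2 • tv S' (S (f z, p z, τ)) q := by
        rw [hF3l, ← tv_smul hS' hq1 hν, ← hνq]
        rfl
      simp only [hp30, hF'0] at m1
      simp only [hp30, hF30, hv3] at m2
      refine ⟨(0, 1, 0), (0, 0, 1), ?_⟩
      rw [k1, dT_vel (h4 _ (hmem z hz))]
      show sg σ (f z) (tv S (f z) (p z)) (vel (fun s => F' (l s)) 0) ≠ 0
      rw [m1, ← m2, map_smul, smul_eq_mul]
      exact mul_ne_zero (pow_ne_zero _ hν) hq2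

end Vale.Agent.P290
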