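import Vale.Agent.P290.Defs

/-! Runge approximation on convex sets. -/

open Set Filter Metric
open scoped Manifold ContDiff Topology

noncomputable section

namespace Vale.Agent.P290

variable {E : Type} [NormedAddCommGroup E] [NormedSpace ℂ E] [FiniteDimensional ℂ E]

namespace Runge

variable {F : Type} [NormedAddCommGroup F] [NormedSpace ℂ F]

/-- restrictions of entire maps -/
def ent (K : Set E) (F : Type) [NormedAddCommGroup F] [NormedSpace ℂ F] : Submodule ℂ C(K, F) where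
  carrier := {h | ∃ g : E → F, AnalyticOnNhd ℂ g univ ∧ ∀ z : K, h z = g z}
  add_mem' := by
    rintro a b ⟨g, hg, ha⟩ ⟨g', hg', hb⟩
    exact ⟨fun z => g z + g' z, hg.add hg', fun z => by simp [ha, hb]⟩
  zero_mem' := ⟨fun _ => 0, analyticOnNhd_const, fun _ => rfl⟩
  smul_mem' := by
    rintro c a ⟨g, hg, ha⟩
    exact ⟨fun z => c • g z, hg.const_smul (c := c), fun z => by simp [ha]⟩

/-- the contracted maps -/
def Phi (K : Set E) (f : E → F) (a : E) (t : ℂ) : C(K, F) :=
  ContinuousMap.mkD (fun z : K => f (a + t • ((z : E) - a))) 0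

omit [FiniteDimensional ℂ E] in
theorem Phi_apply {K : Set E} {f : E → F} {a : E} {t : ℂ}
    (h : ∀ z ∈ K, AnalyticAt ℂ f (a + t • (z - a))) (z : K) :
    Phi K f a t z = f (a + t • ((z : E) - a)) := by
  refine ContinuousMap.mkD_apply_of_continuous (continuous_iff_continuousAt.2 fun w => ?_)
  exact ContinuousAt.comp (f := fun z : K => a + t • ((z : E) - a)) (h w w.2).continuousAt
    (by fun_prop)

omit [FiniteDimensional ℂ E] in
theorem Phi_diff [CompleteSpace F] {K : Set E} [CompactSpace K] {f : E → F} {a : E} {W : Set ℂ}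
    (hW : IsOpen W) {M : ℝ} (hM0 : 0 ≤ M)
    (h : ∀ t ∈ W, ∀ z ∈ K, AnalyticAt ℂ f (a + t • (z - a)) ∧ ‖f (a + t • (z - a))‖ ≤ M) :
    DifferentiableOn ℂ (Phi K f a) W := by
  intro t₀ ht₀
  obtain ⟨ρ, hρ, hb⟩ := Metric.isOpen_iff.1 hW t₀ ht₀
  have hc : Continuous fun z : K => fderiv ℂ f (a + t₀ • ((z : E) - a)) ((z : E) - a) := by
    refine Continuous.clm_apply (continuous_iff_continuousAt.2 fun w => ?_) (by fun_prop)
    exact ContinuousAt.comp (f := fun z : K => a + t₀ • ((z : E) - a))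
      (h t₀ ht₀ w w.2).1.fderiv.continuousAt (by fun_prop)
  refine (P278F.hasFDerivAt_of_sq (L := ContinuousLinearMap.toSpanSingleton ℂ (⟨_, hc⟩ : C(K, F)))
    (C := 4 * M / ρ ^ 2) hρ fun t ht => ?_).differentiableAt.differentiableWithinAt
  refine (ContinuousMap.norm_le _ (by positivity)).2 fun z => ?_
  have hl : ∀ s : ℂ, HasDerivAt (fun s : ℂ => a + s • ((z : E) - a)) ((z : E) - a) s := fun s => by
    simpa using ((hasDerivAt_id s).smul_const ((z : E) - a)).const_add a
  have hd : ∀ s ∈ ball t₀ ρ, HasDerivAt (fun s : ℂ => f (a + s • ((z : E) - a)))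
      (fderiv ℂ f (a + s • ((z : E) - a)) ((z : E) - a)) s := fun s hs =>
    (h s (hb hs) z z.2).1.differentiableAt.hasFDerivAt.comp_hasDerivAt s (hl s)
  have h2 := P278F.second_order (f := fun s : ℂ => f (a + s • ((z : E) - a)))
    (fun s hs => (hd s hs).differentiableAt.differentiableWithinAt)
    (fun s hs => (h s (hb hs) z z.2).2) ht
  rw [(hd t₀ (mem_ball_self hρ)).hasFDerivAt.fderiv] at h2
  rw [ContinuousMap.sub_apply, ContinuousMap.sub_apply,
    Phi_apply (fun w hw => (h t (hb ht) w hw).1), Phi_apply (fun w hw => (h t₀ ht₀ w hw).1)]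
  simpa using h2

omit [FiniteDimensional ℂ E] in
theorem Phi_small {K : Set E} [CompactSpace K] {f : E → F} {a : E} (hf : AnalyticAt ℂ f a) {D : ℝ}
    (hD : 0 < D) (hK : ∀ z ∈ K, ‖z - a‖ ≤ D) :
    ∀ᶠ t in 𝓝 (0 : ℂ), (∀ z ∈ K, AnalyticAt ℂ f (a + t • (z - a))) →
      Phi K f a t ∈ (ent K F).topologicalClosure := by
  obtain ⟨p, R, hp⟩ := hf
  obtain ⟨r, hr0, hrR⟩ := ENNReal.lt_iff_exists_nnreal_btwn.1 hp.r_pos
  have hr : (0 : ℝ) < r := by exact_mod_cast hr0
  have hu := hp.tendstoUniformlyOn hrR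
  filter_upwards [ball_mem_nhds (0 : ℂ) (div_pos hr hD)] with t ht h
  rw [mem_ball_zero_iff, lt_div_iff₀ hD] at ht
  refine Metric.mem_closure_iff.2 fun ε hε => ?_
  obtain ⟨n, hn⟩ := (Metric.tendstoUniformlyOn_iff.1 hu ε hε).exists
  have hg : AnalyticOnNhd ℂ (fun z : E => p.partialSum n (t • (z - a))) univ := by
    intro z _
    refine Finset.analyticAt_fun_sum _ fun k _ => ?_
    refine AnalyticAt.comp (g := p k) (f := fun z : E => fun _ : Fin k => t • (z - a))
      (p k).analyticAt (AnalyticAt.pi fun _ => ?_)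
    exact (analyticAt_id.sub analyticAt_const).const_smul (c := t)
  refine ⟨⟨fun z : K => p.partialSum n (t • ((z : E) - a)),
    (continuousOn_univ.1 hg.continuousOn).comp continuous_subtype_val⟩, ⟨_, hg, fun _ => rfl⟩, ?_⟩
  refine (ContinuousMap.dist_lt_iff hε).2 fun z => ?_
  rw [Phi_apply h]
  refine hn _ ?_
  rw [mem_ball_zero_iff, norm_smul]
  exact (mul_le_mul_of_nonneg_left (hK z z.2) (norm_nonneg _)).trans_lt ht

end Runge

theorem runge {F : Type} [NormedAddCommGroup F] [NormedSpace ℂ F] [CompleteSpace F] {K : Set E}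
    (hK : IsCompact K) (hc : Convex ℝ K) {f : E → F} (hf : AnalyticOnNhd ℂ f K) {ε : ℝ}
    (hε : 0 < ε) : ∃ g : E → F, AnalyticOnNhd ℂ g univ ∧ ∀ z ∈ K, ‖g z - f z‖ < ε := by
  rcases K.eq_empty_or_nonempty with rfl | ⟨a, ha⟩
  · exact ⟨fun _ => 0, analyticOnNhd_const, fun z hz => hz.elim⟩
  have : CompactSpace K := isCompact_iff_compactSpace.1 hK
  have : ProperSpace E := FiniteDimensional.proper ℂ E
  obtain ⟨δ, hδ, hδU⟩ := hK.exists_cthickening_subset_open (isOpen_analyticAt ℂ f) hf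
  obtain ⟨M, hM⟩ := (hK.cthickening (r := δ)).exists_bound_of_continuousOn (f := f)
    fun z hz => (hδU hz).continuousAt.continuousWithinAt
  have hM0 : 0 ≤ M := (norm_nonneg _).trans (hM a (self_subset_cthickening _ ha))
  obtain ⟨D, hD, hDK⟩ := hK.isBounded.subset_closedBall_lt 0 a
  have hDK' : ∀ z ∈ K, ‖z - a‖ ≤ D := fun z hz => mem_closedBall_iff_norm.1 (hDK hz)
  set S : Set ℂ := segment ℝ 0 1 with hS
  set W : Set ℂ := thickening (δ / D) S with hW
  have hWK : ∀ t ∈ W, ∀ z ∈ K, a + t • (z - a) ∈ cthickening δ K := by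
    intro t ht z hz
    obtain ⟨s, ⟨u, v, hu, hv, huv, rfl⟩, hs⟩ := mem_thickening_iff.1 ht
    refine mem_cthickening_of_dist_le _ (u • a + v • z) _ _ (hc ha hz hu hv huv) ?_
    have e : a + t • (z - a) - (u • a + v • z) = (t - (u • (0 : ℂ) + v • (1 : ℂ))) • (z - a) := by
      have hu' : u = 1 - v := by linarith
      rw [hu', smul_zero, zero_add, sub_smul, sub_smul, one_smul, smul_assoc, one_smul, smul_sub v]
      abel
    rw [dist_eq_norm, lt_div_iff₀ hD] at hs
    rw [dist_eq_norm, e, norm_smul]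
    exact ((mul_le_mul_of_nonneg_left (hDK' z hz) (norm_nonneg _)).trans hs.le)
  have hSW : S ⊆ W := self_subset_thickening (div_pos hδ hD) S
  have h0 : (0 : ℂ) ∈ W := hSW (left_mem_segment ℝ 0 1)
  have h1 : (1 : ℂ) ∈ W := hSW (right_mem_segment ℝ 0 1)
  have hd := Runge.Phi_diff (K := K) (f := f) (a := a) isOpen_thickening hM0
    fun t ht z hz => ⟨hδU (hWK t ht z hz), hM _ (hWK t ht z hz)⟩
  set N := (Runge.ent K F).topologicalClosure with hN
  have : IsClosed (N : Set C(K, F)) := (Runge.ent K F).isClosed_topologicalClosure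
  have ha2 : AnalyticOnNhd ℂ (fun t => N.mkQL (Runge.Phi K f a t)) W :=
    N.mkQL.comp_analyticOnNhd (hd.analyticOnNhd isOpen_thickening)
  have hz := ha2.eqOn_zero_of_preconnected_of_eventuallyEq_zero
    ((convex_segment (0 : ℂ) 1).thickening _).isPreconnected h0 (by
      filter_upwards [Runge.Phi_small (K := K) (hf a ha) hD hDK',
        isOpen_thickening.mem_nhds h0] with t ht htW
      exact (Submodule.Quotient.mk_eq_zero N).2 (ht fun z hz => hδU (hWK t htW z hz)))
  have h2 : Runge.Phi K f a 1 ∈ N := (Submodule.Quotient.mk_eq_zero N).1 (hz h1)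
  obtain ⟨b, ⟨g, hg, hb⟩, hbd⟩ := Metric.mem_closure_iff.1 h2 ε hε
  refine ⟨g, hg, fun z hz => ?_⟩
  have h3 := (ContinuousMap.dist_apply_le_dist (f := Runge.Phi K f a 1) (g := b) ⟨z, hz⟩).trans_lt
    hbd
  rw [Runge.Phi_apply (fun w hw => hδU (hWK 1 h1 w hw)), hb, one_smul, add_sub_cancel,
    dist_comm, dist_eq_norm] at h3
  exact h3

end Vale.Agent.P290
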