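import Vale.Agent.P290.Lift
import Vale.Agent.P290.Runge

/-! Global solutions by the Mittag-Leffler process. -/

open Set Filter Metric
open scoped Manifold ContDiff Topology

noncomputable section

namespace Vale.Agent.P290

variable {E : Type} [NormedAddCommGroup E] [NormedSpace ℂ E] [FiniteDimensional ℂ E]

theorem mittag (c : ℕ → E → ℂ) (hc : ∀ n : ℕ, AnalyticOnNhd ℂ (c n) (closedBall 0 n)) :
    ∃ d : ℕ → E → ℂ, (∀ n : ℕ, AnalyticOnNhd ℂ (d n) (ball 0 n)) ∧
      ∀ n : ℕ, ∀ z ∈ ball (0 : E) n, d n z - d (n + 1) z = c n z := by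
  have : ProperSpace E := FiniteDimensional.proper ℂ E
  choose g hg h1 using fun n : ℕ => runge (isCompact_closedBall (0 : E) n) (convex_closedBall _ _)
    (hc n) (ε := (1 / 2) ^ n) (by positivity)
  have h2 : ∀ n k : ℕ, ball (0 : E) n ⊆ closedBall 0 (n + k : ℕ) := fun n k =>
    ball_subset_closedBall.trans (closedBall_subset_closedBall (by simp))
  have h3 : ∀ n : ℕ, ∀ z ∈ ball (0 : E) n, ∀ k,
      ‖c (n + k) z - g (n + k) z‖ ≤ 1 * (1 / 2) ^ k := fun n z hz k => by
    rw [norm_sub_rev, one_mul]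
    exact (h1 _ z (h2 n k hz)).le.trans
      (pow_le_pow_of_le_one (by norm_num) (by norm_num) (Nat.le_add_left _ _))
  have h4 : ∀ n : ℕ, ∀ z ∈ ball (0 : E) n, Summable fun k => c (n + k) z - g (n + k) z :=
    fun n z hz => .of_norm_bounded (summable_geometric_two.mul_left 1) (h3 n z hz)
  refine ⟨fun n z => ∑' k, (c (n + k) z - g (n + k) z) - ∑ k ∈ Finset.range n, g k z,
    fun n => AnalyticOnNhd.sub ?_ ?_, fun n z hz => ?_⟩
  · refine P278F.analyticOnNhd_of_differentiableOn isOpen_ball fun z hz =>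
      DifferentiableAt.differentiableWithinAt ?_
    obtain ⟨R, hR, hb⟩ := Metric.isOpen_iff.1 isOpen_ball z hz
    refine P278F.differentiableAt_of_unif (e := fun N => 1 * (1 / 2) ^ N / (1 - 1 / 2))
      (f := fun N z => ∑ k ∈ Finset.range N, (c (n + k) z - g (n + k) z)) hR (fun N => ?_) ?_
      fun N w hw => norm_sub_le_of_geometric_bound_of_hasSum (by norm_num) (h3 n w (hb hw))
        (h4 n w (hb hw)).hasSum N
    · exact DifferentiableOn.fun_sum fun k _ w hw => ((hc _ w (h2 n k (hb hw))).sub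
        (hg _ w trivial)).differentiableAt.differentiableWithinAt
    · simpa using ((tendsto_pow_atTop_nhds_zero_of_lt_one (r := (1 / 2 : ℝ)) (by norm_num)
        (by norm_num)).const_mul 1).div_const (1 - 1 / 2)
  · exact fun z _ => Finset.analyticAt_fun_sum _ fun k _ => hg k z trivial
  · dsimp only
    rw [(h4 n z hz).tsum_eq_zero_add, Finset.sum_range_succ, add_zero,
      tsum_congr fun k => by rw [show n + (k + 1) = n + 1 + k by omega]]
    ring

omit [FiniteDimensional ℂ E] in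
theorem Glob.glue {F : Type} [NormedAddCommGroup F] [NormedSpace ℂ F] (P : ℕ → E → F)
    (hP : ∀ n : ℕ, AnalyticOnNhd ℂ (P n) (ball 0 n))
    (h : ∀ n : ℕ, ∀ z ∈ ball (0 : E) n, P (n + 1) z = P n z) :
    ∃ Q : E → F, AnalyticOnNhd ℂ Q univ ∧ ∀ z, ∃ n : ℕ, z ∈ ball (0 : E) n ∧ Q z = P n z := by
  have h1 : ∀ n : ℕ, ∀ z ∈ ball (0 : E) n, ∀ m, n ≤ m → P m z = P n z := fun n z hz m hm => by
    induction hm with
    | refl => rfl
    | step hm ih => exact (h _ z (ball_subset_ball (Nat.cast_le.2 hm) hz)).trans ih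
  have h2 : ∀ z : E, z ∈ ball (0 : E) (⌊‖z‖⌋₊ + 1 : ℕ) := fun z => by
    simpa using Nat.lt_floor_add_one ‖z‖
  refine ⟨fun z => P (⌊‖z‖⌋₊ + 1) z, fun z _ => (hP _ z (h2 z)).congr ?_, fun z => ⟨_, h2 z, rfl⟩⟩
  filter_upwards [isOpen_ball.mem_nhds (h2 z)] with w hw
  exact (h1 _ w hw _ (le_max_left _ _)).symm.trans (h1 _ w (h2 w) _ (le_max_right _ _))

theorem lift_univ {G : E → P1} (hG : ∀ z, LocL G z) : ∃ p, Lifts G p univ := by
  have : ProperSpace E := FiniteDimensional.proper ℂ E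
  choose p hp using fun n : ℕ => lift_near (isCompact_closedBall (0 : E) n)
    (convex_closedBall _ _) fun z _ => hG z
  choose ν h1 h2 using fun n : ℕ => (hp n).ratio
    ((hp (n + 1)).mono (closedBall_subset_closedBall (by simp)))
  choose c h3 h4 using fun n : ℕ => exists_log (isCompact_closedBall (0 : E) n)
    (convex_closedBall _ _) (h1 n) fun z hz => ((h2 n).self_of_nhdsSet z hz).1
  obtain ⟨d, h5, h6⟩ := mittag c h3
  obtain ⟨Q, h7, h8⟩ := Glob.glue (fun n z => Complex.exp (d n z) • p n z)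
    (fun n z hz => (h5 n z hz).cexp.smul ((hp n).1 z (ball_subset_closedBall hz))) fun n z hz => by
      have h9 := ball_subset_closedBall hz
      rw [((h2 n).self_of_nhdsSet z h9).2, ← (h4 n).self_of_nhdsSet z h9, smul_smul,
        ← Complex.exp_add, ← h6 n z hz, add_sub_cancel]
  refine ⟨Q, h7, Eventually.of_forall fun z => ?_⟩
  obtain ⟨n, hz, h9⟩ := h8 z
  rw [h9]
  exact ((hp n).rep (ball_subset_closedBall hz)).smul (Complex.exp_ne_zero _)

theorem bez2_univ {p : E → ℂ × ℂ} (hp : AnalyticOnNhd ℂ p univ) (h0 : ∀ z, p z ≠ 0) :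
    ∃ q : E → ℂ × ℂ, AnalyticOnNhd ℂ q univ ∧ ∀ z, pr (q z) (p z) = 1 := by
  have : ProperSpace E := FiniteDimensional.proper ℂ E
  choose q h1 h2 using fun n : ℕ => bez2_near (isCompact_closedBall (0 : E) n)
    (convex_closedBall _ _) (hp.mono (subset_univ _)) fun z _ => h0 z
  have h3 : ∀ n : ℕ, closedBall (0 : E) n ⊆ closedBall 0 (n + 1 : ℕ) := fun n =>
    closedBall_subset_closedBall (by simp)
  obtain ⟨d, h5, h6⟩ := mittag
    (fun n z => (q n z).1 * (q (n + 1) z).2 - (q n z).2 * (q (n + 1) z).1)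
    fun n z hz => ((analyticAt_fst.comp (h1 n z hz)).mul
      (analyticAt_snd.comp (h1 _ z (h3 n hz)))).sub ((analyticAt_snd.comp (h1 n z hz)).mul
      (analyticAt_fst.comp (h1 _ z (h3 n hz))))
  obtain ⟨Q, h7, h8⟩ := Glob.glue (fun n z => q n z + d n z • (-(p z).2, (p z).1))
    (fun n z hz => (h1 n z (ball_subset_closedBall hz)).add ((h5 n z hz).smul
      ((analyticAt_snd.comp (hp z trivial)).neg.prod (analyticAt_fst.comp (hp z trivial)))))
    fun n z hz => by
      have h9 := (h2 n).self_of_nhdsSet z (ball_subset_closedBall hz)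
      have h10 := (h2 (n + 1)).self_of_nhdsSet z (h3 n (ball_subset_closedBall hz))
      have h11 := h6 n z hz
      simp only [pr] at h9 h10 h11
      refine Prod.ext ?_ ?_ <;> simp only [Prod.fst_add, Prod.snd_add, Prod.smul_mk, smul_eq_mul]
      · linear_combination (p z).2 * h11 - (q (n + 1) z).1 * h9 + (q n z).1 * h10
      · linear_combination -(p z).1 * h11 - (q (n + 1) z).2 * h9 + (q n z).2 * h10
  refine ⟨Q, h7, fun z => ?_⟩
  obtain ⟨n, hz, h9⟩ := h8 z
  have h10 := (h2 n).self_of_nhdsSet z (ball_subset_closedBall hz)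
  rw [h9]
  simp only [pr, Prod.fst_add, Prod.snd_add, Prod.smul_mk, smul_eq_mul] at h10 ⊢
  linear_combination h10

end Vale.Agent.P290
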