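import Vale.Agent.P290.Orb
import Vale.Agent.P290.Glob

/-! Maps which factor through entire maps. -/

open Set Filter Metric
open scoped Manifold ContDiff Topology

noncomputable section

namespace Vale.Agent.P290

variable {X : Type} [TopologicalSpace X] [ChartedSpace C2 X] [IsManifold 𝓘(ℂ, C2) ω X]
  {E : Type} [NormedAddCommGroup E] [NormedSpace ℂ E] [FiniteDimensional ℂ E]
  {A : Type} [NormedAddCommGroup A] [NormedSpace ℂ A] [FiniteDimensional ℂ A]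
  {σ : Form2 X}

theorem Good.of {P : Set E} {f : E → X} {F : A → X} {Λ : E → A} (hF : ∀ w, Hol F w)
    (hΛ : AnalyticOnNhd ℂ Λ P) (h : ∀ᶠ z in 𝓝ˢ P, f z = F (Λ z)) : Good P f := by
  let e := (Module.finBasis ℂ A).equivFunL
  refine ⟨_, fun w => F (e.symm w), fun z => e (Λ z),
    fun w => (hF _).comp (e.symm.toContinuousLinearMap.analyticAt w),
    fun z hz => (e.toContinuousLinearMap.analyticAt _).comp (hΛ z hz), h.mono fun z hz => ?_⟩
  rw [hz]
  simp only [ContinuousLinearEquiv.symm_apply_apply]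

theorem Good.congr {P : Set E} {f g : E → X} (h : Good P f) (e : ∀ᶠ z in 𝓝ˢ P, g z = f z) :
    Good P g := by
  obtain ⟨n, F, Λ, hF, hΛ, h⟩ := h
  exact ⟨n, F, Λ, hF, hΛ, (e.and h).mono fun z hz => hz.1.trans hz.2⟩

theorem good_const (P : Set E) (x : X) : Good P fun _ => x :=
  ⟨0, fun _ => x, fun _ => 0, fun w => hol_const x w, analyticOnNhd_const,
    Eventually.of_forall fun _ => rfl⟩

theorem Good.spray {π : X → P1} (hπ : HolP π) {S : X × (ℂ × ℂ) × ℂ → X} (hS : Spray σ π S)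
    {P : Set E} {f : E → X} (h : Good P f) {p : E → ℂ × ℂ} (hp : Lifts (fun z => π (f z)) p P)
    {μ : E → ℂ} (hμ : AnalyticOnNhd ℂ μ P) : Good P fun z => S (f z, p z, μ z) := by
  obtain ⟨n, F, Λ, hF, hΛ, h⟩ := h
  obtain ⟨q, hq⟩ := lift_univ (G := fun w => π (F w)) fun w => hπ.locL (hF w)
  have h1 : Lifts (fun z => π (f z)) (fun z => q (Λ z)) P :=
    ⟨fun z hz => (hq.1 _ (mem_univ _)).comp (hΛ z hz), h.mono fun z hz => by
      have := hq.rep (mem_univ (Λ z))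
      simp only [hz]
      exact this⟩
  obtain ⟨ν, hν, hν'⟩ := h1.ratio hp
  refine Good.of (A := (Fin n → ℂ) × ℂ) (F := fun w => S (F w.1, q w.1, w.2))
    (Λ := fun z => (Λ z, ν z ^ 2 * μ z)) (fun w => ?_)
    (fun z hz => (hΛ z hz).prod (((hν z hz).pow 2).mul (hμ z hz))) ?_
  · exact hS.hol_comp (h := fun w : (Fin n → ℂ) × ℂ => F w.1) ((hF w.1).comp analyticAt_fst)
      ((hq.1 _ (mem_univ _)).comp analyticAt_fst) analyticAt_snd
      (Eventually.of_forall fun v => hq.rep (mem_univ v.1))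
  · filter_upwards [h, hν'] with z hz hz'
    rw [hz'.2, hz]
    exact hS.smul _ _ _ _ (hq.rep (mem_univ _)) hz'.1

theorem Eqv.refl (P : Set E) (W : Set A) (h : A → X) : Eqv P W h h := fun _ _ _ => Iff.rfl

theorem Eqv.trans {P : Set E} {W : Set A} {h g k : A → X} (h₁ : Eqv P W h g) (h₂ : Eqv P W g k) :
    Eqv P W h k := fun Λ hΛ hm => (h₁ Λ hΛ hm).trans (h₂ Λ hΛ hm)

theorem Eqv.mono {P : Set E} {W W' : Set A} {h g : A → X} (h₁ : Eqv P W h g) (hW : W' ⊆ W) :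
    Eqv P W' h g := fun Λ hΛ hm => h₁ Λ hΛ (hm.mono_right hW)

theorem Eqv.comp {B : Type} [NormedAddCommGroup B] [NormedSpace ℂ B] {P : Set E} {W : Set A}
    {h g : A → X} (h₁ : Eqv P W h g) {ρ : B → A} (hρ : AnalyticOnNhd ℂ ρ univ) :
    Eqv P (ρ ⁻¹' W) (fun w => h (ρ w)) (fun w => g (ρ w)) := fun Λ hΛ hm =>
  h₁ (fun z => ρ (Λ z)) (fun z hz => (hρ _ (mem_univ _)).comp (hΛ z hz)) fun _ hz => hm hz

/-- One application of a spray near a set `Z`. -/
theorem eqv_spray {π : X → P1} (hπ : HolP π) {S : X × (ℂ × ℂ) × ℂ → X} (hS : Spray σ π S)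
    (P : Set E) {Z : Set A} {h : A → X} {p : A → ℂ × ℂ} (hp : Lifts (fun w => π (h w)) p Z)
    {μ : A → ℂ} (hμ : AnalyticOnNhd ℂ μ Z) :
    ∃ W ∈ 𝓝ˢ Z, Eqv P W h fun w => S (h w, p w, μ w) := by
  refine ⟨{w | AnalyticAt ℂ p w ∧ AnalyticAt ℂ μ w ∧ ∀ᶠ v in 𝓝 w, Rep (p v) (π (h v))}, ?_,
    fun Λ hΛ hm => ?_⟩
  · refine eventually_nhdsSet_iff_forall.2 fun z hz => ?_
    exact (hp.1 z hz).eventually_analyticAt.and ((hμ z hz).eventually_analyticAt.and
      (eventually_nhdsSet_iff_forall.1 hp.2 z hz).eventually_nhds)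
  have h1 : AnalyticOnNhd ℂ (fun z => p (Λ z)) P := fun z hz => (hm hz).1.comp (hΛ z hz)
  have h2 : AnalyticOnNhd ℂ (fun z => μ (Λ z)) P := fun z hz => (hm hz).2.1.comp (hΛ z hz)
  have h3 : ∀ᶠ z in 𝓝ˢ P, Rep (p (Λ z)) (π (h (Λ z))) :=
    eventually_nhdsSet_iff_forall.2 fun z hz =>
      (hΛ z hz).continuousAt.tendsto.eventually (hm hz).2.2
  refine ⟨fun hg => hg.spray hπ hS ⟨h1, h3⟩ h2, fun hg => ?_⟩
  refine (hg.spray hπ hS (p := fun z => p (Λ z)) ⟨h1, h3.mono fun z hz => ?_⟩ h2.neg).congr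
    (h3.mono fun z hz => ?_)
  · simp only [Function.comp_apply]
    rw [hS.fib _ _ _ hz]
    exact hz
  · simp only [Function.comp_apply, Pi.neg_apply]
    rw [hS.add _ _ _ _ hz, add_neg_cancel, hS.zero _ _ hz]

theorem Good.approx {X : Type} [MetricSpace X] [ChartedSpace C2 X] [IsManifold 𝓘(ℂ, C2) ω X]
    {P : Set E} (hP : IsCompact P) (hc : Convex ℝ P) {f : E → X} (h : Good P f) {ε : ℝ}
    (hε : 0 < ε) : ∃ F : E → X, (∀ z, Hol F z) ∧ ∀ z ∈ P, dist (F z) (f z) < ε := by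
  obtain ⟨n, F, Λ, hF, hΛ, h⟩ := h
  have h1 := (hP.image_of_continuousOn hΛ.continuousOn).uniformContinuousAt_of_continuousAt F
    (fun w _ => (hF w).cont) (dist_mem_uniformity hε)
  obtain ⟨δ, hδ, h2⟩ := Metric.mem_uniformity_dist.1 h1
  obtain ⟨g, hg, hg'⟩ := runge hP hc hΛ hδ
  refine ⟨fun z => F (g z), fun z => (hF _).comp (hg z (mem_univ z)), fun z hz => ?_⟩
  have h3 : dist (Λ z) (g z) < δ := by
    rw [dist_comm, dist_eq_norm]
    exact hg' z hz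
  have h4 := h2 h3 (mem_image_of_mem Λ hz)
  rw [h.self_of_nhdsSet z hz, dist_comm]
  exact h4

end Vale.Agent.P290
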