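import Vale.Agent.P290.Sg
import Vale.Agent.P290.Bez

/-! An analytic family of projections. -/

open Set Filter Metric
open scoped Manifold ContDiff Topology

noncomputable section

namespace Vale.Agent.P290

variable {X : Type} [TopologicalSpace X] [ChartedSpace C2 X] [IsManifold 𝓘(ℂ, C2) ω X]
  {E : Type} [NormedAddCommGroup E] [NormedSpace ℂ E] [FiniteDimensional ℂ E]
  {A : Type} [NormedAddCommGroup A] [NormedSpace ℂ A] [FiniteDimensional ℂ A]
  {σ : Form2 X}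

theorem Idem.an {Q : E → A →L[ℂ] A} {z : E} (h : ∀ u, AnalyticAt ℂ (fun w => Q w u) z) :
    AnalyticAt ℂ Q z := by
  let e := Module.finBasis ℂ A
  have e1 : Q = fun w => ∑ k, ContinuousLinearMap.smulRightL ℂ A A
      (e.coord k).toContinuousLinearMap (Q w (e k)) := by
    ext w u
    conv_lhs => rw [← e.sum_repr u, map_sum]
    simp
  rw [e1]
  exact Finset.analyticAt_fun_sum _ fun k _ => (ContinuousLinearMap.analyticAt _ _).comp (h _)

theorem exists_idem (hσ : IsSympl σ) {P : Set E} (hP : IsCompact P) (hc : Convex ℝ P)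
    {F : E × A → X} (hF : ∀ z ∈ P, Hol F (z, 0))
    (hs : ∀ z ∈ P, ∃ u v, sg σ (F (z, 0)) (dT F z u) (dT F z v) ≠ 0) :
    ∃ Q : E → A →L[ℂ] A, AnalyticOnNhd ℂ Q P ∧ ∀ᶠ z in 𝓝ˢ P, ∀ u,
      dT F z (Q z u) = dT F z u ∧ (dT F z u = 0 → Q z u = 0) := by
  let e := Module.finBasis ℂ A
  obtain ⟨c, ca, hc1⟩ := bezout hP hc (fun (p : Fin _ × Fin _) z =>
    sg σ (F (z, 0)) (dT F z (e p.1)) (dT F z (e p.2)))
    (fun p z hz => sg_analytic hσ (hF z hz) _ _) fun z hz => by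
      by_contra! k
      obtain ⟨u, v, h⟩ := hs z hz
      have e0 : (sg σ (F (z, 0))).compl₁₂ (dT F z : A →ₗ[ℂ] C2) (dT F z : A →ₗ[ℂ] C2) = 0 :=
        LinearMap.ext_basis e e fun i j => k (i, j)
      exact h (LinearMap.congr_fun₂ e0 u v)
  let Q : E → A →L[ℂ] A := fun z => ∑ p : Fin _ × Fin _, c p z •
    ((((sg σ (F (z, 0))).flip (dT F z (e p.2)) ∘ₗ
        (dT F z : A →ₗ[ℂ] C2)).toContinuousLinearMap).smulRight (e p.1) +
      ((sg σ (F (z, 0)) (dT F z (e p.1)) ∘ₗ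
        (dT F z : A →ₗ[ℂ] C2)).toContinuousLinearMap).smulRight (e p.2))
  have hQ : ∀ z u, Q z u = ∑ p : Fin _ × Fin _, c p z •
      (sg σ (F (z, 0)) (dT F z u) (dT F z (e p.2)) • e p.1 +
        sg σ (F (z, 0)) (dT F z (e p.1)) (dT F z u) • e p.2) := fun z u => by
    simp [Q]
  refine ⟨Q, fun z hz => Idem.an fun u => ?_, hc1.mono fun z hz u => ⟨?_, fun h => ?_⟩⟩
  · simp only [hQ]
    exact Finset.analyticAt_fun_sum _ fun p _ => (ca p z hz).smul
      (((sg_analytic hσ (hF z hz) _ _).smul analyticAt_const).add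
        ((sg_analytic hσ (hF z hz) _ _).smul analyticAt_const))
  · simp only [hQ, map_sum, map_smul, map_add, sg_cramer hσ, smul_smul]
    rw [← Finset.sum_smul, hz, one_smul]
  · simp [hQ, h]

theorem surj_of_span (hσ : IsSympl σ) {x : X} {D : A →L[ℂ] C2}
    (h : ∃ u v, sg σ x (D u) (D v) ≠ 0) : Function.Surjective D := by
  obtain ⟨u, v, h⟩ := h
  refine fun w => ⟨(sg σ x (D u) (D v))⁻¹ • (sg σ x w (D v) • u + sg σ x (D u) w • v), ?_⟩
  rw [map_smul, map_add, map_smul, map_smul, sg_cramer hσ, inv_smul_smul₀ h]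

end Vale.Agent.P290
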