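import Vale.Agent.P290.QPen

/-! Kummer surfaces of products. -/

open Set Filter Metric
open scoped Manifold ContDiff Topology

noncomputable section

namespace Vale.Agent.P290

namespace KumP

/-- Directional derivative. -/
def D (φ : (Fin 6 → ℂ) → ℂ) (w ξ : Fin 6 → ℂ) (c : ℂ) : Prop :=
  DifferentiableAt ℂ φ w ∧ fderiv ℂ φ w ξ = c

variable {φ ψ : (Fin 6 → ℂ) → ℂ} {w ξ : Fin 6 → ℂ} {c c' : ℂ}

theorem D.co (i : Fin 6) : D (fun w => w i) w ξ (ξ i) :=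
  ⟨(hasFDerivAt_apply i w).differentiableAt, by rw [(hasFDerivAt_apply i w).fderiv]; rfl⟩

theorem D.mul (h : D φ w ξ c) (h' : D ψ w ξ c') :
    D (fun w => φ w * ψ w) w ξ (φ w * c' + ψ w * c) :=
  ⟨h.1.mul h'.1, by rw [fderiv_fun_mul h.1 h'.1]; simp [h.2, h'.2]⟩

theorem D.sub (h : D φ w ξ c) (h' : D ψ w ξ c') : D (fun w => φ w - ψ w) w ξ (c - c') :=
  ⟨h.1.sub h'.1, by rw [fderiv_fun_sub h.1 h'.1]; simp [h.2, h'.2]⟩

theorem D.lin (a : ℂ) (i j : Fin 6) : D (fun w => w i - a * w j) w ξ (ξ i - a * ξ j) := by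
  have h : D (fun _ => a) w ξ 0 := ⟨differentiableAt_const a, by simp⟩
  simpa using (D.co i).sub (h.mul (D.co j))

theorem cr_eq (h : D φ w ξ c) (h' : D ψ w ξ c') :
    cr (fun w => (φ w, ψ w)) w ξ = φ w * c' - ψ w * c := by
  simp only [cr, h.1.fderiv_prodMk h'.1, ContinuousLinearMap.prod_apply, h.2, h'.2]

/-- Half of the quartic. -/
def H (e : Fin 4 → ℂ) (s : Bool) (x y : ℂ) : ℂ :=
  (x - e (if s then 0 else 2) * y) * (x - e (if s then 1 else 3) * y)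

theorem H_mul (e : Fin 4 → ℂ) (s : Bool) (x y : ℂ) : H e s x y * H e (!s) x y = quart e x y := by
  cases s <;> simp [H, quart, Fin.prod_univ_four] <;> ring

theorem H_smul (e : Fin 4 → ℂ) (s : Bool) (t x y : ℂ) :
    H e s (t * x) (t * y) = t ^ 2 * H e s x y := by
  simp only [H]; ring

theorem two {e : Fin 4 → ℂ} (he : Function.Injective e) {x y : ℂ} (h : (x, y) ≠ 0) {i j : Fin 4}
    (hij : i ≠ j) (hi : x - e i * y = 0) : x - e j * y ≠ 0 := fun hj => by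
  have h1 : (e i - e j) * y = 0 := by linear_combination hj - hi
  have h2 : y = 0 := (mul_eq_zero.1 h1).resolve_left (sub_ne_zero.2 fun k => hij (he k))
  apply h
  rw [h2, mul_zero, sub_zero] at hi
  rw [hi, h2]; rfl

theorem H_ne {e : Fin 4 → ℂ} (he : Function.Injective e) {x y : ℂ} (h : (x, y) ≠ 0) (s : Bool)
    (h0 : H e s x y = 0) : H e (!s) x y ≠ 0 := by
  cases s <;> rcases mul_eq_zero.1 h0 with k | k <;>
    exact mul_ne_zero (two he h (by decide) k) (two he h (by decide) k)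

theorem H_ex {e : Fin 4 → ℂ} (he : Function.Injective e) {x y : ℂ} (h : (x, y) ≠ 0) :
    ∃ s, H e (!s) x y ≠ 0 := by
  by_cases k : H e true x y = 0
  · exact ⟨true, H_ne he h _ k⟩
  · exact ⟨false, k⟩

theorem H_D (e : Fin 4 → ℂ) (s : Bool) {i j : Fin 6} (hi : ξ i = c * w i) (hj : ξ j = c * w j) :
    D (fun w => H e s (w i) (w j)) w ξ (2 * c * H e s (w i) (w j)) := by
  have := (D.lin (w := w) (ξ := ξ) (e (if s then 0 else 2)) i j).mul
    (D.lin (e (if s then 1 else 3)) i j)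
  refine ⟨this.1, this.2.trans ?_⟩
  simp only [H, hi, hj]; ring

theorem Q_D (e : Fin 4 → ℂ) (i j : Fin 6) : ∃ c, D (fun w => quart e (w i) (w j)) w ξ c ∧
    (ξ i = 0 → ξ j = 0 → c = 0) ∧ (Function.Injective e → (w i, w j) ≠ 0 →
      quart e (w i) (w j) = 0 → ξ i = 1 → ξ j = 0 → c ≠ 0) := by
  have := (((D.lin (w := w) (ξ := ξ) (e 0) i j).mul (D.lin (e 1) i j)).mul
    (D.lin (e 2) i j)).mul (D.lin (e 3) i j)
  refine ⟨_, by simpa only [quart, Fin.prod_univ_four] using this, fun a b => by simp [a, b],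
    fun he h h0 a b => ?_⟩
  simp only [quart, Fin.prod_univ_four, mul_eq_zero] at h0
  rcases h0 with ((k | k) | k) | k <;>
    simp [a, b, k, two he h (j := 0) _ k, two he h (j := 1) _ k, two he h (j := 2) _ k,
      two he h (j := 3) _ k]

theorem par {x y a b : ℂ} (h : (x, y) ≠ 0) (k : x * b - y * a = 0) :
    ∃ c, a = c * x ∧ b = c * y := by
  by_cases hx : x = 0
  · have hy : y ≠ 0 := fun hy => h (by rw [hx, hy]; rfl)
    refine ⟨b / y, ?_, by field_simp⟩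
    rw [hx, zero_mul, zero_sub, neg_eq_zero] at k
    rw [hx, mul_zero]
    exact (mul_eq_zero.1 k).resolve_left hy
  · exact ⟨a / x, by field_simp, by field_simp; linear_combination k⟩

/-- The weights. -/
abbrev dd : Fin 3 → Fin 6 → ℕ := ![![1, 1, 0, 0, 2, 0], ![0, 0, 1, 1, 0, 2], ![0, 0, 0, 0, 1, 1]]

/-- The cone. -/
abbrev ZZ (e e' : Fin 4 → ℂ) : Set (Fin 6 → ℂ) :=
  {w : Fin 6 → ℂ | (w 0, w 1) ≠ 0 ∧ (w 2, w 3) ≠ 0 ∧ (w 4, w 5) ≠ 0 ∧
    w 4 ^ 2 * quart e' (w 2) (w 3) = w 5 ^ 2 * quart e (w 0) (w 1)}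

theorem ta (c : Fin 3 → ℂ) (w : Fin 6 → ℂ) : tact dd c w 0 = c 0 * w 0 ∧
    tact dd c w 1 = c 0 * w 1 ∧ tact dd c w 2 = c 1 * w 2 ∧ tact dd c w 3 = c 1 * w 3 ∧
    tact dd c w 4 = c 0 ^ 2 * c 2 * w 4 ∧ tact dd c w 5 = c 1 ^ 2 * c 2 * w 5 := by
  simp [tact, Fin.prod_univ_three]

theorem or2 {x y : ℂ} (h : (x, y) ≠ 0) : x ≠ 0 ∨ y ≠ 0 := by
  by_contra k
  push Not at k
  exact h (by rw [k.1, k.2]; rfl)

variable {e e' : Fin 4 → ℂ}

theorem free : Free dd (ZZ e e') := by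
  rintro w ⟨h0, h1, h2, -⟩ k
  fin_cases k
  · rcases or2 h0 with a | a
    · exact ⟨![1, 0, 0, 0, 0, 0], fun i => by fin_cases i <;> simp [a], by decide⟩
    · exact ⟨![0, 1, 0, 0, 0, 0], fun i => by fin_cases i <;> simp [a], by decide⟩
  · rcases or2 h1 with a | a
    · exact ⟨![0, 0, 1, 0, 0, 0], fun i => by fin_cases i <;> simp [a], by decide⟩
    · exact ⟨![0, 0, 0, 1, 0, 0], fun i => by fin_cases i <;> simp [a], by decide⟩
  · rcases or2 h2 with b | b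
    · rcases or2 h0 with a | a
      · exact ⟨![-2, 0, 0, 0, 1, 0], fun i => by fin_cases i <;> simp [a, b], by decide⟩
      · exact ⟨![0, -2, 0, 0, 1, 0], fun i => by fin_cases i <;> simp [a, b], by decide⟩
    · rcases or2 h1 with a | a
      · exact ⟨![0, 0, -2, 0, 0, 1], fun i => by fin_cases i <;> simp [a, b], by decide⟩
      · exact ⟨![0, 0, 0, -2, 0, 1], fun i => by fin_cases i <;> simp [a, b], by decide⟩

/-- The equation. -/
def eqn (e e' : Fin 4 → ℂ) (w : Fin 6 → ℂ) : ℂ :=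
  w 4 * w 4 * quart e' (w 2) (w 3) - w 5 * w 5 * quart e (w 0) (w 1)

theorem eqn_ne (he : Function.Injective e) (he' : Function.Injective e') (hw : w ∈ ZZ e e') :
    ∃ ξ c, D (eqn e e') w ξ c ∧ c ≠ 0 := by
  obtain ⟨h0, h1, h2, -⟩ := hw
  have key : ∀ ξ : Fin 6 → ℂ, ∃ a b, D (eqn e e') w ξ (w 4 * w 4 * b + quart e' (w 2) (w 3) *
      (w 4 * ξ 4 + w 4 * ξ 4) - (w 5 * w 5 * a + quart e (w 0) (w 1) * (w 5 * ξ 5 + w 5 * ξ 5))) ∧
      (ξ 0 = 0 → ξ 1 = 0 → a = 0) ∧ (quart e (w 0) (w 1) = 0 → ξ 0 = 1 → ξ 1 = 0 → a ≠ 0) ∧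
      (ξ 2 = 0 → ξ 3 = 0 → b = 0) ∧ (quart e' (w 2) (w 3) = 0 → ξ 2 = 1 → ξ 3 = 0 → b ≠ 0) :=
    fun ξ => by
    obtain ⟨a, a1, a2, a3⟩ := Q_D (w := w) (ξ := ξ) e 0 1
    obtain ⟨b, b1, b2, b3⟩ := Q_D (w := w) (ξ := ξ) e' 2 3
    exact ⟨a, b, (((D.co 4).mul (D.co 4)).mul b1).sub (((D.co 5).mul (D.co 5)).mul a1), a2,
      a3 he h0, b2, b3 he' h1⟩
  rcases or2 h2 with u | u
  · by_cases g : quart e' (w 2) (w 3) = 0
    · obtain ⟨a, b, k, a1, -, -, b1⟩ := key ![0, 0, 1, 0, 0, 0]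
      exact ⟨_, _, k, by simp [a1 rfl rfl, b1 g rfl rfl, u]⟩
    · obtain ⟨a, b, k, a1, -, b1, -⟩ := key ![0, 0, 0, 0, 1, 0]
      exact ⟨_, _, k, by simp [a1 rfl rfl, b1 rfl rfl, u, g]⟩
  · by_cases g : quart e (w 0) (w 1) = 0
    · obtain ⟨a, b, k, -, a1, b1, -⟩ := key ![1, 0, 0, 0, 0, 0]
      exact ⟨_, _, k, by simp [a1 g rfl rfl, b1 rfl rfl, u]⟩
    · obtain ⟨a, b, k, a1, -, b1, -⟩ := key ![0, 0, 0, 0, 0, 1]
      exact ⟨_, _, k, by simp [a1 rfl rfl, b1 rfl rfl, u, g]⟩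

theorem an_co (i : Fin 6) (w : Fin 6 → ℂ) : AnalyticAt ℂ (fun w : Fin 6 → ℂ => w i) w :=
  (ContinuousLinearMap.proj (R := ℂ) (φ := fun _ : Fin 6 => ℂ) i).analyticAt w

theorem an_H (e : Fin 4 → ℂ) (s : Bool) (i j : Fin 6) (w : Fin 6 → ℂ) :
    AnalyticAt ℂ (fun w : Fin 6 → ℂ => H e s (w i) (w j)) w :=
  ((an_co i w).sub (analyticAt_const.mul (an_co j w))).mul
    ((an_co i w).sub (analyticAt_const.mul (an_co j w)))

theorem eqs (he : Function.Injective e) (he' : Function.Injective e') :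
    Eqs dd (ZZ e e') (fun w (_ : Fin 1) => eqn e e' w) ![![4], ![4], ![2]] where
  an w _ := by
    refine AnalyticAt.pi fun _ => ?_
    unfold eqn
    simp only [← H_mul _ true]
    exact (((an_co 4 w).mul (an_co 4 w)).mul ((an_H _ _ 2 3 w).mul (an_H _ _ 2 3 w))).sub
      (((an_co 5 w).mul (an_co 5 w)).mul ((an_H _ _ 0 1 w).mul (an_H _ _ 0 1 w)))
  zero w hw := by
    funext _
    have := hw.2.2.2
    simp only [eqn, Pi.zero_apply]
    linear_combination this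
  hom c w := by
    funext r
    obtain ⟨a0, a1, a2, a3, a4, a5⟩ := ta c w
    fin_cases r
    simp only [eqn, a0, a1, a2, a3, a4, a5, ← H_mul _ true, H_smul]
    simp [tact, Fin.prod_univ_three]
    ring
  surj w hw y := by
    obtain ⟨ξ, c, k, hc⟩ := eqn_ne he he' hw
    refine ⟨(y 0 / c) • ξ, ?_⟩
    rw [fderiv_pi fun _ => k.1]
    funext r
    fin_cases r
    simp [k.2, hc]
  cy := by decide
  dim := by decide

theorem pen0 {i j : Fin 6} {k : Fin 3} (h1 : ∀ w ∈ ZZ e e', (w i, w j) ≠ 0)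
    (h2 : ∀ c w, tact dd c w i = c k * w i ∧ tact dd c w j = c k * w j) :
    Pen dd (ZZ e e') (fun w => (w i, w j)) fun w => (w i, w j) :=
  have h : ∀ (c : Fin 3 → ℂ) w, (∀ k, c k ≠ 0) → ∃ t : ℂ, t ≠ 0 ∧
      (tact dd c w i, tact dd c w j) = t • (w i, w j) := fun c w hc =>
    ⟨c k, hc k, by rw [(h2 c w).1, (h2 c w).2]; rfl⟩
  ⟨fun w _ => (an_co i w).prod (an_co j w), fun w _ => (an_co i w).prod (an_co j w), h, h,
    fun w hw => Or.inl (h1 w hw), fun w _ => mul_comm _ _⟩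

theorem pen1 (he : Function.Injective e) (he' : Function.Injective e') (s s' : Bool) :
    Pen dd (ZZ e e') (fun w => (w 4 * H e' s' (w 2) (w 3), w 5 * H e s (w 0) (w 1)))
      fun w => (w 5 * H e (!s) (w 0) (w 1), w 4 * H e' (!s') (w 2) (w 3)) where
  an w _ := ((an_co 4 w).mul (an_H _ _ 2 3 w)).prod ((an_co 5 w).mul (an_H _ _ 0 1 w))
  an' w _ := ((an_co 5 w).mul (an_H _ _ 0 1 w)).prod ((an_co 4 w).mul (an_H _ _ 2 3 w))
  hom c w hc := by
    obtain ⟨a0, a1, a2, a3, a4, a5⟩ := ta c w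
    refine ⟨c 0 ^ 2 * c 1 ^ 2 * c 2, by simp [hc], ?_⟩
    simp only [a0, a1, a2, a3, a4, a5, H_smul, Prod.smul_mk, smul_eq_mul, Prod.mk.injEq]
    constructor <;> ring
  hom' c w hc := by
    obtain ⟨a0, a1, a2, a3, a4, a5⟩ := ta c w
    refine ⟨c 0 ^ 2 * c 1 ^ 2 * c 2, by simp [hc], ?_⟩
    simp only [a0, a1, a2, a3, a4, a5, H_smul, Prod.smul_mk, smul_eq_mul, Prod.mk.injEq]
    constructor <;> ring
  ne w hw := by
    by_contra k
    push Not at k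
    obtain ⟨k1, k2⟩ := k
    simp only [Prod.mk_eq_zero, mul_eq_zero] at k1 k2
    rcases or2 hw.2.2.1 with u | u
    · exact H_ne he' hw.2.1 s' (k1.1.resolve_left u) (k2.2.resolve_left u)
    · exact H_ne he hw.1 s (k1.2.resolve_left u) (k2.1.resolve_left u)
  cross w hw := by
    have := hw.2.2.2
    rw [← H_mul e s, ← H_mul e' s'] at this
    simp only
    linear_combination this

end KumP

open KumP

variable {X : Type} [MetricSpace X] [CompactSpace X] [ChartedSpace C2 X] [IsManifold 𝓘(ℂ, C2) ω X]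

theorem oka_kumProd (h : IsKumProd X) : IsOka X := by
  obtain ⟨e, e', he, he', h⟩ := h
  refine oka_of_quot h free (eqs he he') (J := Bool ⊕ Bool × Bool)
    (a := Sum.elim (fun t w => if t then (w 0, w 1) else (w 2, w 3))
      fun s w => (w 4 * H e' s.2 (w 2) (w 3), w 5 * H e s.1 (w 0) (w 1)))
    (b := Sum.elim (fun t w => if t then (w 0, w 1) else (w 2, w 3))
      fun s w => (w 5 * H e (!s.1) (w 0) (w 1), w 4 * H e' (!s.2) (w 2) (w 3))) ?_ ?_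
  · rintro ((_ | _) | s)
    · exact pen0 (k := 1) (fun w hw => hw.2.1) fun c w => ⟨(ta c w).2.2.1, (ta c w).2.2.2.1⟩
    · exact pen0 (k := 0) (fun w hw => hw.1) fun c w => ⟨(ta c w).1, (ta c w).2.1⟩
    · exact pen1 he he' s.1 s.2
  · intro w hw ξ _ hc
    obtain ⟨c0, a0, a1⟩ := par hw.1
      ((cr_eq (ξ := ξ) (D.co 0) (D.co 1)).symm.trans (hc (Sum.inl true)).1)
    obtain ⟨c1, a2, a3⟩ := par hw.2.1
      ((cr_eq (ξ := ξ) (D.co 2) (D.co 3)).symm.trans (hc (Sum.inl false)).1)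
    obtain ⟨s, hs⟩ := H_ex he hw.1
    obtain ⟨s', hs'⟩ := H_ex he' hw.2.1
    have k := (cr_eq ((D.co 5).mul (H_D e (!s) a0 a1))
      ((D.co 4).mul (H_D e' (!s') a2 a3))).symm.trans (hc (Sum.inr (s, s'))).2
    have k2 : w 4 * (ξ 5 - 2 * c1 * w 5) - w 5 * (ξ 4 - 2 * c0 * w 4) = 0 :=
      mul_left_cancel₀ (mul_ne_zero hs hs') (by linear_combination -k)
    obtain ⟨c2, a4, a5⟩ := par hw.2.2.1 k2
    refine ⟨![c0, c1, c2], funext fun i => ?_⟩
    fin_cases i <;> simp [orb, Fin.sum_univ_three, a0, a1, a2, a3]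
    · linear_combination a4
    · linear_combination a5

end Vale.Agent.P290
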