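import Vale.Agent.P290.Bez

/-! Homogeneous coordinates on compact convex sets. -/

open Set Filter Metric
open scoped Manifold ContDiff Topology

noncomputable section

namespace Vale.Agent.P290

variable {E : Type} [NormedAddCommGroup E] [NormedSpace ℂ E] [FiniteDimensional ℂ E]

theorem lift_near {K : Set E} (hK : IsCompact K) (hc : Convex ℝ K) {G : E → P1}
    (hG : ∀ z ∈ K, LocL G z) : ∃ p, Lifts G p K := by
  have hU : {z | LocL G z} ∈ 𝓝ˢ K :=
    mem_nhdsSet_iff_forall.2 fun z hz => (hG z hz).eventually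
  suffices h : ∃ P, K ⊆ P ∧ ∃ p, Lifts G p P by
    obtain ⟨P, hKP, p, hp⟩ := h
    exact ⟨p, hp.mono hKP⟩
  refine patch hK hc hU (fun S => ∃ p, Lifts G p S)
    ⟨fun _ => 0, fun z hz => hz.elim, by simp⟩ ?_ ?_
  · rintro z ⟨p, h1, h2⟩
    exact ⟨_, h1.eventually_analyticAt.and h2.eventually_nhds, fun S hS =>
      ⟨p, fun w hw => (hS hw).1, eventually_nhdsSet_iff_forall.2 fun w hw => (hS hw).2⟩⟩
  · rintro S₁ S₂ k₁ k₂ c₁ c₂ - hs ⟨p₁, h₁⟩ ⟨p₂, h₂⟩
    obtain ⟨ν, hν, hν'⟩ := (h₁.mono inter_subset_left).ratio (h₂.mono inter_subset_right)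
    obtain ⟨c, hc1, hc2⟩ := exists_log (k₁.inter k₂) (c₁.inter c₂) hν
      fun z hz => (hν'.self_of_nhdsSet z hz).1
    obtain ⟨d₁, d₂, a₁, a₂, hd⟩ := hs c hc1
    obtain ⟨f, e₁, e₂⟩ := glue2 k₁.isClosed k₂.isClosed
      (f₁ := fun z => Complex.exp (d₁ z) • p₁ z) (f₂ := fun z => Complex.exp (d₂ z) • p₂ z) (by
        filter_upwards [hν', hc2, hd] with z t1 t2 t3
        rw [t1.2, ← t2, t3, smul_smul, ← Complex.exp_add, add_sub_cancel])
    refine ⟨f, fun z hz => ?_, ?_⟩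
    · rcases hz with hz | hz
      · exact ((a₁ z hz).cexp.smul (h₁.1 z hz)).congr
          (EventuallyEq.symm (eventually_nhdsSet_iff_forall.1 e₁ z hz))
      · exact ((a₂ z hz).cexp.smul (h₂.1 z hz)).congr
          (EventuallyEq.symm (eventually_nhdsSet_iff_forall.1 e₂ z hz))
    · rw [nhdsSet_union, eventually_sup]
      constructor
      · filter_upwards [e₁, h₁.2] with z t1 t2
        rw [t1]
        exact t2.smul (Complex.exp_ne_zero _)
      · filter_upwards [e₂, h₂.2] with z t1 t2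
        rw [t1]
        exact t2.smul (Complex.exp_ne_zero _)

/-- Extension of a lift from the zero slice. -/
theorem lift_norm {A : Type} [NormedAddCommGroup A] [NormedSpace ℂ A] [FiniteDimensional ℂ A]
    {K : Set E} (hK : IsCompact K) (hc : Convex ℝ K) {G : E × A → P1}
    (hG : ∀ z ∈ K, LocL G (z, 0)) {p : E → ℂ × ℂ} (hp : Lifts (fun z => G (z, 0)) p K) :
    ∃ q, Lifts G q (K ×ˢ {0}) ∧ ∀ᶠ z in 𝓝ˢ K, q (z, 0) = p z := by
  obtain ⟨q, hq⟩ := lift_near (hK.prod isCompact_singleton) (hc.prod (convex_singleton 0))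
    (G := G) (by
      rintro ⟨z, a⟩ ⟨hz, rfl⟩
      exact hG z hz)
  have t1 : Tendsto (fun z : E => (z, (0 : A))) (𝓝ˢ K) (𝓝ˢ (K ×ˢ {0})) :=
    (continuous_id.prodMk continuous_const).tendsto_nhdsSet fun z hz => ⟨hz, rfl⟩
  have t2 : Tendsto (Prod.fst : E × A → E) (𝓝ˢ (K ×ˢ {0})) (𝓝ˢ K) :=
    continuous_fst.tendsto_nhdsSet fun z hz => hz.1
  have hq0 : Lifts (fun z => G (z, 0)) (fun z => q (z, 0)) K :=
    ⟨fun z hz => (hq.1 (z, 0) ⟨hz, rfl⟩).comp_of_eq (analyticAt_id.prod analyticAt_const) rfl,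
      t1.eventually hq.2⟩
  obtain ⟨ν, hν, hν'⟩ := hq0.ratio hp
  refine ⟨fun w => ν w.1 • q w, ⟨fun w hw => ?_, ?_⟩, hν'.mono fun z hz => hz.2.symm⟩
  · exact ((hν w.1 hw.1).comp analyticAt_fst).smul (hq.1 w hw)
  · filter_upwards [t2.eventually hν', hq.2] with w h1 h2
    exact h2.smul h1.1

end Vale.Agent.P290
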