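import Vale.Agent.P290.Spr
import Vale.Agent.P290.Orb

/-! Twists become isomorphic over the special linear group. -/

open Set Filter Metric
open scoped Manifold ContDiff Topology

noncomputable section

namespace Vale.Agent.P290

variable {X : Type} [TopologicalSpace X] [ChartedSpace C2 X] [IsManifold 𝓘(ℂ, C2) ω X]
  {E : Type} [NormedAddCommGroup E] [NormedSpace ℂ E] [FiniteDimensional ℂ E]
  {A : Type} [NormedAddCommGroup A] [NormedSpace ℂ A] [FiniteDimensional ℂ A]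
  {σ : Form2 X}

variable {X' : Type} [TopologicalSpace X'] [ChartedSpace C2 X'] [IsManifold 𝓘(ℂ, C2) ω X']

namespace TwA

variable {σ' : Form2 X'} {π : X → P1} {π' : X' → P1} {S : X' × (ℂ × ℂ) × ℂ → X'} {a : P1}
  {φ : X → X'} {ψ : X' → X}

omit [IsManifold 𝓘(ℂ, C2) ω X] [IsManifold 𝓘(ℂ, C2) ω X'] in
theorem hol_m {τ : (ℂ × ℂ) × (ℂ × ℂ) → ℂ} {w : X × (ℂ × ℂ) × (ℂ × ℂ)}
    (hφ : ContMDiffAt 𝓘(ℂ, C2) 𝓘(ℂ, C2) ω φ w.1) (hτ : AnalyticAt ℂ τ w.2) :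
    ContMDiffAt (𝓘(ℂ, C2).prod 𝓘(ℂ, (ℂ × ℂ) × (ℂ × ℂ))) (𝓘(ℂ, C2).prod 𝓘(ℂ, (ℂ × ℂ) × ℂ)) ω
      (fun v : X × (ℂ × ℂ) × (ℂ × ℂ) => (φ v.1, v.2.1, τ v.2)) w := by
  have h1 : ContMDiffAt 𝓘(ℂ, (ℂ × ℂ) × (ℂ × ℂ)) 𝓘(ℂ, (ℂ × ℂ) × ℂ) ω
      (fun u : (ℂ × ℂ) × (ℂ × ℂ) => (u.1, τ u)) w.2 :=
    (analyticAt_fst.prod hτ).contDiffAt.contMDiffAt
  exact (hφ.comp w contMDiffAt_fst).prodMk (h1.comp w contMDiffAt_snd)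

omit [IsManifold 𝓘(ℂ, C2) ω X] [IsManifold 𝓘(ℂ, C2) ω X'] in
theorem holA (hS : Spray σ' π' S) (hφ : IsoOff π π' a φ ψ) {l : ℂ × ℂ → ℂ} (hc : Continuous l)
    (hl : ∀ p b, Rep p b → l p ≠ 0 → b ≠ a) {C : X × (ℂ × ℂ) × (ℂ × ℂ) → X'}
    {τ : (ℂ × ℂ) × (ℂ × ℂ) → ℂ} {w : X × (ℂ × ℂ) × (ℂ × ℂ)} (hw : w ∈ SL π) (h0 : l w.2.1 ≠ 0)
    (hτ : AnalyticAt ℂ τ w.2)
    (hC : ∀ v ∈ SL π, l v.2.1 ≠ 0 → C v = S (φ v.1, v.2.1, τ v.2)) :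
    ∃ D : X × (ℂ × ℂ) × (ℂ × ℂ) → X', HolX D w ∧ ∀ᶠ v in 𝓝 w, v ∈ SL π → C v = D v := by
  have hr : ∀ v ∈ SL π, l v.2.1 ≠ 0 → Rep v.2.1 (π' (φ v.1)) := fun v hv h => by
    rw [hφ.ov _ (hl _ _ hv.1 h)]
    exact hv.1
  obtain ⟨S', h1, h2⟩ := hS.hol (φ w.1, w.2.1, τ w.2) (hr w hw h0)
  have hm := hol_m (hφ.hol _ (hl _ _ hw.1 h0)) hτ
  refine ⟨fun v => S' (φ v.1, v.2.1, τ v.2), ContMDiffAt.comp w h1 hm, ?_⟩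
  have h3 : ∀ᶠ v in 𝓝 w, l v.2.1 ≠ 0 :=
    (hc.comp continuous_snd.fst).continuousAt.eventually_ne h0
  filter_upwards [hm.continuousAt.eventually h2, h3] with v h4 h5 hv
  rw [hC v hv h5]
  exact h4 (hr v hv h5)

omit [IsManifold 𝓘(ℂ, C2) ω X] [IsManifold 𝓘(ℂ, C2) ω X'] in
theorem holB (hS : Spray σ' π' S) (hφ : IsoOff π π' a φ ψ) {l : ℂ × ℂ → ℂ} (hc : Continuous l)
    (hl : ∀ p b, Rep p b → l p ≠ 0 → b ≠ a) {C : X' × (ℂ × ℂ) × (ℂ × ℂ) → X}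
    {τ : (ℂ × ℂ) × (ℂ × ℂ) → ℂ} {w : X' × (ℂ × ℂ) × (ℂ × ℂ)} (hw : w ∈ SL π') (h0 : l w.2.1 ≠ 0)
    (hτ : AnalyticAt ℂ τ w.2)
    (hC : ∀ v ∈ SL π', l v.2.1 ≠ 0 → C v = ψ (S (v.1, v.2.1, τ v.2))) :
    ∃ D : X' × (ℂ × ℂ) × (ℂ × ℂ) → X, HolX D w ∧ ∀ᶠ v in 𝓝 w, v ∈ SL π' → C v = D v := by
  obtain ⟨S', h1, h2⟩ := hS.hol (w.1, w.2.1, τ w.2) hw.1
  have hm := hol_m (φ := id) (w := w) contMDiffAt_id hτ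
  have h6 : π' (S' (w.1, w.2.1, τ w.2)) ≠ a := by
    rw [← h2.self_of_nhds hw.1, hS.fib _ _ _ hw.1]
    exact hl _ _ hw.1 h0
  refine ⟨fun v => ψ (S' (v.1, v.2.1, τ v.2)),
    ContMDiffAt.comp w (hφ.hol' _ h6) (ContMDiffAt.comp w h1 hm), ?_⟩
  have h3 : ∀ᶠ v in 𝓝 w, l v.2.1 ≠ 0 :=
    (hc.comp continuous_snd.fst).continuousAt.eventually_ne h0
  filter_upwards [hm.continuousAt.eventually h2, h3] with v h4 h5 hv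
  rw [hC v hv h5]
  exact congrArg ψ (h4 hv.1)

omit [IsManifold 𝓘(ℂ, C2) ω X] [IsManifold 𝓘(ℂ, C2) ω X'] in
theorem algA (hS : Spray σ' π' S) (hφ : IsoOff π π' a φ ψ) {x : X} {p : ℂ × ℂ}
    (hp : Rep p (π x)) (ha : π x ≠ a) (τ : ℂ) :
    π' (S (φ x, p, τ)) = π x ∧ ψ (S (S (φ x, p, τ), p, -τ)) = x := by
  have h1 : Rep p (π' (φ x)) := by rwa [hφ.ov x ha]
  refine ⟨by rw [hS.fib _ _ _ h1, hφ.ov x ha], ?_⟩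
  rw [hS.add _ _ _ _ h1, add_neg_cancel, hS.zero _ _ h1, hφ.left x ha]

omit [IsManifold 𝓘(ℂ, C2) ω X] [IsManifold 𝓘(ℂ, C2) ω X'] in
theorem algB (hS : Spray σ' π' S) (hφ : IsoOff π π' a φ ψ) {x : X'} {p : ℂ × ℂ}
    (hp : Rep p (π' x)) (ha : π' x ≠ a) (τ : ℂ) :
    π (ψ (S (x, p, -τ))) = π' x ∧ S (φ (ψ (S (x, p, -τ))), p, τ) = x := by
  have h1 := hS.fib x p (-τ) hp
  have h2 : π' (S (x, p, -τ)) ≠ a := by rwa [h1]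
  refine ⟨by rw [hφ.ov' _ h2, h1], ?_⟩
  rw [hφ.right _ h2, hS.add _ _ _ _ hp, neg_add_cancel, hS.zero _ _ hp]

theorem ne0 {a₀ : P1} (h : Rep (0, 1) a₀) (p : ℂ × ℂ) (b : P1) (hp : Rep p b) (h1 : p.1 ≠ 0) :
    b ≠ a₀ := fun e => h1 (by simpa using (hp.eq_iff h).1 e)

theorem ne1 {a₁ : P1} (h : Rep (1, 0) a₁) (p : ℂ × ℂ) (b : P1) (hp : Rep p b) (h1 : p.2 ≠ 0) :
    b ≠ a₁ := fun e => h1 (by simpa [eq_comm] using (hp.eq_iff h).1 e)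

theorem snd_ne {p : ℂ × ℂ} {b : P1} (hp : Rep p b) (h : ¬ p.1 ≠ 0) : p.2 ≠ 0 := fun h2 =>
  hp.ne (Prod.ext (not_not.1 h) h2)

theorem an0 (t : ℂ) {u : (ℂ × ℂ) × (ℂ × ℂ)} (h : u.1.1 ≠ 0) :
    AnalyticAt ℂ (fun u : (ℂ × ℂ) × (ℂ × ℂ) => t * u.2.2 / u.1.1) u :=
  (analyticAt_const.mul (analyticAt_snd.comp analyticAt_snd)).div
    (analyticAt_fst.comp analyticAt_fst) h

theorem an1 (t : ℂ) {u : (ℂ × ℂ) × (ℂ × ℂ)} (h : u.1.2 ≠ 0) :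
    AnalyticAt ℂ (fun u : (ℂ × ℂ) × (ℂ × ℂ) => -(t * u.2.1 / u.1.2)) u :=
  ((analyticAt_const.mul (analyticAt_fst.comp analyticAt_snd)).div
    (analyticAt_snd.comp analyticAt_fst) h).neg

theorem time {p q : ℂ × ℂ} (t : ℂ) (h : pr q p = 1) (h1 : p.1 ≠ 0) (h2 : p.2 ≠ 0) :
    t / (p.1 * p.2) = t * q.2 / p.1 + t * q.1 / p.2 := by
  rw [pr] at h
  field_simp
  linear_combination (-t) * h

end TwA

theorem conv_of_twist [T2Space X'] [CompactSpace X'] (h : Twist X X') :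
    ∃ (π : X → P1) (π' : X' → P1) (C : X × (ℂ × ℂ) × (ℂ × ℂ) → X')
      (C' : X' × (ℂ × ℂ) × (ℂ × ℂ) → X), HolP π ∧ HolP π' ∧ Conv π π' C C' := by
  classical
  obtain ⟨σ', π, π', a₀, a₁, φ₀, φ₁, ψ₀, ψ₁, t, hσ, hπ, hπ', h0, h1, i0, i1, hγ⟩ := h
  obtain ⟨S, hS⟩ := exists_spray hσ hπ'
  have n0 := TwA.ne0 h0
  have n1 := TwA.ne1 h1
  have key : ∀ x p, Rep p (π x) → p.1 ≠ 0 → p.2 ≠ 0 → φ₁ x = S (φ₀ x, p, t / (p.1 * p.2)) := by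
    intro x p hp p1 p2
    obtain ⟨γ, g1, g2, g3⟩ := hγ x (n0 _ _ hp p1) (n1 _ _ hp p2)
    have e : π' (φ₀ x) = π x := i0.ov x (n0 _ _ hp p1)
    have hp' : Rep p (π' (φ₀ x)) := by rwa [e]
    have h2 := hS.uniq γ g1 (by rw [g2]; exact hp'.one_aff p1) (t / aff (π x))
    have e2 : ((1 : ℂ), p.2 / p.1) = p.1⁻¹ • p := by
      refine Prod.ext ?_ ?_
      · exact (inv_mul_cancel₀ p1).symm
      · exact div_eq_inv_mul _ _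
    rw [g3, g2, e, hp.aff_eq, e2, hS.smul _ _ _ _ hp' (inv_ne_zero p1)] at h2
    have e3 : p.1⁻¹ ^ 2 * (t / (p.2 / p.1)) = t / (p.1 * p.2) := by field_simp
    rwa [e3] at h2
  set C : X × (ℂ × ℂ) × (ℂ × ℂ) → X' := fun v => if v.2.1.1 ≠ 0 then
    S (φ₀ v.1, v.2.1, t * v.2.2.2 / v.2.1.1) else
    S (φ₁ v.1, v.2.1, -(t * v.2.2.1 / v.2.1.2)) with hC
  set C' : X' × (ℂ × ℂ) × (ℂ × ℂ) → X := fun v => if v.2.1.1 ≠ 0 then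
    ψ₀ (S (v.1, v.2.1, -(t * v.2.2.2 / v.2.1.1))) else
    ψ₁ (S (v.1, v.2.1, - -(t * v.2.2.1 / v.2.1.2))) with hC'
  have c0 : ∀ v, v.2.1.1 ≠ 0 → C v = S (φ₀ v.1, v.2.1, t * v.2.2.2 / v.2.1.1) :=
    fun v hv => if_pos hv
  have c1 : ∀ v, ¬ v.2.1.1 ≠ 0 → C v = S (φ₁ v.1, v.2.1, -(t * v.2.2.1 / v.2.1.2)) :=
    fun v hv => if_neg hv
  have d0 : ∀ v, v.2.1.1 ≠ 0 → C' v = ψ₀ (S (v.1, v.2.1, -(t * v.2.2.2 / v.2.1.1))) :=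
    fun v hv => if_pos hv
  have d1 : ∀ v, ¬ v.2.1.1 ≠ 0 → C' v = ψ₁ (S (v.1, v.2.1, - -(t * v.2.2.1 / v.2.1.2))) :=
    fun v hv => if_neg hv
  have c2 : ∀ v ∈ SL π, v.2.1.2 ≠ 0 →
      C v = S (φ₁ v.1, v.2.1, -(t * v.2.2.1 / v.2.1.2)) := by
    intro v hv p2
    by_cases p1 : v.2.1.1 ≠ 0
    · have hp' : Rep v.2.1 (π' (φ₀ v.1)) := by
        rw [i0.ov _ (n0 _ _ hv.1 p1)]
        exact hv.1
      rw [c0 v p1, key _ _ hv.1 p1 p2, hS.add _ _ _ _ hp', TwA.time t hv.2 p1 p2,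
        add_neg_cancel_right]
    · exact c1 v p1
  have d2 : ∀ v ∈ SL π', v.2.1.2 ≠ 0 →
      C' v = ψ₁ (S (v.1, v.2.1, - -(t * v.2.2.1 / v.2.1.2))) := by
    intro v hv p2
    by_cases p1 : v.2.1.1 ≠ 0
    · have e1 := hS.fib v.1 v.2.1 (-(t * v.2.2.2 / v.2.1.1)) hv.1
      have e2 : π' (S (v.1, v.2.1, -(t * v.2.2.2 / v.2.1.1))) ≠ a₀ := by
        rw [e1]
        exact n0 _ _ hv.1 p1
      have hp : Rep v.2.1 (π (ψ₀ (S (v.1, v.2.1, -(t * v.2.2.2 / v.2.1.1))))) := by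
        rw [i0.ov' _ e2, e1]
        exact hv.1
      have e3 := key _ _ hp p1 p2
      rw [i0.right _ e2, hS.add _ _ _ _ hv.1, TwA.time t hv.2 p1 p2, neg_add_cancel_left] at e3
      rw [d0 v p1, neg_neg, ← e3, i1.left _ (n1 _ _ hp p2)]
    · exact d1 v p1
  refine ⟨π, π', C, C', hπ, hπ', fun w hw => ?_, fun w hw => ?_, fun w hw => ?_, fun w hw => ?_,
    fun w hw => ?_, fun w hw => ?_⟩ <;> by_cases p1 : w.2.1.1 ≠ 0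
  · exact TwA.holA hS i0 continuous_fst n0 hw p1 (TwA.an0 t p1) fun v _ => c0 v
  · exact TwA.holA hS i1 continuous_snd n1 hw (TwA.snd_ne hw.1 p1)
      (TwA.an1 t (TwA.snd_ne hw.1 p1)) c2
  · exact TwA.holB hS i0 continuous_fst n0 hw p1 (TwA.an0 t p1).neg fun v _ => d0 v
  · exact TwA.holB hS i1 continuous_snd n1 hw (TwA.snd_ne hw.1 p1)
      (TwA.an1 t (TwA.snd_ne hw.1 p1)).neg d2
  · rw [c0 w p1]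
    exact (TwA.algA hS i0 hw.1 (n0 _ _ hw.1 p1) _).1
  · rw [c1 w p1]
    exact (TwA.algA hS i1 hw.1 (n1 _ _ hw.1 (TwA.snd_ne hw.1 p1)) _).1
  · rw [d0 w p1]
    exact (TwA.algB hS i0 hw.1 (n0 _ _ hw.1 p1) _).1
  · rw [d1 w p1]
    exact (TwA.algB hS i1 hw.1 (n1 _ _ hw.1 (TwA.snd_ne hw.1 p1)) _).1
  · rw [d0 (C w, w.2) p1, c0 w p1]
    exact (TwA.algA hS i0 hw.1 (n0 _ _ hw.1 p1) _).2
  · rw [d1 (C w, w.2) p1, c1 w p1]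
    exact (TwA.algA hS i1 hw.1 (n1 _ _ hw.1 (TwA.snd_ne hw.1 p1)) _).2
  · rw [c0 (C' w, w.2) p1, d0 w p1]
    exact (TwA.algB hS i0 hw.1 (n0 _ _ hw.1 p1) _).2
  · rw [c1 (C' w, w.2) p1, d1 w p1]
    exact (TwA.algB hS i1 hw.1 (n1 _ _ hw.1 (TwA.snd_ne hw.1 p1)) _).2

end Vale.Agent.P290
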