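import Vale.Agent.P290.Mfd
import Vale.Agent.P290.Glob

/-! Transfer of the Oka property. -/

open Set Filter Metric
open scoped Manifold ContDiff Topology

noncomputable section

namespace Vale.Agent.P290

variable {X : Type} [MetricSpace X] [ChartedSpace C2 X] [IsManifold 𝓘(ℂ, C2) ω X]
  {X' : Type} [MetricSpace X'] [ChartedSpace C2 X'] [IsManifold 𝓘(ℂ, C2) ω X']

namespace TwB

theorem diag {α β : Type} [MetricSpace α] [MetricSpace β] {Z : Set α} (hZ : IsCompact Z)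
    {r : α → β} (hr : Continuous r) {Q : α → β → Prop}
    (h : ∀ w ∈ Z, ∀ᶠ v : α × β in 𝓝 (w, r w), Q v.1 v.2) :
    ∃ δ > (0 : ℝ), ∀ w ∈ Z, ∀ x, dist x (r w) < δ → Q w x := by
  have hc : IsCompact ((fun w => (w, r w)) '' Z) := hZ.image (continuous_id.prodMk hr)
  have hn : {v : α × β | Q v.1 v.2} ∈ 𝓝ˢ ((fun w => (w, r w)) '' Z) := by
    refine mem_nhdsSet_iff_forall.2 ?_
    rintro _ ⟨w, hw, rfl⟩
    exact h w hw
  obtain ⟨δ, hδ, hs⟩ := (hasBasis_nhdsSet_thickening hc).mem_iff.1 hn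
  refine ⟨δ, hδ, fun w hw x hx => hs (a := (w, x)) ?_⟩
  refine mem_thickening_iff.2 ⟨(w, r w), ⟨w, hw, rfl⟩, ?_⟩
  rwa [dist_prod_same_left]

theorem unif {α β : Type} [MetricSpace α] [MetricSpace β] {Y Z : Set α} (hZ : IsCompact Z)
    (hs : Z ⊆ Y) {g : α → β} (hg : ContinuousOn g Y) {ε : ℝ} (hε : 0 < ε) :
    ∃ η > (0 : ℝ), ∀ w ∈ Z, ∀ w' ∈ Y, dist w' w < η → dist (g w') (g w) < ε := by
  obtain ⟨δ, hδ, h⟩ := diag hZ continuous_id
    (Q := fun w w' => w ∈ Y → w' ∈ Y → dist (g w') (g w) < ε) fun w hw => by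
      have h1 : ∀ᶠ v in 𝓝 w, v ∈ Y → dist (g v) (g w) < ε / 2 :=
        eventually_nhdsWithin_iff.1 (Metric.tendsto_nhds.1 (hg w (hs hw)) _ (half_pos hε))
      filter_upwards [(continuous_fst.tendsto (w, w)).eventually h1,
        (continuous_snd.tendsto (w, w)).eventually h1] with v e1 e2 h3 h4
      linarith [e1 h3, e2 h4, dist_triangle_right (g v.2) (g v.1) (g w)]
  exact ⟨δ, hδ, fun w hw w' hw' hd => h w hw w' hd (hs hw) hw'⟩

/-- The action of the Borel subgroup. -/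
def act (p q a : ℂ × ℂ) : (ℂ × ℂ) × (ℂ × ℂ) :=
  (Complex.exp (-a.1) • p, Complex.exp a.1 • q + a.2 • (-p.2, p.1))

theorem pr_act {p q : ℂ × ℂ} (h : pr q p = 1) (a : ℂ × ℂ) :
    pr (act p q a).2 (act p q a).1 = 1 := by
  have h1 : Complex.exp a.1 * Complex.exp (-a.1) = 1 := by
    rw [← Complex.exp_add]; simp
  simp only [pr, act, Prod.smul_fst, Prod.smul_snd, Prod.fst_add, Prod.snd_add, smul_eq_mul] at h ⊢
  linear_combination (Complex.exp a.1 * Complex.exp (-a.1)) * h + h1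

theorem act_analytic {E : Type} [NormedAddCommGroup E] [NormedSpace ℂ E] {p q a : E → ℂ × ℂ}
    {z : E} (hp : AnalyticAt ℂ p z) (hq : AnalyticAt ℂ q z) (ha : AnalyticAt ℂ a z) :
    AnalyticAt ℂ (fun w => act (p w) (q w) (a w)) z := by
  have h1 : AnalyticAt ℂ (fun w => (a w).1) z := analyticAt_fst.comp ha
  have h2 : AnalyticAt ℂ (fun w => (a w).2) z := analyticAt_snd.comp ha
  have h3 : AnalyticAt ℂ (fun w => (p w).1) z := analyticAt_fst.comp hp
  have h4 : AnalyticAt ℂ (fun w => (p w).2) z := analyticAt_snd.comp hp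
  exact (h1.neg.cexp.smul hp).prod ((h1.cexp.smul hq).add (h2.smul (h4.neg.prod h3)))

theorem act_eq {p q r t : ℂ × ℂ} {n : ℂ} (h : pr q p = 1) (h' : pr t r = 1)
    (hn : Complex.exp n = pr q r) :
    act r t (n, t.1 * (q.2 - pr q r * t.2) - t.2 * (q.1 - pr q r * t.1)) =
      (p + ((p.1 * r.2 - p.2 * r.1) / pr q r) • (-q.2, q.1), q) := by
  have h0 : pr q r ≠ 0 := hn ▸ Complex.exp_ne_zero n
  simp only [act, Complex.exp_neg, hn]
  refine Prod.ext (Prod.ext ?_ ?_) (Prod.ext ?_ ?_)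
  · simp only [Prod.smul_fst, Prod.fst_add, smul_eq_mul]
    field_simp
    simp only [pr] at h ⊢
    linear_combination (-r.1) * h
  · simp only [Prod.smul_snd, Prod.snd_add, smul_eq_mul]
    field_simp
    simp only [pr] at h ⊢
    linear_combination (-r.2) * h
  · simp only [Prod.smul_fst, Prod.fst_add, smul_eq_mul, pr] at h' ⊢
    linear_combination q.1 * h'
  · simp only [Prod.smul_snd, Prod.snd_add, smul_eq_mul, pr] at h' ⊢
    linear_combination q.2 * h'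

theorem pr_analytic {E : Type} [NormedAddCommGroup E] [NormedSpace ℂ E] {p q : E → ℂ × ℂ}
    {z : E} (hq : AnalyticAt ℂ q z) (hp : AnalyticAt ℂ p z) :
    AnalyticAt ℂ (fun w => pr (q w) (p w)) z :=
  ((analyticAt_fst.comp hq).mul (analyticAt_fst.comp hp)).add
    ((analyticAt_snd.comp hq).mul (analyticAt_snd.comp hp))

end TwB

open TwB

theorem Conv.symm {π : X → P1} {π' : X' → P1} {C : X × (ℂ × ℂ) × (ℂ × ℂ) → X'}
    {C' : X' × (ℂ × ℂ) × (ℂ × ℂ) → X} (h : Conv π π' C C') : Conv π' π C' C :=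
  ⟨h.hol', h.hol, h.ov', h.ov, h.right, h.left⟩

theorem close_rep {π : X → P1} (hπ : HolP π) {Z : Set (X × (ℂ × ℂ) × (ℂ × ℂ))} (hZ : IsCompact Z)
    (hs : Z ⊆ SL π) {ε : ℝ} (hε : 0 < ε) : ∃ δ > (0 : ℝ), ∀ w ∈ Z, ∀ x, dist x w.1 < δ →
      ∀ r, Rep r (π x) → pr w.2.2 r ≠ 0 ∧
        ‖(w.2.1.1 * r.2 - w.2.1.2 * r.1) / pr w.2.2 r‖ < ε := by
  refine diag hZ continuous_fst (Q := fun w x => ∀ r, Rep r (π x) → pr w.2.2 r ≠ 0 ∧
    ‖(w.2.1.1 * r.2 - w.2.1.2 * r.1) / pr w.2.2 r‖ < ε) fun w hw => ?_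
  obtain ⟨l, hl, hl'⟩ := hπ w.1
  obtain ⟨c, hc, hcl⟩ := (hs hw).1.ratio hl'.self_of_nhds
  have h1 : pr w.2.2 w.2.1 = 1 := (hs hw).2
  have hlc : ContinuousAt (fun v : (X × (ℂ × ℂ) × (ℂ × ℂ)) × X => l v.2) (w, w.1) :=
    ContinuousAt.comp (g := l) hl.continuousAt continuousAt_snd
  have ha : ContinuousAt (fun v : (X × (ℂ × ℂ) × (ℂ × ℂ)) × X => pr v.1.2.2 (l v.2)) (w, w.1) :=
    (continuousAt_fst.snd.snd.fst.mul hlc.fst).add (continuousAt_fst.snd.snd.snd.mul hlc.snd)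
  have ha0 : pr w.2.2 (l w.1) ≠ 0 := by
    have : pr w.2.2 (l w.1) = c := by
      simp only [pr, hcl, Prod.smul_fst, Prod.smul_snd, smul_eq_mul] at h1 ⊢
      linear_combination c * h1
    rwa [this]
  have hb : ContinuousAt (fun v : (X × (ℂ × ℂ) × (ℂ × ℂ)) × X =>
      ‖(v.1.2.1.1 * (l v.2).2 - v.1.2.1.2 * (l v.2).1) / pr v.1.2.2 (l v.2)‖) (w, w.1) :=
    (ContinuousAt.div ((continuousAt_fst.snd.fst.fst.mul hlc.snd).sub
      (continuousAt_fst.snd.fst.snd.mul hlc.fst)) ha ha0).norm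
  have hb0 : ‖(w.2.1.1 * (l w.1).2 - w.2.1.2 * (l w.1).1) / pr w.2.2 (l w.1)‖ < ε := by
    have : w.2.1.1 * (l w.1).2 - w.2.1.2 * (l w.1).1 = 0 := by
      simp only [hcl, Prod.smul_fst, Prod.smul_snd, smul_eq_mul]
      ring
    simpa [this] using hε
  filter_upwards [ha.eventually_ne ha0, hb.eventually (gt_mem_nhds hb0),
    (continuous_snd.tendsto (w, w.1)).eventually hl'] with v e1 e2 e3 r hr
  obtain ⟨d, hd, rfl⟩ := e3.ratio hr
  have e4 : pr v.1.2.2 (d • l v.2) = d * pr v.1.2.2 (l v.2) := by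
    simp only [pr, Prod.smul_fst, Prod.smul_snd, smul_eq_mul]
    ring
  have e5 : v.1.2.1.1 * (d • l v.2).2 - v.1.2.1.2 * (d • l v.2).1 =
      d * (v.1.2.1.1 * (l v.2).2 - v.1.2.1.2 * (l v.2).1) := by
    simp only [Prod.smul_fst, Prod.smul_snd, smul_eq_mul]
    ring
  rw [e4, e5, mul_div_mul_left _ _ hd]
  exact ⟨mul_ne_zero hd e1, e2⟩

theorem oka_of_conv {π : X → P1} {π' : X' → P1} (hπ : HolP π) (hπ' : HolP π')
    {C : X × (ℂ × ℂ) × (ℂ × ℂ) → X'} {C' : X' × (ℂ × ℂ) × (ℂ × ℂ) → X} (h : Conv π π' C C')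
    (hX : IsOka X') : IsOka X := by
  intro m K U f ε hne hK hc hU hKU hf hε
  have hf1 : ∀ z ∈ K, Hol f z := fun z hz => hol_of_mdiff hU hf (hKU hz)
  obtain ⟨p, hp⟩ := lift_near (G := fun z => π (f z)) hK hc fun z hz => hπ.locL (hf1 z hz)
  obtain ⟨q, hq, hq'⟩ := bez2_near hK hc hp.1 fun z hz => (hp.rep hz).ne
  have hSL : ∀ᶠ z in 𝓝ˢ K, (f z, p z, q z) ∈ SL π := (hp.2.and hq').mono fun _ hz => hz
  have hf' : ∀ z ∈ K, Hol (fun z => C (f z, p z, q z)) z := fun z hz =>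
    h.hol.comp (hf1 z hz) ((hp.1 z hz).prod (hq z hz)) (eventually_nhdsSet_iff_forall.1 hSL z hz)
  let Θ : EuclideanSpace ℂ (Fin m) → X' × (ℂ × ℂ) × (ℂ × ℂ) := fun z =>
    (C (f z, p z, q z), p z, q z)
  have hZ : IsCompact (Θ '' K) := hK.image_of_continuousOn fun z hz =>
    ((hf' z hz).cont.prodMk
      ((hp.1 z hz).continuousAt.prodMk (hq z hz).continuousAt)).continuousWithinAt
  have hΘ : ∀ z ∈ K, Θ z ∈ SL π' := fun z hz => by
    have h1 := hSL.self_of_nhdsSet z hz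
    refine ⟨?_, h1.2⟩
    show Rep (p z) (π' (C (f z, p z, q z)))
    rw [h.ov _ h1]
    exact h1.1
  have hZs : Θ '' K ⊆ SL π' := by
    rintro _ ⟨z, hz, rfl⟩
    exact hΘ z hz
  obtain ⟨η, hη, hη'⟩ := unif hZ hZs h.hol'.cont hε
  obtain ⟨M, hM⟩ := hK.exists_bound_of_continuousOn hq.continuousOn
  have hM0 : 0 < |M| + 1 := by positivity
  obtain ⟨δ, hδ, hδ'⟩ := close_rep hπ' hZ hZs (ε := η / 2 / (|M| + 1)) (by positivity)
  obtain ⟨F', hF', hF1⟩ := hX m K (interior {z | Hol (fun z => C (f z, p z, q z)) z})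
    (fun z => C (f z, p z, q z)) (min δ η) hne hK hc isOpen_interior
    (fun z hz => mem_interior_iff_mem_nhds.2 (hf' z hz).ev)
    (fun z hz => (Hol.mdiff (interior_subset hz)).mdifferentiableWithinAt) (lt_min hδ hη)
  have hF2 : ∀ z, Hol F' z := fun z =>
    hol_of_mdiff isOpen_univ hF'.mdifferentiableOn (mem_univ z)
  obtain ⟨r, hr⟩ := lift_univ (G := fun z => π' (F' z)) fun z => hπ'.locL (hF2 z)
  have hr1 : ∀ z, Rep (r z) (π' (F' z)) := fun z => hr.rep (mem_univ z)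
  obtain ⟨t, ht, ht'⟩ := bez2_univ hr.1 fun z => (hr1 z).ne
  have hcl := fun z (hz : z ∈ K) =>
    hδ' _ ⟨z, hz, rfl⟩ (F' z) ((hF1 z hz).trans_le (min_le_left _ _)) (r z) (hr1 z)
  have hν : AnalyticOnNhd ℂ (fun z => pr (q z) (r z)) K := fun z hz =>
    pr_analytic (hq z hz) (hr.1 z (mem_univ z))
  obtain ⟨n, hn, hn'⟩ := exists_log hK hc hν fun z hz => (hcl z hz).1
  let a : EuclideanSpace ℂ (Fin m) → ℂ × ℂ := fun z => (n z, (t z).1 * ((q z).2 -
    pr (q z) (r z) * (t z).2) - (t z).2 * ((q z).1 - pr (q z) (r z) * (t z).1))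
  have ha : AnalyticOnNhd ℂ a K := fun z hz => by
    have h1 := analyticAt_fst.comp (ht z (mem_univ z))
    have h2 := analyticAt_snd.comp (ht z (mem_univ z))
    exact (hn z hz).prod ((h1.mul ((analyticAt_snd.comp (hq z hz)).sub ((hν z hz).mul h2))).sub
      (h2.mul ((analyticAt_fst.comp (hq z hz)).sub ((hν z hz).mul h1))))
  have htube : ∀ᶠ b in 𝓝 (0 : ℂ × ℂ), ∀ z ∈ K,
      dist (act (r z) (t z) (a z + b)) (act (r z) (t z) (a z)) < η / 2 := by
    refine hK.eventually_forall_of_forall_eventually fun z hz => ?_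
    have h1 : AnalyticAt ℂ (fun v : (ℂ × ℂ) × EuclideanSpace ℂ (Fin m) => r v.2) (0, z) :=
      (hr.1 z (mem_univ z)).comp analyticAt_snd
    have h2 : AnalyticAt ℂ (fun v : (ℂ × ℂ) × EuclideanSpace ℂ (Fin m) => t v.2) (0, z) :=
      (ht z (mem_univ z)).comp analyticAt_snd
    have h3 : AnalyticAt ℂ (fun v : (ℂ × ℂ) × EuclideanSpace ℂ (Fin m) => a v.2) (0, z) :=
      AnalyticAt.comp (g := a) (ha z hz) analyticAt_snd
    have h4 := ((act_analytic h1 h2 (h3.add analyticAt_fst)).continuousAt).dist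
      (act_analytic h1 h2 h3).continuousAt
    exact h4.eventually (gt_mem_nhds (by simpa using hη))
  obtain ⟨θ, hθ, hθ'⟩ := Metric.eventually_nhds_iff.1 htube
  obtain ⟨g, hg, hg'⟩ := runge hK hc ha hθ
  have hmem : ∀ z, (F' z, act (r z) (t z) (g z)) ∈ SL π' := fun z =>
    ⟨(hr1 z).smul (Complex.exp_ne_zero _), pr_act (ht' z) _⟩
  refine ⟨fun z => C' (F' z, act (r z) (t z) (g z)), fun z => Hol.mdiff (h.hol'.comp (hF2 z)
    (act_analytic (hr.1 z (mem_univ z)) (ht z (mem_univ z)) (hg z (mem_univ z)))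
    (Eventually.of_forall hmem)), fun z hz => ?_⟩
  have e1 : f z = C' (Θ z) := (h.left _ (hSL.self_of_nhdsSet z hz)).symm
  rw [e1]
  refine hη' _ ⟨z, hz, rfl⟩ _ (hmem z) ?_
  rw [Prod.dist_eq]
  refine max_lt ((hF1 z hz).trans_le (min_le_right _ _)) ?_
  have e2 := hθ' (y := g z - a z) (by simpa using hg' z hz) z hz
  rw [add_sub_cancel] at e2
  have e3 : dist (act (r z) (t z) (a z)) (p z, q z) ≤ η / 2 := by
    rw [act_eq (hq'.self_of_nhdsSet z hz) (ht' z) (hn'.self_of_nhdsSet z hz), dist_prod_same_right,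
      dist_eq_norm, add_sub_cancel_left, norm_smul]
    have e4 : ‖(-(q z).2, (q z).1)‖ ≤ |M| + 1 := by
      have : ‖(-(q z).2, (q z).1)‖ = ‖q z‖ := by
        simp [Prod.norm_def, max_comm]
      linarith [hM z hz, le_abs_self M]
    calc _ ≤ η / 2 / (|M| + 1) * (|M| + 1) :=
          mul_le_mul (hcl z hz).2.le e4 (norm_nonneg _) (by positivity)
      _ = η / 2 := by field_simp
  show dist (act (r z) (t z) (g z)) (p z, q z) < η
  linarith [dist_triangle (act (r z) (t z) (g z)) (act (r z) (t z) (a z)) (p z, q z)]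

end Vale.Agent.P290
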