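import Vale.Agent.P290.Mfd

/-! The two-form of a surface of degree (2, 2, 2). -/

open Set Filter Metric
open scoped Manifold ContDiff Topology

noncomputable section

namespace Vale.Agent.P290

variable {X : Type} [TopologicalSpace X] [ChartedSpace C2 X] [IsManifold 𝓘(ℂ, C2) ω X]
  {E : Type} [NormedAddCommGroup E] [NormedSpace ℂ E] [FiniteDimensional ℂ E]
  {A : Type} [NormedAddCommGroup A] [NormedSpace ℂ A] [FiniteDimensional ℂ A]
  {σ : Form2 X}

namespace WehA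

/-- The determinant of two vectors. -/
def wd (a d : ℂ × ℂ) : ℂ := a.1 * d.2 - a.2 * d.1

/-- The differential of the projective point. -/
def al (p : X → ℂ × ℂ) (x : X) (u : C2) : ℂ := wd (p x) (dfn p x u)

/-- The cross product. -/
def cr (a b : Fin 3 → ℂ) (i : Fin 3) : ℂ := a (i + 1) * b (i + 2) - a (i + 2) * b (i + 1)

/-- The residue relation. -/
def Rel (c : Fin 3 → Fin 3 → Fin 3 → ℂ) (p : Fin 3 → X → ℂ × ℂ) (x : X)
    (B : C2 →ₗ[ℂ] C2 →ₗ[ℂ] ℂ) : Prop :=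
  ∀ u v i d, B u v * fderiv ℂ (tri c) (fun j => p j x) (Pi.single i d) =
    cr (fun j => al (p j) x u) (fun j => al (p j) x v) i * wd (p i x) d

theorem tri_an (c : Fin 3 → Fin 3 → Fin 3 → ℂ) (w : Fin 3 → ℂ × ℂ) : AnalyticAt ℂ (tri c) w := by
  have : ContDiff ℂ ω (tri c) := by
    unfold tri
    fun_prop
  exact this.contDiffAt.analyticAt

theorem tri_scale (c : Fin 3 → Fin 3 → Fin 3 → ℂ) (ν : Fin 3 → ℂ) (w : Fin 3 → ℂ × ℂ) :
    tri c (fun i => ν i • w i) = (ν 0 * ν 1 * ν 2) ^ 2 * tri c w := by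
  have h : ∀ (t a b : ℂ) (i : Fin 3), (t * a) ^ (i : ℕ) * (t * b) ^ (2 - (i : ℕ)) =
      t ^ 2 * (a ^ (i : ℕ) * b ^ (2 - (i : ℕ))) := by
    intro t a b i
    fin_cases i <;> simp <;> ring
  simp only [tri, Prod.smul_fst, Prod.smul_snd, smul_eq_mul, h, Finset.mul_sum]
  refine Finset.sum_congr rfl fun i _ => Finset.sum_congr rfl fun j _ =>
    Finset.sum_congr rfl fun k _ => ?_
  ring

theorem tri_line (c : Fin 3 → Fin 3 → Fin 3 → ℂ) (w δ : Fin 3 → ℂ × ℂ) :
    HasDerivAt (fun s : ℂ => tri c (w + s • δ)) (fderiv ℂ (tri c) w δ) 0 := by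
  have h1 : HasDerivAt (fun s : ℂ => w + s • δ) δ 0 := by
    simpa using ((hasDerivAt_id (0 : ℂ)).smul_const δ).const_add w
  have h2 : HasFDerivAt (tri c) (fderiv ℂ (tri c) w) (w + (0 : ℂ) • δ) := by
    rw [zero_smul, add_zero]
    exact (tri_an c w).differentiableAt.hasFDerivAt
  exact h2.comp_hasDerivAt (0 : ℂ) h1

theorem fd_scale (c : Fin 3 → Fin 3 → Fin 3 → ℂ) (ν : Fin 3 → ℂ) (w : Fin 3 → ℂ × ℂ) (i : Fin 3)
    (d : ℂ × ℂ) : ν i * fderiv ℂ (tri c) (fun j => ν j • w j) (Pi.single i d) =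
      (ν 0 * ν 1 * ν 2) ^ 2 * fderiv ℂ (tri c) w (Pi.single i d) := by
  have h1 := tri_line c (fun j => ν j • w j) (ν i • (Pi.single i d : Fin 3 → ℂ × ℂ))
  have h2 := (tri_line c w (Pi.single i d)).const_mul ((ν 0 * ν 1 * ν 2) ^ 2)
  have e : (fun s : ℂ => tri c ((fun j => ν j • w j) + s • ν i • (Pi.single i d : Fin 3 → ℂ × ℂ))) =
      fun s : ℂ => (ν 0 * ν 1 * ν 2) ^ 2 * tri c (w + s • (Pi.single i d : Fin 3 → ℂ × ℂ)) := by
    funext s
    rw [← tri_scale]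
    congr 1
    funext j
    by_cases hj : j = i
    · subst hj
      simp [smul_smul, mul_comm]
    · simp [Pi.single_eq_of_ne hj]
  rw [e] at h1
  rw [← h1.unique h2, map_smul, smul_eq_mul]

theorem euler (c : Fin 3 → Fin 3 → Fin 3 → ℂ) {w : Fin 3 → ℂ × ℂ} (h : tri c w = 0) {i : Fin 3}
    (hi : w i ≠ 0) : ∃ a : ℂ, ∀ d, fderiv ℂ (tri c) w (Pi.single i d) = a * wd (w i) d := by
  have h1 := tri_line c w (Pi.single i (w i))
  have e : (fun s : ℂ => tri c (w + s • (Pi.single i (w i) : Fin 3 → ℂ × ℂ))) = fun _ => 0 := by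
    funext s
    have := tri_scale c (Function.update 1 i (1 + s)) w
    rw [h, mul_zero] at this
    rw [← this]
    congr 1
    funext j
    by_cases hj : j = i
    · subst hj
      simp [add_smul]
    · simp [Pi.single_eq_of_ne hj, Function.update_of_ne hj]
  rw [e] at h1
  have h2 := h1.unique (hasDerivAt_const (0 : ℂ) (0 : ℂ))
  have h3 : ∀ d : ℂ × ℂ, fderiv ℂ (tri c) w (Pi.single i d) =
      d.1 * fderiv ℂ (tri c) w (Pi.single i (1, 0)) +
        d.2 * fderiv ℂ (tri c) w (Pi.single i (0, 1)) := by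
    intro d
    rw [← smul_eq_mul, ← smul_eq_mul d.2, ← map_smul, ← map_smul, ← map_add, ← Pi.single_smul,
      ← Pi.single_smul, ← Pi.single_add]
    simp
  rw [h3] at h2
  by_cases h0 : (w i).1 = 0
  · have h0' : (w i).2 ≠ 0 := fun h => hi (Prod.ext h0 h)
    refine ⟨-fderiv ℂ (tri c) w (Pi.single i (1, 0)) / (w i).2, fun d => ?_⟩
    rw [h3, wd]
    field_simp
    linear_combination d.2 * h2
  · refine ⟨fderiv ℂ (tri c) w (Pi.single i (0, 1)) / (w i).1, fun d => ?_⟩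
    rw [h3, wd]
    field_simp
    linear_combination d.1 * h2

theorem fd_sum (L : (Fin 3 → ℂ × ℂ) →L[ℂ] ℂ) (δ : Fin 3 → ℂ × ℂ) :
    L δ = ∑ i, L (Pi.single i (δ i)) := by
  rw [← map_sum, Finset.univ_sum_single]

theorem curve (x : X) (u : C2) : ∃ c : ℂ → X, Tendsto c (𝓝 0) (𝓝 x) ∧ c 0 = x ∧
    ∀ p : X → ℂ × ℂ, HolF p x → HasDerivAt (fun s => p (c s)) (dfn p x u) 0 := by
  obtain ⟨c, hc, rfl, hv⟩ := exists_curve x u
  refine ⟨c, hc.cont, rfl, fun p hp => ?_⟩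
  have h1 := (hp.comp hc).differentiableAt.hasDerivAt
  rwa [← fderiv_apply_one_eq_deriv, dfn_comp hp hc, ← vel, hv] at h1

theorem al_ratio {π : X → P1} {p p' : X → ℂ × ℂ} {x : X} (h : LiftAt π p x) (h' : LiftAt π p' x) :
    ∃ ν : ℂ, ν ≠ 0 ∧ p' x = ν • p x ∧ ∀ u, al p' x u = ν ^ 2 * al p x u := by
  obtain ⟨ν, hν, he⟩ := h.2.self_of_nhds.ratio h'.2.self_of_nhds
  refine ⟨ν, hν, he, fun u => ?_⟩
  obtain ⟨c, hc, h0, hd⟩ := curve x u
  have d1 := hd p h.1
  have d2 := hd p' h'.1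
  have f1 : ∀ {q : ℂ → ℂ × ℂ} {q' : ℂ × ℂ}, HasDerivAt q q' 0 →
      HasDerivAt (fun s => (q s).1) q'.1 0 := fun hq =>
    (ContinuousLinearMap.fst ℂ ℂ ℂ).hasFDerivAt.comp_hasDerivAt (0 : ℂ) hq
  have f2 : ∀ {q : ℂ → ℂ × ℂ} {q' : ℂ × ℂ}, HasDerivAt q q' 0 →
      HasDerivAt (fun s => (q s).2) q'.2 0 := fun hq =>
    (ContinuousLinearMap.snd ℂ ℂ ℂ).hasFDerivAt.comp_hasDerivAt (0 : ℂ) hq
  have d3 := (((f1 d1).fun_mul (f2 d2)).fun_sub ((f2 d1).fun_mul (f1 d2)))
  have e : (fun s => (p (c s)).1 * (p' (c s)).2 - (p (c s)).2 * (p' (c s)).1) =ᶠ[𝓝 0]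
      fun _ => (0 : ℂ) := by
    filter_upwards [hc.eventually h.2, hc.eventually h'.2] with s h1 h2
    exact sub_eq_zero.2 ((h1.eq_iff h2).1 rfl)
  have d4 := (d3.congr_of_eventuallyEq e.symm).unique (hasDerivAt_const (0 : ℂ) (0 : ℂ))
  simp only [h0, he, Prod.smul_fst, Prod.smul_snd, smul_eq_mul] at d4
  simp only [al, wd, he, Prod.smul_fst, Prod.smul_snd, smul_eq_mul]
  linear_combination ν * d4

theorem Rel.indep {c : Fin 3 → Fin 3 → Fin 3 → ℂ} {π : Fin 3 → X → P1}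
    {p p' : Fin 3 → X → ℂ × ℂ} {x : X} {B : C2 →ₗ[ℂ] C2 →ₗ[ℂ] ℂ}
    (h : ∀ i, LiftAt (π i) (p i) x) (h' : ∀ i, LiftAt (π i) (p' i) x) (hB : Rel c p x B) :
    Rel c p' x B := by
  choose ν hν he ha using fun i => al_ratio (h i) (h' i)
  intro u v i d
  have h1 := fd_scale c ν (fun j => p j x) i d
  have h2 := hB u v i d
  apply mul_left_cancel₀ (hν i)
  simp only [he, ha, cr, wd, Prod.smul_fst, Prod.smul_snd, smul_eq_mul] at h2 ⊢
  have h3 : ν 0 * ν 1 * ν 2 = ν i * ν (i + 1) * ν (i + 2) := by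
    fin_cases i <;> simp <;> ring
  rw [h3] at h1
  linear_combination B u v * h1 + (ν i * ν (i + 1) * ν (i + 2)) ^ 2 * h2

theorem cr_par {a u v : Fin 3 → ℂ} (hu : ∑ j, a j * u j = 0) (hv : ∑ j, a j * v j = 0)
    (i j : Fin 3) : cr u v i * a j = cr u v j * a i := by
  simp only [Fin.sum_univ_three] at hu hv
  fin_cases i <;> fin_cases j <;> simp [cr]
  · linear_combination v 2 * hu - u 2 * hv
  · linear_combination u 1 * hv - v 1 * hu
  · linear_combination u 2 * hv - v 2 * hu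
  · linear_combination v 0 * hu - u 0 * hv
  · linear_combination v 1 * hu - u 1 * hv
  · linear_combination u 0 * hv - v 0 * hu

theorem cr_zero {u v : Fin 3 → ℂ} (h : ∀ i, cr u v i = 0) (i j : Fin 3) :
    u i * v j - v i * u j = 0 := by
  have h0 := h 0
  have h1 := h 1
  have h2 := h 2
  simp [cr] at h0 h1 h2
  fin_cases i <;> fin_cases j <;> simp
  · ring
  · linear_combination h2
  · linear_combination -h1
  · linear_combination -h2
  · ring
  · linear_combination h0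
  · linear_combination h1
  · linear_combination -h0
  · ring

omit [IsManifold 𝓘(ℂ, C2) ω X] in
theorem al_lin (p : X → ℂ × ℂ) (x : X) (s t : ℂ) (u v : C2) :
    al p x (s • u + t • v) = s * al p x u + t * al p x v := by
  simp only [al, wd, map_add, map_smul, Prod.fst_add, Prod.snd_add, Prod.smul_fst, Prod.smul_snd,
    smul_eq_mul]
  ring

theorem exists_rel {c : Fin 3 → Fin 3 → Fin 3 → ℂ} {π : Fin 3 → X → P1}
    {p : Fin 3 → X → ℂ × ℂ} {x : X} (h : ∀ i, LiftAt (π i) (p i) x)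
    (h1 : ∀ w : Fin 3 → ℂ × ℂ, (∀ i, w i ≠ 0) → tri c w = 0 → fderiv ℂ (tri c) w ≠ 0)
    (h2 : ∀ w : Fin 3 → ℂ × ℂ, (∀ i, w i ≠ 0) → (tri c w = 0 ↔ ∃ x, ∀ i, Rep (w i) (π i x)))
    (h3 : ∀ v : C2, v ≠ 0 → ∃ i p, LiftAt (π i) p x ∧ Moves p x v) :
    (∃ i d, fderiv ℂ (tri c) (fun j => p j x) (Pi.single i d) ≠ 0) ∧
      ∃ B, Rel c p x B ∧ (∀ u, B u u = 0) ∧ B ≠ 0 := by
  have hev : ∀ᶠ y in 𝓝 x, tri c (fun j => p j y) = 0 := by
    filter_upwards [eventually_all.2 fun i => (h i).2] with y hy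
    exact (h2 _ fun i => (hy i).ne).2 ⟨y, hy⟩
  have hne : ∀ i, p i x ≠ 0 := fun i => (h i).2.self_of_nhds.ne
  have h0 := hev.self_of_nhds
  choose a ha using fun i => euler c h0 (hne i)
  have hex : ∃ i d, fderiv ℂ (tri c) (fun j => p j x) (Pi.single i d) ≠ 0 := by
    by_contra hn
    push Not at hn
    refine h1 _ hne h0 (ContinuousLinearMap.ext fun δ => ?_)
    rw [fd_sum]
    simp [hn]
  refine ⟨hex, ?_⟩
  obtain ⟨i, d, hi⟩ := hex
  have hai : a i ≠ 0 := by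
    intro h
    rw [ha, h, zero_mul] at hi
    exact hi rfl
  have hs : ∀ u, ∑ j, a j * al (p j) x u = 0 := by
    intro u
    obtain ⟨γ, hγ, hγ0, hd⟩ := curve x u
    have d1 : HasDerivAt (fun s j => p j (γ s)) (fun j => dfn (p j) x u) 0 :=
      hasDerivAt_pi.2 fun j => hd _ (h j).1
    have d2 : HasFDerivAt (tri c) (fderiv ℂ (tri c) (fun j => p j x)) (fun j => p j (γ 0)) := by
      rw [hγ0]
      exact (tri_an c _).differentiableAt.hasFDerivAt
    have d4 : HasDerivAt (fun s => tri c fun j => p j (γ s))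
        (fderiv ℂ (tri c) (fun j => p j x) fun j => dfn (p j) x u) 0 :=
      HasFDerivAt.comp_hasDerivAt (l := tri c) (f := fun s j => p j (γ s)) (0 : ℂ) d2 d1
    have d3 := (d4.congr_of_eventuallyEq
      (f₁ := fun _ => (0 : ℂ)) ((hγ.eventually hev).mono fun s hs => hs.symm)).unique
      (hasDerivAt_const (0 : ℂ) (0 : ℂ))
    rw [fd_sum] at d3
    simpa only [ha, al] using d3
  have l1 : ∀ (j : Fin 3) (u v : C2), al (p j) x (u + v) = al (p j) x u + al (p j) x v := by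
    intro j u v
    simpa using al_lin (p j) x 1 1 u v
  have l2 : ∀ (j : Fin 3) (s : ℂ) (u : C2), al (p j) x (s • u) = s * al (p j) x u := by
    intro j s u
    simpa using al_lin (p j) x s 0 u u
  refine ⟨LinearMap.mk₂ ℂ
    (fun u v => cr (fun j => al (p j) x u) (fun j => al (p j) x v) i / a i)
    (fun u u' v => by simp only [cr, l1]; ring) (fun s u v => by simp only [cr, l2, smul_eq_mul]; ring)
    (fun u v v' => by simp only [cr, l1]; ring)
    (fun s u v => by simp only [cr, l2, smul_eq_mul]; ring), ?_, ?_, ?_⟩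
  · intro u v j d
    rw [LinearMap.mk₂_apply, ha, ← mul_assoc, div_mul_eq_mul_div, cr_par (hs u) (hs v) i j,
      mul_div_cancel_right₀ _ hai]
  · intro u
    simp only [LinearMap.mk₂_apply, cr]
    ring
  · intro hB
    have inj : ∀ v : C2, v ≠ 0 → ∃ j, al (p j) x v ≠ 0 := by
      intro v hv
      obtain ⟨j, q, hq, hm⟩ := h3 v hv
      obtain ⟨ν, -, -, hν⟩ := al_ratio (h j) hq
      refine ⟨j, fun h0 => moves_iff.1 hm ?_⟩
      have := hν v
      rwa [h0, mul_zero] at this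
    set e0 : C2 := EuclideanSpace.single 0 1
    set e1 : C2 := EuclideanSpace.single 1 1
    have z1 : cr (fun j => al (p j) x e0) (fun j => al (p j) x e1) i = 0 := by
      have := LinearMap.congr_fun₂ hB e0 e1
      rw [LinearMap.mk₂_apply] at this
      simpa [hai] using this
    have z2 : ∀ j, cr (fun j => al (p j) x e0) (fun j => al (p j) x e1) j = 0 := by
      intro j
      have := cr_par (hs e0) (hs e1) i j
      rw [z1, zero_mul] at this
      exact (mul_eq_zero.1 this.symm).resolve_right hai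
    obtain ⟨j, hj⟩ := inj e0 (by simp [e0])
    obtain ⟨k, hk⟩ := inj (al (p j) x e0 • e1 + (-al (p j) x e1) • e0) (by
      intro h
      have := congrArg (fun w : C2 => w 1) h
      simp [e0, e1, hj] at this)
    apply hk
    rw [al_lin]
    linear_combination cr_zero z2 j k

end WehA

open WehA in
theorem wehler_sympl (h : IsWehler X) : ∃ σ : Form2 X, IsSympl σ := by
  obtain ⟨c, π, hπ, h1, h2, -, h3⟩ := h
  choose p hp using hπ
  choose hex B hB halt hne using fun x =>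
    exists_rel (p := fun i => p i x) (fun i => hp i x) h1 h2 (h3 x)
  refine ⟨B, halt, hne, fun x₀ u v q₀ hq₀ => ?_⟩
  set φ := (chartAt C2 x₀).symm with hφ
  obtain ⟨i, d, hi⟩ := hex (φ q₀)
  have hs : Hol φ q₀ := hol_symm x₀ hq₀
  have hP : ∀ j, AnalyticAt ℂ (fun q => p j (φ q₀) (φ q)) q₀ := fun j =>
    HolF.comp (hp j (φ q₀)).1 hs
  have hal : ∀ j (w : C2), AnalyticAt ℂ (fun q => wd (p j (φ q₀) (φ q))
      (fderiv ℂ (fun q => p j (φ q₀) (φ q)) q w)) q₀ := by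
    intro j w
    have k1 : AnalyticAt ℂ (fun q => fderiv ℂ (fun q => p j (φ q₀) (φ q)) q w) q₀ :=
      ((ContinuousLinearMap.apply ℂ (ℂ × ℂ) w).analyticAt _).comp (hP j).fderiv
    exact ((analyticAt_fst.comp (hP j)).mul (analyticAt_snd.comp k1)).sub
      ((analyticAt_snd.comp (hP j)).mul (analyticAt_fst.comp k1))
  have hD : AnalyticAt ℂ (fun q => fderiv ℂ (tri c) (fun j => p j (φ q₀) (φ q))
      (Pi.single i d)) q₀ :=
    ((ContinuousLinearMap.apply ℂ ℂ (Pi.single i d : Fin 3 → ℂ × ℂ)).analyticAt _).comp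
      ((tri_an c _).fderiv.comp (f := fun q j => p j (φ q₀) (φ q)) (analyticAt_pi_iff.2 hP))
  have hw : AnalyticAt ℂ (fun q => wd (p i (φ q₀) (φ q)) d) q₀ :=
    ((analyticAt_fst.comp (hP i)).mul analyticAt_const).sub
      ((analyticAt_snd.comp (hP i)).mul analyticAt_const)
  refine ((((((hal (i + 1) u).mul (hal (i + 2) v)).sub
    ((hal (i + 2) u).mul (hal (i + 1) v))).mul hw).div hD hi)).congr ?_
  have e1 : ∀ᶠ q in 𝓝 q₀, ∀ j, LiftAt (π j) (p j (φ q₀)) (φ q) :=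
    hs.cont.eventually (eventually_all.2 fun j =>
      (HolF.ev (hp j (φ q₀)).1).and (hp j (φ q₀)).2.eventually_nhds)
  filter_upwards [e1, hs.ev, hD.continuousAt.eventually_ne hi] with q k1 k2 k3
  have k4 := (hB (φ q)).indep (fun j => hp j (φ q)) k1 (dif φ q u) (dif φ q v) i d
  have k5 : ∀ j w, al (p j (φ q₀)) (φ q) (dif φ q w) =
      wd (p j (φ q₀) (φ q)) (fderiv ℂ (fun q => p j (φ q₀) (φ q)) q w) := by
    intro j w
    rw [al, dfn_comp (k1 j).1 k2]
  simp only [cr, k5] at k4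
  simp only [Pi.mul_apply, Pi.sub_apply, Pi.div_apply]
  rw [div_eq_iff k3]
  exact k4.symm

end Vale.Agent.P290
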