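import Vale.Agent.P290.Spr
import Vale.Agent.P290.Orb

/-! Pencils on a surface of degree (2, 2, 2). -/

open Set Filter Metric
open scoped Manifold ContDiff Topology

noncomputable section

namespace Vale.Agent.P290

variable {X : Type} [TopologicalSpace X] [ChartedSpace C2 X] [IsManifold 𝓘(ℂ, C2) ω X]
  {E : Type} [NormedAddCommGroup E] [NormedSpace ℂ E] [FiniteDimensional ℂ E]
  {A : Type} [NormedAddCommGroup A] [NormedSpace ℂ A] [FiniteDimensional ℂ A]
  {σ : Form2 X}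

theorem pencils_of_imm [T2Space X] [CompactSpace X] (hσ : IsSympl σ) {ι : Type} {π : ι → X → P1}
    (hπ : ∀ i, HolP (π i))
    (h : ∀ (x : X) (v : C2), v ≠ 0 → ∃ i p, LiftAt (π i) p x ∧ Moves p x v) : TwoPencils X := by
  intro x
  obtain ⟨i, p, hp, hm⟩ := h x (EuclideanSpace.single 0 1) (by simp)
  obtain ⟨S, hS⟩ := exists_spray hσ (hπ i)
  have hr : Rep (p x) (π i x) := hp.2.self_of_nhds
  have hu : tv S x (p x) ≠ 0 := fun h0 => by
    obtain ⟨c, hc, rfl, hv⟩ := exists_curve x (EuclideanSpace.single 0 1)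
    have h1 := hS.ham c (fun s => p (c s)) hc (HolF.comp hp.1 hc) (hc.cont.tendsto.eventually hp.2)
    rw [h0, map_zero, LinearMap.zero_apply, hp.wr hc, hv] at h1
    exact moves_iff.1 hm h1.symm
  obtain ⟨j, q, hq, hn⟩ := h x _ hu
  refine ⟨π i, π j, hπ i, hπ j, ⟨p, _, hp, hm⟩, fun hf => moves_iff.1 hn ?_⟩
  have hγ : Hol (fun s : ℂ => S (x, p x, s)) 0 := hS.hol_comp (hol_const x 0) analyticAt_const
    analyticAt_id (Eventually.of_forall fun _ => hr)
  have h0 : S (x, p x, 0) = x := hS.zero x _ hr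
  have ht : Tendsto (fun s : ℂ => S (x, p x, s)) (𝓝 0) (𝓝 x) := by
    have h1 := hγ.cont.tendsto
    rwa [h0] at h1
  have hq' : LiftAt (π j) q ((fun s : ℂ => S (x, p x, s)) 0) := by
    beta_reduce
    rwa [h0]
  have h2 := hq'.wr hγ
  have h3 := (HolF.comp (f := fun s : ℂ => S (x, p x, s)) (z := 0) hq'.1
    hγ).differentiableAt.hasDerivAt
  have h4 := ((ContinuousLinearMap.snd ℂ ℂ ℂ).hasFDerivAt.comp_hasDerivAt 0 h3).const_mul (q x).1
  have h5 := ((ContinuousLinearMap.fst ℂ ℂ ℂ).hasFDerivAt.comp_hasDerivAt 0 h3).const_mul (q x).2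
  have h6 := h4.unique (h5.congr_of_eventuallyEq (by
    filter_upwards [ht.eventually hf, ht.eventually hq.2] with s e1 e2
    refine (hq.2.self_of_nhds.eq_iff e2).1 ?_
    by_contra e3
    exact e1 ⟨hS.fib x _ s hr, fun e4 => e3 e4.symm⟩))
  simp only [wr, h0] at h2
  rw [tv, ← h2]
  exact sub_eq_zero.2 h6

end Vale.Agent.P290
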