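import Vale.Agent.P290.Fact
import Vale.Agent.P290.TwA
import Vale.Agent.P290.TwB
import Vale.Agent.P290.WehA
import Vale.Agent.P290.WehB

/-! The main theorem. -/

open Set Filter Metric
open scoped Manifold ContDiff Topology

noncomputable section

namespace Vale.Agent.P290

theorem main :
    (∀ (X : Type) [MetricSpace X] [CompactSpace X] [ChartedSpace C2 X]
      [IsManifold 𝓘(ℂ, C2) ω X], (∃ σ : Form2 X, IsSympl σ) → TwoPencils X → IsOka X) ∧
    (∀ (X X' : Type) [MetricSpace X] [CompactSpace X] [ChartedSpace C2 X]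
      [IsManifold 𝓘(ℂ, C2) ω X] [MetricSpace X'] [CompactSpace X'] [ChartedSpace C2 X']
      [IsManifold 𝓘(ℂ, C2) ω X'], Twist X X' → (IsOka X ↔ IsOka X')) ∧
    ∀ (X : Type) [MetricSpace X] [CompactSpace X] [ChartedSpace C2 X]
      [IsManifold 𝓘(ℂ, C2) ω X], IsWehler X → IsOka X := by
  refine ⟨fun X _ _ _ _ ⟨σ, hσ⟩ hX => oka_of_pencils hσ hX, fun X X' _ _ _ _ _ _ _ _ h => ?_,
    fun X _ _ _ _ h => ?_⟩
  · obtain ⟨π, π', C, C', hπ, hπ', hC⟩ := conv_of_twist h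
    exact ⟨oka_of_conv hπ' hπ hC.symm, oka_of_conv hπ hπ' hC⟩
  · obtain ⟨σ, hσ⟩ := wehler_sympl h
    obtain ⟨c, π, hπ, -, -, -, hi⟩ := h
    exact oka_of_pencils hσ (pencils_of_imm hσ hπ hi)

end Vale.Agent.P290
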