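import Vale.Agent.P290.Rep

/-! Holomorphic maps into the surface. -/

open Set Filter Metric
open scoped Manifold ContDiff Topology

noncomputable section

namespace Vale.Agent.P290

variable {X : Type} [TopologicalSpace X] [ChartedSpace C2 X] [IsManifold 𝓘(ℂ, C2) ω X]
  {E : Type} [NormedAddCommGroup E] [NormedSpace ℂ E] [FiniteDimensional ℂ E]
  {A : Type} [NormedAddCommGroup A] [NormedSpace ℂ A] [FiniteDimensional ℂ A]
  {σ : Form2 X}

variable {X' : Type} [TopologicalSpace X'] [ChartedSpace C2 X'] [IsManifold 𝓘(ℂ, C2) ω X']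

namespace Mfd

omit [FiniteDimensional ℂ A] in
theorem an {g : A → E} {z : A} (hg : AnalyticAt ℂ g z) : ContMDiffAt 𝓘(ℂ, A) 𝓘(ℂ, E) ω g z :=
  have := FiniteDimensional.complete ℂ E
  hg.contDiffAt.contMDiffAt

theorem ne0 : (ω : WithTop ℕ∞) ≠ 0 := by simp

theorem neInf : (ω : WithTop ℕ∞) ≠ ∞ := by simp

theorem chart (x₀ : X) {x : X} (hx : x ∈ (chartAt C2 x₀).source) :
    HolF (chartAt C2 x₀) x :=
  (contMDiffOn_chart x hx).contMDiffAt ((chartAt C2 x₀).open_source.mem_nhds hx)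

theorem symm (x₀ : X) {q : C2} (hq : q ∈ (chartAt C2 x₀).target) :
    Hol (chartAt C2 x₀).symm q :=
  (contMDiffOn_chart_symm q hq).contMDiffAt ((chartAt C2 x₀).open_target.mem_nhds hq)

omit [IsManifold 𝓘(ℂ, C2) ω X] [NormedSpace ℂ E] [FiniteDimensional ℂ E] in
theorem ev_eq (x₀ : X) {f : E → X} {z : E} (hf : ContinuousAt f z)
    (hz : f z ∈ (chartAt C2 x₀).source) :
    f =ᶠ[𝓝 z] fun w => (chartAt C2 x₀).symm (chartAt C2 x₀ (f w)) := by
  filter_upwards [hf.preimage_mem_nhds ((chartAt C2 x₀).open_source.mem_nhds hz)] with w hw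
  exact ((chartAt C2 x₀).left_inv hw).symm

end Mfd

theorem hol_const (x : X) (z : E) : Hol (fun _ : E => x) z := contMDiffAt_const
theorem Hol.cont {f : E → X} {z : E} (h : Hol f z) : ContinuousAt f z := h.continuousAt
theorem Hol.ev {f : E → X} {z : E} (h : Hol f z) : ∀ᶠ w in 𝓝 z, Hol f w := 
  (contMDiffAt_iff_contMDiffAt_nhds Mfd.neInf).1 h
theorem Hol.congr {f g : E → X} {z : E} (h : Hol f z) (e : g =ᶠ[𝓝 z] f) : Hol g z := 
  h.congr_of_eventuallyEq e
theorem Hol.comp {f : E → X} {g : A → E} {z : A} (h : Hol f (g z)) (hg : AnalyticAt ℂ g z) :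
    Hol (fun w => f (g w)) z := ContMDiffAt.comp z h (Mfd.an hg)
theorem Hol.mdiff {f : E → X} {z : E} (h : Hol f z) :
    MDifferentiableAt 𝓘(ℂ, E) 𝓘(ℂ, C2) f z := h.mdifferentiableAt Mfd.ne0
theorem hol_of_mdiff {f : E → X} {U : Set E} (hU : IsOpen U)
    (h : MDifferentiableOn 𝓘(ℂ, E) 𝓘(ℂ, C2) f U) {z : E} (hz : z ∈ U) : Hol f z := by
  have hd : ∀ w ∈ U, MDifferentiableAt 𝓘(ℂ, E) 𝓘(ℂ, C2) f w := fun w hw =>
    (h w hw).mdifferentiableAt (hU.mem_nhds hw)
  have hc := (hd z hz).continuousAt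
  have hs := mem_chart_source C2 (f z)
  have ha : AnalyticAt ℂ (fun w => chartAt C2 (f z) (f w)) z := by
    refine P278F.analyticAt_of_eventually ?_
    filter_upwards [hU.mem_nhds hz,
      hc.preimage_mem_nhds ((chartAt C2 (f z)).open_source.mem_nhds hs)] with w hw hw'
    exact (((Mfd.chart (f z) hw').mdifferentiableAt Mfd.ne0).comp w (hd w hw)).differentiableAt
  exact (Hol.comp (g := fun w => chartAt C2 (f z) (f w))
    (Mfd.symm (f z) ((chartAt C2 (f z)).map_source hs)) ha).congr (Mfd.ev_eq (f z) hc hs)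
theorem HolF.ev {y : X → A} {x : X} (h : HolF y x) : ∀ᶠ w in 𝓝 x, HolF y w := 
  (contMDiffAt_iff_contMDiffAt_nhds Mfd.neInf).1 h
theorem HolF.comp {y : X → A} {f : E → X} {z : E} (h : HolF y (f z)) (hf : Hol f z) :
    AnalyticAt ℂ (fun w => y (f w)) z := (ContMDiffAt.comp z h hf).contDiffAt.analyticAt
theorem HolF.post {y : X → A} {g : A → E} {x : X} (h : HolF y x) (hg : AnalyticAt ℂ g (y x)) :
    HolF (fun w => g (y w)) x := ContMDiffAt.comp x (Mfd.an hg) h
theorem HolX.comp {C : X × A → X'} {h : E → X} {g : E → A} {z : E} (hC : HolX C (h z, g z))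
    (hh : Hol h z) (hg : AnalyticAt ℂ g z) : Hol (fun w => C (h w, g w)) z := 
  ContMDiffAt.comp (g := C) (f := fun w => (h w, g w)) z hC (ContMDiffAt.prodMk hh (Mfd.an hg))
theorem RelHol.comp {C : X × A → X'} {Y : Set (X × A)} (hC : RelHol C Y) {h : E → X} {g : E → A}
    {z : E} (hh : Hol h z) (hg : AnalyticAt ℂ g z) (hY : ∀ᶠ w in 𝓝 z, (h w, g w) ∈ Y) :
    Hol (fun w => C (h w, g w)) z := by
  obtain ⟨C', h1, h2⟩ := hC _ hY.self_of_nhds
  refine (h1.comp hh hg).congr ?_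
  have ht : Tendsto (fun w => (h w, g w)) (𝓝 z) (𝓝 (h z, g z)) :=
    hh.cont.prodMk hg.continuousAt
  filter_upwards [ht.eventually h2, hY] with w h3 h4
  exact h3 h4
theorem RelHol.cont {C : X × A → X'} {Y : Set (X × A)} (hC : RelHol C Y) : ContinuousOn C Y :=
  fun w hw => by
    obtain ⟨C', h1, h2⟩ := hC w hw
    refine h1.continuousAt.continuousWithinAt.congr_of_eventuallyEq ?_ (h2.self_of_nhds hw)
    filter_upwards [mem_nhdsWithin_of_mem_nhds h2, self_mem_nhdsWithin] with v h3 h4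
    exact h3 h4
theorem HolP.locL {π : X → P1} (hπ : HolP π) {f : E → X} {z : E} (hf : Hol f z) :
    LocL (fun w => π (f w)) z := by
  obtain ⟨p, h1, h2⟩ := hπ (f z)
  exact ⟨fun w => p (f w), HolF.comp h1 hf, hf.cont.eventually h2⟩
theorem dif_congr {f g : E → X} {z : E} (e : f =ᶠ[𝓝 z] g) : dif f z = dif g z := e.mfderiv_eq
theorem dfn_congr {f g : X → E} {x : X} (e : f =ᶠ[𝓝 x] g) : dfn f x = dfn g x := e.mfderiv_eq
theorem dif_comp {f : E → X} {g : A → E} {z : A} (h : Hol f (g z)) (hg : AnalyticAt ℂ g z)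
    (u : A) : dif (fun w => f (g w)) z u = dif f (g z) (fderiv ℂ g z u) := by
  have h1 := mfderiv_comp_apply z h.mdiff ((Mfd.an hg).mdifferentiableAt Mfd.ne0) u
  rw [mfderiv_eq_fderiv] at h1
  exact h1
theorem dfn_comp {y : X → A} {f : E → X} {z : E} (h : HolF y (f z)) (hf : Hol f z) (u : E) :
    fderiv ℂ (fun w => y (f w)) z u = dfn y (f z) (dif f z u) := by
  have h1 := mfderiv_comp_apply z (h.mdifferentiableAt Mfd.ne0) hf.mdiff u
  rw [mfderiv_eq_fderiv] at h1
  exact h1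
theorem dfn_post {y : X → A} {g : A → E} {x : X} (h : HolF y x) (hg : AnalyticAt ℂ g (y x))
    (u : C2) : dfn (fun w => g (y w)) x u = fderiv ℂ g (y x) (dfn y x u) := by
  have h1 := mfderiv_comp_apply x ((Mfd.an hg).mdifferentiableAt Mfd.ne0)
    (h.mdifferentiableAt Mfd.ne0) u
  rw [mfderiv_eq_fderiv] at h1
  exact h1
theorem vel_comp {c : ℂ → X} {g : ℂ → ℂ} {g' s : ℂ} (h : Hol c (g s)) (hg : AnalyticAt ℂ g s)
    (hd : HasDerivAt g g' s) : vel (fun t => c (g t)) s = g' • vel c (g s) := by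
  unfold vel
  rw [dif_comp h hg, fderiv_apply_one_eq_deriv, hd.deriv, ← map_smul, smul_eq_mul, mul_one]
theorem dT_eq {F : E × A → X} {z : E} (h : Hol F (z, 0)) (u : A) :
    dT F z u = dif F (z, 0) (0, u) := by
  have h1 : HasFDerivAt (fun t : A => ((z, t) : E × A)) (ContinuousLinearMap.inr ℂ E A) 0 :=
    hasFDerivAt_prodMk_right z 0
  have h2 := dif_comp (f := F) (g := fun t : A => ((z, t) : E × A)) (z := 0) h
    (analyticAt_const.prod analyticAt_id) u
  rw [h1.fderiv] at h2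
  exact h2
theorem dT_vel {F : E × A → X} {z : E} (h : Hol F (z, 0)) (u : A) :
    dT F z u = vel (fun s : ℂ => F (z, s • u)) 0 := by
  have h1 : HasDerivAt (fun s : ℂ => ((z, s • u) : E × A)) (0, u) 0 := by
    have := (hasDerivAt_const (0 : ℂ) z).prodMk ((hasDerivAt_id (0 : ℂ)).smul_const u)
    rwa [one_smul] at this
  have h0 : Hol F (z, (0 : ℂ) • u) := by rwa [zero_smul]
  have h2 := dif_comp (f := F) (g := fun s : ℂ => ((z, s • u) : E × A)) (z := 0) h0
    (analyticAt_const.prod (analyticAt_id.smul analyticAt_const)) 1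
  rw [fderiv_apply_one_eq_deriv, h1.deriv, zero_smul] at h2
  rw [dT_eq h]
  exact h2.symm
theorem holF_chart (x₀ : X) {x : X} (hx : x ∈ (chartAt C2 x₀).source) :
    HolF (chartAt C2 x₀) x := Mfd.chart x₀ hx
theorem hol_symm (x₀ : X) {q : C2} (hq : q ∈ (chartAt C2 x₀).target) :
    Hol (chartAt C2 x₀).symm q := Mfd.symm x₀ hq
theorem dif_symm_bij (x₀ : X) {q : C2} (hq : q ∈ (chartAt C2 x₀).target) :
    Function.Bijective (dif (chartAt C2 x₀).symm q) := 
  (mdifferentiable_chart (I := 𝓘(ℂ, C2)) x₀).symm.mfderiv_bijective hq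
/-- The differential in a chart. -/
theorem dif_chart (x₀ : X) {f : E → X} {z : E} (hf : Hol f z) (hz : f z ∈ (chartAt C2 x₀).source)
    (u : E) : dif f z u = dif (chartAt C2 x₀).symm (chartAt C2 x₀ (f z))
      (fderiv ℂ (fun w => chartAt C2 x₀ (f w)) z u) := by
  rw [dif_congr (Mfd.ev_eq x₀ hf.cont hz)]
  exact dif_comp (g := fun w => chartAt C2 x₀ (f w)) (Mfd.symm x₀ ((chartAt C2 x₀).map_source hz))
    (HolF.comp (Mfd.chart x₀ hz) hf) u
/-- Every tangent vector is the velocity of a curve. -/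
theorem exists_curve (x : X) (v : C2) : ∃ c : ℂ → X, Hol c 0 ∧ c 0 = x ∧ vel c 0 = v := by
  have hs := mem_chart_source C2 x
  have ht := (chartAt C2 x).map_source hs
  obtain ⟨u, hu⟩ := (dif_symm_bij x ht).2 v
  have e : chartAt C2 x x + (0 : ℂ) • u = chartAt C2 x x := by rw [zero_smul, add_zero]
  have h0 : Hol (chartAt C2 x).symm (chartAt C2 x x + (0 : ℂ) • u) := by
    rw [e]
    exact hol_symm x ht
  have ha : AnalyticAt ℂ (fun s : ℂ => chartAt C2 x x + s • u) 0 :=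
    analyticAt_const.add (analyticAt_id.smul analyticAt_const)
  have h1 : HasDerivAt (fun s : ℂ => chartAt C2 x x + s • u) u 0 := by
    have := ((hasDerivAt_id (0 : ℂ)).smul_const u).const_add (chartAt C2 x x)
    rwa [one_smul] at this
  refine ⟨fun s => (chartAt C2 x).symm (chartAt C2 x x + s • u),
    Hol.comp (g := fun s : ℂ => chartAt C2 x x + s • u) (z := 0) h0 ha, ?_, ?_⟩
  · change (chartAt C2 x).symm (chartAt C2 x x + (0 : ℂ) • u) = x
    rw [e]
    exact (chartAt C2 x).left_inv hs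
  · have h2 := dif_comp (g := fun s : ℂ => chartAt C2 x x + s • u) (z := 0) h0 ha 1
    rw [fderiv_apply_one_eq_deriv, h1.deriv, e, hu] at h2
    exact h2
theorem LiftAt.wr {π : X → P1} {p : X → ℂ × ℂ} {c : ℂ → X} (hp : LiftAt π p (c 0))
    (hc : Hol c 0) : wr (fun s => p (c s)) =
      (p (c 0)).1 * (dfn p (c 0) (vel c 0)).2 - (p (c 0)).2 * (dfn p (c 0) (vel c 0)).1 := by
  have h1 := dfn_comp (y := p) hp.1 hc 1
  rw [fderiv_apply_one_eq_deriv] at h1
  unfold P290.wr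
  rw [h1]
  rfl
theorem moves_iff {p : X → ℂ × ℂ} {x : X} {v : C2} :
    Moves p x v ↔ (p x).1 * (dfn p x v).2 - (p x).2 * (dfn p x v).1 ≠ 0 := sub_ne_zero.symm

end Vale.Agent.P290
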