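import Vale.Agent.P290.Ext

/-! The patching principle on compact convex sets. -/

open Set Filter Metric
open scoped Manifold ContDiff Topology

noncomputable section

namespace Vale.Agent.P290

variable {E : Type} [NormedAddCommGroup E] [NormedSpace ℂ E] [FiniteDimensional ℂ E]

theorem Patch.bound {J : Type} [Fintype J] [DecidableEq J] (ι : E →L[ℂ] (J → ℂ)) {K : Set E}
    (hK : IsCompact K) : ∃ R : ℝ, ∀ z ∈ K, ∀ k, -R ≤ co (ι z) k ∧ co (ι z) k ≤ R := by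
  obtain ⟨R, hR⟩ := hK.exists_bound_of_continuousOn
    (f := fun z => co (ι z)) (continuous_co.comp ι.continuous).continuousOn
  exact ⟨R, fun z hz k => abs_le.1 ((norm_le_pi_norm (co (ι z)) k).trans (hR z hz))⟩

theorem Patch.fin {J : Type} [Fintype J] {K U : Set E} (ι : E →L[ℂ] (J → ℂ))
    (a b : J × Bool → ℝ) (hι : Function.Injective ι) (h1 : K ⊆ ι ⁻¹' Box a b)
    (h2 : ι ⁻¹' Box a b ⊆ U) :
    ∃ (n : ℕ) (ι : E →L[ℂ] (Fin n → ℂ)) (a b : Fin n × Bool → ℝ), Function.Injective ι ∧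
      K ⊆ ι ⁻¹' Box a b ∧ ι ⁻¹' Box a b ⊆ U := by
  let e := Fintype.equivFin J
  let ι' : E →L[ℂ] (Fin (Fintype.card J) → ℂ) :=
    ContinuousLinearMap.pi fun i => (ContinuousLinearMap.proj (e.symm i)).comp ι
  have key : ι' ⁻¹' Box (fun k => a (e.symm k.1, k.2)) (fun k => b (e.symm k.1, k.2)) =
      ι ⁻¹' Box a b := by
    ext z
    constructor
    · intro h
      refine ⟨fun k => ?_, fun k => ?_⟩
      · simpa [co, ι'] using h.1 (e k.1, k.2)
      · simpa [co, ι'] using h.2 (e k.1, k.2)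
    · intro h
      exact ⟨fun k => h.1 (e.symm k.1, k.2), fun k => h.2 (e.symm k.1, k.2)⟩
  refine ⟨_, ι', _, _, fun x y h => hι (funext fun j => ?_), key.symm ▸ h1, key.symm ▸ h2⟩
  simpa [ι'] using congrFun h (e j)

theorem sandwich {K U : Set E} (hK : IsCompact K) (hc : Convex ℝ K) (hU : U ∈ 𝓝ˢ K) :
    ∃ (n : ℕ) (ι : E →L[ℂ] (Fin n → ℂ)) (a b : Fin n × Bool → ℝ), Function.Injective ι ∧
      K ⊆ ι ⁻¹' Box a b ∧ ι ⁻¹' Box a b ⊆ U := by
  classical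
  let ι0 : E →L[ℂ] (Fin (Module.finrank ℂ E) → ℂ) := (Module.finBasis ℂ E).equivFunL
  have h0 : Function.Injective ι0 := (Module.finBasis ℂ E).equivFunL.injective
  obtain ⟨R, hR⟩ := Patch.bound ι0 hK
  have hC := isCompact_pre h0 (fun _ => -R) (fun _ => R)
  have hKU : K ⊆ interior U := subset_interior_iff_mem_nhdsSet.2 hU
  have hD := hC.diff (isOpen_interior (s := U))
  have hsep : ∀ x ∈ ι0 ⁻¹' Box (fun _ => -R) (fun _ => R) \ interior U,
      ∃ (f : E →L[ℂ] ℂ) (u : ℝ), (∀ a ∈ K, (f a).re < u) ∧ u < (f x).re := fun x hx =>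
    RCLike.geometric_hahn_banach_closed_point (𝕜 := ℂ) hc hK.isClosed fun h => hx.2 (hKU h)
  choose! f u hf1 hf2 using hsep
  obtain ⟨t, ht1, ht2⟩ := hD.elim_nhds_subcover (fun x => {y | u x < (f x y).re}) fun x hx =>
    (isOpen_lt continuous_const (Complex.continuous_re.comp (f x).continuous)).mem_nhds (hf2 x hx)
  let ι1 : E →L[ℂ] (t → ℂ) := ContinuousLinearMap.pi fun x => f x
  obtain ⟨R', hR'⟩ := Patch.bound ι1 hK
  let ι : E →L[ℂ] (Fin (Module.finrank ℂ E) ⊕ t → ℂ) := ContinuousLinearMap.pi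
    (Sum.elim (fun i => (ContinuousLinearMap.proj i).comp ι0) fun x => f x)
  refine Patch.fin ι (fun k => Sum.elim (fun _ => -R) (fun _ => -R') k.1)
    (fun k => Sum.elim (fun _ => R) (fun x => if k.2 then u x else R') k.1)
    (fun x y h => h0 (funext fun i => congrFun h (Sum.inl i))) (fun z hz => ⟨?_, ?_⟩)
    fun z hz => ?_
  · rintro ⟨i | x, c⟩
    · exact (hR z hz (i, c)).1
    · exact (hR' z hz (x, c)).1
  · rintro ⟨i | x, c⟩
    · exact (hR z hz (i, c)).2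
    · cases c
      · exact (hR' z hz (x, false)).2
      · exact (hf1 x (ht1 x x.2) z hz).le
  · by_contra hzU
    have hz1 : z ∈ ι0 ⁻¹' Box (fun _ => -R) (fun _ => R) \ interior U :=
      ⟨⟨fun k => hz.1 (Sum.inl k.1, k.2), fun k => hz.2 (Sum.inl k.1, k.2)⟩,
        fun h => hzU (interior_subset h)⟩
    obtain ⟨x, hx, hzx⟩ := mem_iUnion₂.1 (ht2 hz1)
    exact absurd (hz.2 (Sum.inr ⟨x, hx⟩, true)) (not_le.2 hzx)

theorem patch {K U : Set E} (hK : IsCompact K) (hc : Convex ℝ K) (hU : U ∈ 𝓝ˢ K)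
    (Q : Set E → Prop) (h0 : Q ∅) (loc : ∀ z ∈ U, ∃ N ∈ 𝓝 z, ∀ S ⊆ N, Q S)
    (glue : ∀ S₁ S₂, IsCompact S₁ → IsCompact S₂ → Convex ℝ S₁ → Convex ℝ S₂ → S₁ ∪ S₂ ⊆ U →
      Split S₁ S₂ → Q S₁ → Q S₂ → Q (S₁ ∪ S₂)) : ∃ P, K ⊆ P ∧ Q P := by
  obtain ⟨n, ι, a, b, hι, h1, h2⟩ := sandwich hK hc hU
  refine ⟨_, h1, bisect_pre hι Q a b h0 (fun z hz => loc z (h2 hz))
    fun a' b' k c ha hb hk1 hk2 q1 q2 => ?_⟩
  have e := box_union hk1 hk2
  have := glue _ _ (isCompact_pre hι _ _) (isCompact_pre hι _ _) (convex_pre ι _ _)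
    (convex_pre ι _ _) ?_ ((ext_all hι).split hk1 hk2) q1 q2
  · rwa [← preimage_union, e] at this
  · rw [← preimage_union, e]
    exact fun z hz => h2 ⟨ha.trans hz.1, hz.2.trans hb⟩

end Vale.Agent.P290
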