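import Vale.Agent.P290.Stmt2
import Vale.Agent.P290.Mfd

/-! Torus quotients: internal definitions. -/

open Set Filter Metric
open scoped Manifold ContDiff Topology

noncomputable section

namespace Vale.Agent.P290

variable {X : Type} [TopologicalSpace X] [ChartedSpace C2 X]
  {ι κ η : Type} [Fintype ι] [Fintype κ] [Fintype η] [DecidableEq κ]

/-- A holomorphic local section of the quotient map. -/
def Sec (Z : Set (ι → ℂ)) (ρ : (ι → ℂ) → X) (l : X → ι → ℂ) (x : X) : Prop :=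
  HolF l x ∧ ∀ᶠ y in 𝓝 x, l y ∈ Z ∧ ρ (l y) = y

/-- The action is free: each torus coordinate is a Laurent monomial in coordinate ratios. -/
def Free (d : κ → ι → ℕ) (Z : Set (ι → ℂ)) : Prop :=
  ∀ w ∈ Z, ∀ k, ∃ m : ι → ℤ, (∀ i, m i ≠ 0 → w i ≠ 0) ∧
    ∀ k', ∑ i, m i * (d k' i : ℤ) = if k' = k then 1 else 0

/-- Working form of a torus quotient. -/
structure QD (d : κ → ι → ℕ) (Z : Set (ι → ℂ)) (ρ : (ι → ℂ) → X) : Prop where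
  fib : ∀ w ∈ Z, ∀ w' ∈ Z, ρ w = ρ w' ↔ ∃ c : κ → ℂ, (∀ k, c k ≠ 0) ∧ w' = tact d c w
  ex : ∀ x, ∃ l, Sec Z ρ l x
  imm : ∀ x l, Sec Z ρ l x → ∀ v c, dfn l x v = orb d c (l x) → v = 0
  rat : ∀ x l l', Sec Z ρ l x → Sec Z ρ l' x → ∃ c : κ → ℂ, (∀ k, c k ≠ 0) ∧
    l' x = tact d c (l x) ∧ ∀ v, ∃ b, dfn l' x v = tact d c (dfn l x v) + orb d b (l' x)
  free : ∀ w ∈ Z, ∀ c, orb d c w = 0 → c = 0

/-- Homogeneous equations of Calabi-Yau type. -/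
structure Eqs (d : κ → ι → ℕ) (Z : Set (ι → ℂ)) (f : (ι → ℂ) → η → ℂ) (e : κ → η → ℕ) :
    Prop where
  an : AnalyticOnNhd ℂ f univ
  zero : ∀ w ∈ Z, f w = 0
  hom : ∀ c w, f (tact d c w) = tact e c (f w)
  surj : ∀ w ∈ Z, Function.Surjective (fderiv ℂ f w)
  cy : ∀ k, ∑ i, d k i = ∑ r, e k r
  dim : Fintype.card ι = Fintype.card κ + 2 + Fintype.card η

/-- A pencil given by two proportional pairs of forms. -/
structure Pen (d : κ → ι → ℕ) (Z : Set (ι → ℂ)) (a b : (ι → ℂ) → ℂ × ℂ) : Prop where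
  an : AnalyticOnNhd ℂ a univ
  an' : AnalyticOnNhd ℂ b univ
  hom : ∀ c w, (∀ k, c k ≠ 0) → ∃ t : ℂ, t ≠ 0 ∧ a (tact d c w) = t • a w
  hom' : ∀ c w, (∀ k, c k ≠ 0) → ∃ t : ℂ, t ≠ 0 ∧ b (tact d c w) = t • b w
  ne : ∀ w ∈ Z, a w ≠ 0 ∨ b w ≠ 0
  cross : ∀ w ∈ Z, (a w).1 * (b w).2 = (a w).2 * (b w).1

/-- The derivative of the ratio of a pair of forms. -/
def cr (a : (ι → ℂ) → ℂ × ℂ) (w ξ : ι → ℂ) : ℂ :=
  (a w).1 * (fderiv ℂ a w ξ).2 - (a w).2 * (fderiv ℂ a w ξ).1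

/-- The determinant of three blocks of vectors. -/
def det3 [DecidableEq ι] (ε : ι ≃ κ ⊕ Fin 2 ⊕ η) (o : κ → ι → ℂ) (u v : ι → ℂ) (n : η → ι → ℂ) :
    ℂ :=
  (Matrix.of fun i => Sum.elim o (Sum.elim ![u, v] n) (ε i)).det

end Vale.Agent.P290
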