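import Vale.Agent.P290.QDefs

/-! Determinants. -/

open Set Filter Metric
open scoped Manifold ContDiff Topology

noncomputable section

namespace Vale.Agent.P290

variable {ι κ η : Type} [Fintype ι] [Fintype κ] [Fintype η] [DecidableEq ι] [DecidableEq κ]
  [DecidableEq η] (ε : ι ≃ κ ⊕ Fin 2 ⊕ η)

namespace QLin

variable {S : Type} [Fintype S] [DecidableEq S] (e : ι ≃ S)

theorem mul (A : Matrix S S ℂ) (R : Matrix S ι ℂ) :
    (Matrix.of fun i => (A * R) (e i)).det = A.det * (Matrix.of fun i => R (e i)).det := by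
  rw [← Matrix.det_submatrix_equiv_self e A, ← Matrix.det_mul]
  congr 1
  ext i j
  simp only [Matrix.of_apply, Matrix.mul_apply, Matrix.submatrix_apply]
  exact (e.sum_comp fun s => A (e i) s * R s j).symm

omit [DecidableEq ι] [DecidableEq S] in
theorem vm (R : S → ι → ℂ) (c : S → ℂ) :
    Matrix.vecMul (fun i => c (e i)) (Matrix.of fun i => R (e i)) = ∑ s, c s • R s := by
  funext j
  simp only [Matrix.vecMul, dotProduct, Matrix.of_apply, Finset.sum_apply, Pi.smul_apply,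
    smul_eq_mul]
  exact e.sum_comp fun s => c s * R s j

omit [DecidableEq S] in
theorem zero_iff (R : S → ι → ℂ) :
    (Matrix.of fun i => R (e i)).det = 0 ↔ ∃ c : S → ℂ, c ≠ 0 ∧ ∑ s, c s • R s = 0 := by
  rw [← Matrix.exists_vecMul_eq_zero_iff]
  constructor
  · rintro ⟨c, hc, h⟩
    refine ⟨fun s => c (e.symm s), fun h0 => hc (funext fun i => ?_), ?_⟩
    · simpa using congrFun h0 (e i)
    · rw [← vm e, ← h]
      simp
  · rintro ⟨c, hc, h⟩
    refine ⟨fun i => c (e i), fun h0 => hc (funext fun s => ?_), by rw [vm, h]⟩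
    simpa using congrFun h0 (e.symm s)

omit [DecidableEq S] in
theorem span (R : S → ι → ℂ) (h : (Matrix.of fun i => R (e i)).det ≠ 0) (w : ι → ℂ) :
    ∃ c : S → ℂ, ∑ s, c s • R s = w := by
  obtain ⟨c, hc⟩ := Matrix.vecMul_surjective_iff_isUnit.2
    ((Matrix.isUnit_iff_isUnit_det _).2 (Ne.isUnit h)) w
  refine ⟨fun s => c (e.symm s), ?_⟩
  rw [← vm e, ← hc]
  simp

omit [Fintype ι] [DecidableEq ι] [DecidableEq κ] [DecidableEq η] in
theorem sum3 (o : κ → ι → ℂ) (u v : ι → ℂ) (n : η → ι → ℂ) (c : κ ⊕ Fin 2 ⊕ η → ℂ) :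
    ∑ s, c s • Sum.elim o (Sum.elim ![u, v] n) s =
      ∑ k, c (.inl k) • o k + c (.inr (.inl 0)) • u + c (.inr (.inl 1)) • v +
        ∑ r, c (.inr (.inr r)) • n r := by
  simp [Fintype.sum_sum_type, Fin.sum_univ_two, add_assoc]

omit [DecidableEq ι] [DecidableEq κ] [DecidableEq η] in
theorem map3 {T : (ι → ℂ) →L[ℂ] (η → ℂ)} {o : κ → ι → ℂ} {u v : ι → ℂ} (ho : ∀ k, T (o k) = 0)
    (hu : T u = 0) (hv : T v = 0) (n : η → ι → ℂ) (c : κ ⊕ Fin 2 ⊕ η → ℂ) :
    T (∑ s, c s • Sum.elim o (Sum.elim ![u, v] n) s) = ∑ r, c (.inr (.inr r)) • T (n r) := by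
  simp [sum3, ho, hu, hv]

theorem key {T : (ι → ℂ) →L[ℂ] (η → ℂ)} {o : κ → ι → ℂ} {u v : ι → ℂ} (ho : ∀ k, T (o k) = 0)
    (hu : T u = 0) (hv : T v = 0) {n0 : η → ι → ℂ} (h0 : ∀ r, T (n0 r) = Pi.single r 1)
    (n : η → ι → ℂ) :
    det3 ε o u v n = (Matrix.of fun r => T (n r)).det * det3 ε o u v n0 := by
  have h1 : ∀ c : κ ⊕ Fin 2 ⊕ η → ℂ, T (∑ s, c s • Sum.elim o (Sum.elim ![u, v] n0) s) =
      fun r => c (.inr (.inr r)) := fun c => by
    rw [map3 ho hu hv]
    funext r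
    simp [h0, Finset.sum_apply, Pi.single_apply]
  by_cases h : det3 ε o u v n0 = 0
  · rw [h, mul_zero]
    obtain ⟨c, hc, h2⟩ := (zero_iff ε _).1 h
    have h3 := h1 c
    rw [h2, map_zero] at h3
    have h4 : ∀ r, c (.inr (.inr r)) = 0 := fun r => (congrFun h3 r).symm
    refine (zero_iff ε _).2 ⟨c, hc, ?_⟩
    rw [sum3] at h2 ⊢
    simpa [h4] using h2
  · choose c hc using fun r => span ε _ h (n r)
    have h2 : ∀ r s, c r (.inr (.inr s)) = T (n r) s := fun r s => by
      rw [← hc r, h1]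
    have h3 := mul ε (Matrix.fromBlocks 1 0
      (Matrix.of (Sum.elim (fun _ _ => 0) fun r k => c r (.inl k)))
      (Matrix.fromBlocks 1 0 (Matrix.of fun r j => c r (.inr (.inl j)))
        (Matrix.of fun r => T (n r)))) (Matrix.of (Sum.elim o (Sum.elim ![u, v] n0)))
    rw [Matrix.det_fromBlocks_zero₁₂, Matrix.det_fromBlocks_zero₁₂, Matrix.det_one, Matrix.det_one,
      one_mul, one_mul] at h3
    refine Eq.trans ?_ h3
    unfold det3
    congr 1
    ext i j
    rw [Matrix.of_apply, Matrix.of_apply, Matrix.mul_apply]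
    rcases ε i with k | l | r
    · simp [Fintype.sum_sum_type, Matrix.one_apply]
    · simp [Fintype.sum_sum_type, Matrix.one_apply]
    · have h4 := congrFun (hc r) j
      rw [sum3] at h4
      simp only [Pi.add_apply, Finset.sum_apply, Pi.smul_apply, smul_eq_mul, h2] at h4
      simp [Fintype.sum_sum_type, Fin.sum_univ_two, ← h4, add_assoc]

theorem det_an {E : Type} [NormedAddCommGroup E] [NormedSpace ℂ E] {z : E}
    {M : E → S → S → ℂ} (hM : ∀ i, AnalyticAt ℂ (fun w => M w i) z) :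
    AnalyticAt ℂ (fun w => (Matrix.of (M w)).det) z := by
  simp only [Matrix.det_apply']
  refine Finset.analyticAt_fun_sum _ fun σ _ => analyticAt_const.mul
    (Finset.analyticAt_fun_prod _ fun i _ => ?_)
  exact analyticAt_pi_iff.1 (hM (σ i)) i

theorem upd (o : κ → ι → ℂ) (u v : ι → ℂ) (n : η → ι → ℂ) :
    det3 ε o u v n = ((Matrix.of fun i => Sum.elim o (Sum.elim ![0, v] n) (ε i)).updateRow
      (ε.symm (.inr (.inl 0))) u).det := by
  unfold det3
  congr 1
  ext i j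
  rw [Matrix.updateRow_apply]
  split_ifs with h
  · rw [h]
    simp
  · rw [← ε.apply_eq_iff_eq_symm_apply] at h
    rw [Matrix.of_apply, Matrix.of_apply]
    revert h
    rcases ε i with k | l | r
    · simp
    · fin_cases l <;> simp
    · simp

end QLin

theorem det3_lin (o : κ → ι → ℂ) (v : ι → ℂ) (n : η → ι → ℂ) :
    IsLinearMap ℂ fun u => det3 ε o u v n := by
  refine ⟨fun u u' => ?_, fun c u => ?_⟩
  · rw [QLin.upd, QLin.upd ε o u, QLin.upd ε o u', Matrix.det_updateRow_add]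
  · rw [QLin.upd, QLin.upd ε o u, Matrix.det_updateRow_smul, smul_eq_mul]

theorem det3_swap (o : κ → ι → ℂ) (u v : ι → ℂ) (n : η → ι → ℂ) :
    det3 ε o u v n = -det3 ε o v u n := by
  have h := Matrix.det_permute (Equiv.swap (ε.symm (.inr (.inl 0))) (ε.symm (.inr (.inl 1))))
    (Matrix.of fun i => Sum.elim o (Sum.elim ![v, u] n) (ε i))
  rw [Equiv.Perm.sign_swap (by simp)] at h
  simp only [Units.val_neg, Units.val_one, Int.cast_neg, Int.cast_one, neg_mul, one_mul] at h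
  refine Eq.trans ?_ h
  unfold det3
  congr 1
  ext i j
  obtain ⟨s, rfl⟩ := ε.symm.surjective i
  rw [Matrix.submatrix_apply, ← ε.symm.injective.map_swap]
  simp only [Matrix.of_apply, Equiv.apply_symm_apply, id]
  rcases s with k | l | r
  · rw [Equiv.swap_apply_of_ne_of_ne (by simp) (by simp)]
    simp
  · fin_cases l <;> simp
  · rw [Equiv.swap_apply_of_ne_of_ne (by simp) (by simp)]
    simp

theorem det3_add (o : κ → ι → ℂ) (u v : ι → ℂ) (n : η → ι → ℂ) (a b : κ → ℂ) :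
    det3 ε o (u + ∑ k, a k • o k) (v + ∑ k, b k • o k) n = det3 ε o u v n := by
  have h3 := QLin.mul ε (Matrix.fromBlocks 1 0
    (Matrix.of (Sum.elim ![a, b] fun _ _ => 0)) 1) (Matrix.of (Sum.elim o (Sum.elim ![u, v] n)))
  rw [Matrix.det_fromBlocks_zero₁₂, Matrix.det_one, Matrix.det_one, one_mul, one_mul] at h3
  refine Eq.trans ?_ h3
  unfold det3
  congr 1
  ext i j
  rw [Matrix.of_apply, Matrix.of_apply, Matrix.mul_apply]
  rcases ε i with k | l | r
  · simp [Fintype.sum_sum_type, Matrix.one_apply]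
  · fin_cases l <;> simp [Fintype.sum_sum_type, Matrix.one_apply, Finset.sum_apply, add_comm]
  · simp [Fintype.sum_sum_type, Matrix.one_apply]

theorem det3_scale (g : ι → ℂ) (o : κ → ι → ℂ) (u v : ι → ℂ) (n : η → ι → ℂ) :
    det3 ε (fun k => g * o k) (g * u) (g * v) (fun r => g * n r) =
      (∏ i, g i) * det3 ε o u v n := by
  unfold det3
  rw [← Matrix.det_mul_row]
  congr 1
  ext i j
  simp only [Matrix.of_apply]
  rcases ε i with k | l | r
  · simp
  · fin_cases l <;> simp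
  · simp

/-- The dependence on the normal vectors. -/
theorem det3_normal {T : (ι → ℂ) →L[ℂ] (η → ℂ)} (hT : Function.Surjective T) {o : κ → ι → ℂ}
    {u v : ι → ℂ} (ho : ∀ k, T (o k) = 0) (hu : T u = 0) (hv : T v = 0) (n n' : η → ι → ℂ) :
    det3 ε o u v n * (Matrix.of fun r => T (n' r)).det =
      det3 ε o u v n' * (Matrix.of fun r => T (n r)).det := by
  choose n0 h0 using fun r => hT (Pi.single r 1)
  rw [QLin.key ε ho hu hv h0 n, QLin.key ε ho hu hv h0 n']
  ring

theorem det3_ne {T : (ι → ℂ) →L[ℂ] (η → ℂ)} {o : κ → ι → ℂ} {u v : ι → ℂ}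
    (ho : ∀ k, T (o k) = 0) (hu : T u = 0) (hv : T v = 0) {n : η → ι → ℂ}
    (hn : (Matrix.of fun r => T (n r)).det ≠ 0)
    (hi : ∀ (c : κ → ℂ) (a b : ℂ), ∑ k, c k • o k + a • u + b • v = 0 → c = 0 ∧ a = 0 ∧ b = 0) :
    det3 ε o u v n ≠ 0 := by
  intro h
  obtain ⟨c, hc, h2⟩ := (QLin.zero_iff ε _).1 h
  have h3 := QLin.map3 ho hu hv n c
  rw [h2, map_zero] at h3
  have h4 : (fun r => c (.inr (.inr r))) = 0 := by
    by_contra h5
    exact hn ((QLin.zero_iff (Equiv.refl η) fun r => T (n r)).2 ⟨_, h5, h3.symm⟩)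
  have h5 : ∀ r, c (.inr (.inr r)) = 0 := congrFun h4
  rw [QLin.sum3] at h2
  obtain ⟨h6, h7, h8⟩ := hi (fun k => c (.inl k)) (c (.inr (.inl 0))) (c (.inr (.inl 1)))
    (by simpa [h5] using h2)
  refine hc (funext fun s => ?_)
  rcases s with k | l | r
  · exact congrFun h6 k
  · fin_cases l
    · exact h7
    · exact h8
  · exact h5 r

theorem det3_analytic {E : Type} [NormedAddCommGroup E] [NormedSpace ℂ E] {z : E}
    {o : E → κ → ι → ℂ} {u v : E → ι → ℂ} (ho : AnalyticAt ℂ o z) (hu : AnalyticAt ℂ u z)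
    (hv : AnalyticAt ℂ v z) (n : η → ι → ℂ) :
    AnalyticAt ℂ (fun w => det3 ε (o w) (u w) (v w) n) z := by
  refine QLin.det_an (M := fun w i => Sum.elim (o w) (Sum.elim ![u w, v w] n) (ε i)) fun i => ?_
  rcases ε i with k | l | r
  · exact analyticAt_pi_iff.1 ho k
  · fin_cases l
    · exact hu
    · exact hv
  · exact analyticAt_const

theorem det_analytic {E : Type} [NormedAddCommGroup E] [NormedSpace ℂ E] {z : E}
    {M : E → η → η → ℂ} (hM : AnalyticAt ℂ M z) :
    AnalyticAt ℂ (fun w => (Matrix.of (M w)).det) z := by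
  exact QLin.det_an (analyticAt_pi_iff.1 hM)

end Vale.Agent.P290
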