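import Vale.Agent.P290.QSym
import Vale.Agent.P290.WehB
import Vale.Agent.P290.Fact

/-! Pencils on torus quotients. -/

open Set Filter Metric
open scoped Manifold ContDiff Topology

noncomputable section

namespace Vale.Agent.P290

variable {X : Type} [TopologicalSpace X] [ChartedSpace C2 X] [IsManifold 𝓘(ℂ, C2) ω X]
  {ι κ η : Type} [Fintype ι] [Fintype κ] [Fintype η] [DecidableEq ι] [DecidableEq κ]
  [DecidableEq η] {d : κ → ι → ℕ} {Z : Set (ι → ℂ)} {ρ : (ι → ℂ) → X}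

theorem Sec.liftAt {π : X → P1} {a : (ι → ℂ) → ℂ × ℂ} (ha : AnalyticOnNhd ℂ a univ)
    (h : ∀ w ∈ Z, a w ≠ 0 → Rep (a w) (π (ρ w))) {l : X → ι → ℂ} {x : X} (hl : Sec Z ρ l x)
    (h0 : a (l x) ≠ 0) : LiftAt π (fun y => a (l y)) x := by
  have h1 : HolF (fun y => a (l y)) x := hl.1.post (ha _ trivial)
  refine ⟨h1, ?_⟩
  filter_upwards [hl.2, h1.continuousAt.eventually_ne h0] with y h2 h3
  simpa only [h2.2] using h _ h2.1 h3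

theorem QD.pencil (h : QD d Z ρ) {a b : (ι → ℂ) → ℂ × ℂ} (hp : Pen d Z a b) :
    ∃ π : X → P1, HolP π ∧ ∀ w ∈ Z, (a w ≠ 0 → Rep (a w) (π (ρ w))) ∧
      (b w ≠ 0 → Rep (b w) (π (ρ w))) := by
  have h1 : ∀ w ∈ Z, ∃ q : P1, (a w ≠ 0 → Rep (a w) q) ∧ (b w ≠ 0 → Rep (b w) q) := by
    intro w hw
    by_cases h0 : a w = 0
    · obtain ⟨q, hq⟩ := exists_pt ((hp.ne w hw).resolve_left fun h => h h0)
      exact ⟨q, fun h => absurd h0 h, fun _ => hq⟩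
    · obtain ⟨q, hq⟩ := exists_pt h0
      refine ⟨q, fun _ => hq, fun h2 => ?_⟩
      obtain ⟨q', hq'⟩ := exists_pt h2
      rwa [(hq.eq_iff hq').2 (hp.cross w hw)]
  choose l hl using h.ex
  choose π hπ using fun x => h1 _ (hl x).2.self_of_nhds.1
  have h2 : ∀ w ∈ Z, (a w ≠ 0 → Rep (a w) (π (ρ w))) ∧ (b w ≠ 0 → Rep (b w) (π (ρ w))) := by
    intro w hw
    obtain ⟨k1, k2⟩ := (hl (ρ w)).2.self_of_nhds
    obtain ⟨c, hc, e⟩ := (h.fib _ k1 w hw).1 k2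
    obtain ⟨t, ht, e1⟩ := hp.hom c (l (ρ w) (ρ w)) hc
    obtain ⟨t', ht', e2⟩ := hp.hom' c (l (ρ w) (ρ w)) hc
    rw [← e] at e1 e2
    rw [e1, e2]
    exact ⟨fun h0 => ((hπ _).1 (right_ne_zero_of_smul h0)).smul ht,
      fun h0 => ((hπ _).2 (right_ne_zero_of_smul h0)).smul ht'⟩
  refine ⟨π, fun x => ?_, h2⟩
  rcases hp.ne _ (hl x).2.self_of_nhds.1 with h0 | h0
  · exact ⟨_, (hl x).liftAt hp.an (fun w hw => (h2 w hw).1) h0⟩
  · exact ⟨_, (hl x).liftAt hp.an' (fun w hw => (h2 w hw).2) h0⟩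

theorem Sec.moves_iff {a : (ι → ℂ) → ℂ × ℂ} (ha : AnalyticOnNhd ℂ a univ) {l : X → ι → ℂ} {x : X}
    (hl : Sec Z ρ l x) (v : C2) :
    Moves (fun y => a (l y)) x v ↔ cr a (l x) (dfn l x v) ≠ 0 := by
  rw [P290.moves_iff, dfn_post hl.1 (ha _ trivial), cr]

theorem oka_of_quot {X : Type} [MetricSpace X] [CompactSpace X] [ChartedSpace C2 X]
    [IsManifold 𝓘(ℂ, C2) ω X] (h : IsQuot X d Z) (hfr : Free d Z) {f : (ι → ℂ) → η → ℂ}
    {e : κ → η → ℕ} (hf : Eqs d Z f e) {J : Type} {a b : J → (ι → ℂ) → ℂ × ℂ}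
    (hp : ∀ j, Pen d Z (a j) (b j))
    (imm : ∀ w ∈ Z, ∀ ξ, fderiv ℂ f w ξ = 0 → (∀ j, cr (a j) w ξ = 0 ∧ cr (b j) w ξ = 0) →
      ∃ c, ξ = orb d c w) : IsOka X := by
  obtain ⟨ρ, hq⟩ := h.qd hfr
  obtain ⟨σ, hσ⟩ := hq.sympl hf
  choose π h1 h2 using fun j => hq.pencil (hp j)
  refine oka_of_pencils hσ (pencils_of_imm hσ h1 fun x v hv => ?_)
  obtain ⟨l, hl⟩ := hq.ex x
  by_contra hne
  have key : ∀ j (g : (ι → ℂ) → ℂ × ℂ), AnalyticOnNhd ℂ g univ →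
      (∀ w ∈ Z, g w ≠ 0 → Rep (g w) (π j (ρ w))) → cr g (l x) (dfn l x v) = 0 := by
    intro j g hg hr
    by_cases h0 : g (l x) = 0
    · simp [cr, h0]
    · exact by_contra fun h3 => hne ⟨j, _, hl.liftAt hg hr h0, (hl.moves_iff hg v).2 h3⟩
  obtain ⟨c, hc⟩ := imm _ hl.2.self_of_nhds.1 _ (hf.tangent hl v) fun j =>
    ⟨key j _ (hp j).an fun w hw => (h2 j w hw).1, key j _ (hp j).an' fun w hw => (h2 j w hw).2⟩
  exact hv (hq.imm x l hl v c hc)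

end Vale.Agent.P290
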