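import Vale.Agent.P290.QDefs

/-! Local sections of a torus quotient. -/

open Set Filter Metric
open scoped Manifold ContDiff Topology

noncomputable section

namespace Vale.Agent.P290

variable {X : Type} [TopologicalSpace X] [ChartedSpace C2 X] [IsManifold 𝓘(ℂ, C2) ω X]
  {ι κ η : Type} [Fintype ι] [Fintype κ] [Fintype η] [DecidableEq ι] [DecidableEq κ]
  [DecidableEq η] {d : κ → ι → ℕ} {Z : Set (ι → ℂ)} {ρ : (ι → ℂ) → X}

namespace QRat

theorem der_prod {C : ℂ → κ → ℂ} {C' : κ → ℂ} (hC : ∀ k, HasDerivAt (fun s => C s k) (C' k) 0)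
    (h0 : ∀ k, C 0 k ≠ 0) (n : κ → ℕ) (t : Finset κ) :
    HasDerivAt (fun s => ∏ k ∈ t, C s k ^ n k)
      ((∑ k ∈ t, C' k / C 0 k * (n k : ℂ)) * ∏ k ∈ t, C 0 k ^ n k) 0 := by
  induction t using Finset.induction_on with
  | empty => simpa using hasDerivAt_const (0 : ℂ) (1 : ℂ)
  | insert j t hj ih =>
    simp only [Finset.prod_insert hj, Finset.sum_insert hj]
    refine (((hC j).fun_pow (n j)).fun_mul ih).congr_deriv ?_
    have h1 := h0 j
    rcases n j with _ | m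
    · simp
    · rw [Nat.add_sub_cancel]
      field_simp
      ring

theorem der {C : ℂ → κ → ℂ} {C' : κ → ℂ} {a : ℂ → ι → ℂ} {a' : ι → ℂ}
    (hC : ∀ k, HasDerivAt (fun s => C s k) (C' k) 0) (h0 : ∀ k, C 0 k ≠ 0)
    (ha : HasDerivAt a a' 0) : HasDerivAt (fun s => tact d (C s) (a s))
      (tact d (C 0) a' + orb d (fun k => C' k / C 0 k) (tact d (C 0) (a 0))) 0 := by
  refine hasDerivAt_pi.2 fun i => ?_
  refine ((der_prod hC h0 (fun k => d k i) Finset.univ).fun_mul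
    (hasDerivAt_pi.1 ha i)).congr_deriv ?_
  simp only [Pi.add_apply, tact, orb]
  ring

theorem mono {m : ι → ℤ} {k : κ} {c : κ → ℂ} {w : ι → ℂ} (hc : ∀ k, c k ≠ 0)
    (hw : ∀ i, m i ≠ 0 → w i ≠ 0)
    (hm : ∀ k', ∑ i, m i * (d k' i : ℤ) = if k' = k then 1 else 0) :
    ∏ i, (tact d c w i / w i) ^ m i = c k := by
  have e1 : ∀ i, (tact d c w i / w i) ^ m i = ∏ k', c k' ^ (m i * (d k' i : ℤ)) := fun i => by
    by_cases h : m i = 0
    · simp [h]
    · rw [tact, mul_div_cancel_right₀ _ (hw i h), ← Finset.prod_zpow]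
      exact Finset.prod_congr rfl fun k' _ => by rw [mul_comm, zpow_mul, zpow_natCast]
  have e2 : ∀ (k' : κ) (t : Finset ι), ∏ i ∈ t, c k' ^ (m i * (d k' i : ℤ)) =
      c k' ^ ∑ i ∈ t, m i * (d k' i : ℤ) := fun k' t => by
    induction t using Finset.induction_on with
    | empty => simp
    | insert j t hj ih => rw [Finset.prod_insert hj, Finset.sum_insert hj, zpow_add₀ (hc k'), ih]
  rw [Finset.prod_congr rfl fun i _ => e1 i, Finset.prod_comm]
  simp only [e2, hm]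
  rw [Finset.prod_eq_single k (fun j _ hj => by simp [hj]) (by simp)]
  simp

theorem curve {l : X → ι → ℂ} {γ : ℂ → X} (hl : HolF l (γ 0)) (hγ : Hol γ 0) :
    HasDerivAt (fun s => l (γ s)) (dfn l (γ 0) (vel γ 0)) 0 := by
  have h := (hl.comp hγ).differentiableAt.hasDerivAt
  rwa [← fderiv_apply_one_eq_deriv, dfn_comp hl hγ] at h

theorem rat (hf : Free d Z)
    (fib : ∀ w ∈ Z, ∀ w' ∈ Z, ρ w = ρ w' ↔ ∃ c : κ → ℂ, (∀ k, c k ≠ 0) ∧ w' = tact d c w)
    {x : X} {l l' : X → ι → ℂ} (hl : Sec Z ρ l x) (hl' : Sec Z ρ l' x) :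
    ∃ c : κ → ℂ, (∀ k, c k ≠ 0) ∧ l' x = tact d c (l x) ∧
      ∀ v, ∃ b, dfn l' x v = tact d c (dfn l x v) + orb d b (l' x) := by
  have hev : ∀ᶠ y in 𝓝 x, ∃ c : κ → ℂ, (∀ k, c k ≠ 0) ∧ l' y = tact d c (l y) := by
    filter_upwards [hl.2, hl'.2] with y h1 h2
    exact (fib _ h1.1 _ h2.1).1 (h1.2.trans h2.2.symm)
  obtain ⟨c, hc, hx⟩ := hev.self_of_nhds
  refine ⟨c, hc, hx, fun v => ?_⟩
  obtain ⟨γ, hγ, rfl, rfl⟩ := exists_curve x v
  choose m hm1 hm2 using hf _ hl.2.self_of_nhds.1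
  have h1 := curve hl.1 hγ
  have h2 := curve hl'.1 hγ
  let C : ℂ → κ → ℂ := fun s k => ∏ i, (l' (γ s) i / l (γ s) i) ^ m k i
  have hC0 : C 0 = c := funext fun k => by
    simp only [C]
    rw [hx]
    exact mono hc (hm1 k) (hm2 k)
  have hC : ∀ k, DifferentiableAt ℂ (fun s => C s k) 0 := fun k => by
    refine DifferentiableAt.fun_finsetProd fun i _ => ?_
    by_cases h : m k i = 0
    · simp [h]
    · refine ((hasDerivAt_pi.1 h2 i).differentiableAt.div (hasDerivAt_pi.1 h1 i).differentiableAt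
        (hm1 k i h)).zpow (Or.inl (div_ne_zero ?_ (hm1 k i h)))
      exact (congrFun hx i).trans_ne
        (mul_ne_zero (Finset.prod_ne_zero_iff.2 fun j _ => pow_ne_zero _ (hc j)) (hm1 k i h))
  have hne : ∀ᶠ s in 𝓝 (0 : ℂ), ∀ i, l (γ 0) i ≠ 0 → l (γ s) i ≠ 0 := eventually_all.2 fun i => by
    by_cases h : l (γ 0) i = 0
    · exact Eventually.of_forall fun _ h' => absurd h h'
    · exact ((hasDerivAt_pi.1 h1 i).continuousAt.eventually_ne h).mono fun _ h' _ => h'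
  have he : (fun s => l' (γ s)) =ᶠ[𝓝 0] fun s => tact d (C s) (l (γ s)) := by
    filter_upwards [hγ.cont.eventually hev, hne] with s ⟨c', hc', h3⟩ h4
    have h5 : C s = c' := funext fun k => by
      simp only [C]
      rw [h3]
      exact mono hc' (fun i hi => h4 i (hm1 k i hi)) (hm2 k)
    rw [h5, h3]
  have h3 := (der (d := d) (fun k => (hC k).hasDerivAt) (by rw [hC0]; exact hc)
    h1).congr_of_eventuallyEq he
  rw [hC0, ← hx] at h3
  exact ⟨_, h2.unique h3⟩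

theorem free (hf : Free d Z) {w : ι → ℂ} (hw : w ∈ Z) {c : κ → ℂ} (h : orb d c w = 0) :
    c = 0 := by
  funext k
  obtain ⟨m, h1, h2⟩ := hf w hw k
  have e1 : ∑ i, (m i : ℂ) * ∑ k', c k' * (d k' i : ℂ) = 0 := Finset.sum_eq_zero fun i _ => by
    by_cases h3 : m i = 0
    · simp [h3]
    · rw [(mul_eq_zero.1 (congrFun h i)).resolve_right (h1 i h3), mul_zero]
  have e2 : ∀ k', ∑ i, (m i : ℂ) * (c k' * (d k' i : ℂ)) = c k' * if k' = k then 1 else 0 :=
    fun k' => by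
      have h3 := congrArg (Int.cast : ℤ → ℂ) (h2 k')
      push_cast at h3
      rw [← h3, Finset.mul_sum]
      exact Finset.sum_congr rfl fun i _ => by ring
  simp only [Finset.mul_sum] at e1
  rw [Finset.sum_comm] at e1
  simpa [e2] using e1

end QRat

theorem Sec.ev {l : X → ι → ℂ} {x : X} (h : Sec Z ρ l x) : ∀ᶠ y in 𝓝 x, Sec Z ρ l y :=
  h.1.ev.and h.2.eventually_nhds

theorem IsQuot.qd (h : IsQuot X d Z) (hf : Free d Z) : ∃ ρ : (ι → ℂ) → X, QD d Z ρ := by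
  obtain ⟨ρ, fib, h⟩ := h
  refine ⟨ρ, fib, fun x => (h x).imp fun l hl => ⟨hl.1, hl.2.1⟩, fun x l hl v c hv => ?_,
    fun x l l' => QRat.rat hf fib, fun w hw c => QRat.free hf hw⟩
  obtain ⟨l₀, h1, h2, h3⟩ := h x
  obtain ⟨c', hc', h4, h5⟩ := QRat.rat hf fib ⟨h1, h2⟩ hl
  obtain ⟨b, hb⟩ := h5 v
  refine h3 v (c - b) (funext fun i => ?_)
  have h6 := congrFun (hv.symm.trans hb) i
  rw [h4] at h6
  have h7 : ∏ k, c' k ^ d k i ≠ 0 := Finset.prod_ne_zero_iff.2 fun j _ => pow_ne_zero _ (hc' j)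
  refine mul_left_cancel₀ h7 ?_
  change _ * dfn l₀ x v i = _
  simp only [Pi.add_apply, tact, orb, Pi.sub_apply, sub_mul, Finset.sum_sub_distrib] at h6 ⊢
  linear_combination -h6

theorem Eqs.euler {f : (ι → ℂ) → η → ℂ} {e : κ → η → ℕ} (hf : Eqs d Z f e) {w : ι → ℂ}
    (hw : w ∈ Z) (c : κ → ℂ) : fderiv ℂ f w (orb d c w) = 0 := by
  have hC : ∀ k, HasDerivAt (fun s : ℂ => 1 + s * c k) (c k) 0 := fun k => by
    simpa using ((hasDerivAt_id (0 : ℂ)).mul_const (c k)).const_add 1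
  have h1 := QRat.der (d := d) (C := fun s k => 1 + s * c k) hC (fun k => by simp)
    (hasDerivAt_const 0 w)
  have e1 : ∀ u : ι → ℂ, tact d (fun k => 1 + 0 * c k) u = u := fun u => by
    funext i
    simp [tact]
  simp only [e1, zero_add] at h1
  simp only [zero_mul, add_zero, div_one] at h1
  have h2 := (hf.an w trivial).differentiableAt.hasFDerivAt.comp_hasDerivAt_of_eq 0 h1
    (e1 w).symm
  have e2 : (f ∘ fun s : ℂ => tact d (fun k => 1 + s * c k) w) = fun _ => 0 := by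
    funext s i
    simp [hf.hom, hf.zero w hw, tact]
  rw [e2] at h2
  exact h2.unique (hasDerivAt_const _ _)

theorem Eqs.fderiv_tact {f : (ι → ℂ) → η → ℂ} {e : κ → η → ℕ} (hf : Eqs d Z f e) (c : κ → ℂ)
    (w ξ : ι → ℂ) : fderiv ℂ f (tact d c w) (tact d c ξ) = tact e c (fderiv ℂ f w ξ) := by
  let L := ContinuousLinearMap.mul ℂ (ι → ℂ) fun i => ∏ k, c k ^ d k i
  let L' := ContinuousLinearMap.mul ℂ (η → ℂ) fun i => ∏ k, c k ^ e k i
  have h1 : HasFDerivAt (f ∘ L) ((fderiv ℂ f (L w)).comp L) w :=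
    (hf.an _ trivial).differentiableAt.hasFDerivAt.comp w L.hasFDerivAt
  have h2 : HasFDerivAt (L' ∘ f) (L'.comp (fderiv ℂ f w)) w :=
    L'.hasFDerivAt.comp w (hf.an _ trivial).differentiableAt.hasFDerivAt
  have e1 : f ∘ L = L' ∘ f := funext fun u => hf.hom c u
  rw [e1] at h1
  exact congrArg (fun T : (ι → ℂ) →L[ℂ] η → ℂ => T ξ) (h1.unique h2)

theorem Eqs.tangent {f : (ι → ℂ) → η → ℂ} {e : κ → η → ℕ} (hf : Eqs d Z f e) {l : X → ι → ℂ}
    {x : X} (hl : Sec Z ρ l x) (v : C2) : fderiv ℂ f (l x) (dfn l x v) = 0 := by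
  have e1 : (fun y => f (l y)) =ᶠ[𝓝 x] fun _ => 0 := hl.2.mono fun y hy => hf.zero _ hy.1
  rw [← dfn_post hl.1 (hf.an _ trivial), dfn_congr e1, dfn, mfderiv_const]
  rfl

end Vale.Agent.P290
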