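import Vale.Agent.P290.QRat
import Vale.Agent.P290.QLin

/-! The residue form. -/

open Set Filter Metric
open scoped Manifold ContDiff Topology

noncomputable section

namespace Vale.Agent.P290

variable {X : Type} [TopologicalSpace X] [ChartedSpace C2 X] [IsManifold 𝓘(ℂ, C2) ω X]
  {ι κ η : Type} [Fintype ι] [Fintype κ] [Fintype η] [DecidableEq ι] [DecidableEq κ]
  [DecidableEq η] {d : κ → ι → ℕ} {Z : Set (ι → ℂ)} {ρ : (ι → ℂ) → X}

namespace QSym

/-- the generators of the orbit directions -/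
def ov (d : κ → ι → ℕ) (w : ι → ℂ) (k : κ) : ι → ℂ := fun i => d k i * w i

/-- the determinant of the normal vectors -/
def dt (f : (ι → ℂ) → η → ℂ) (w : ι → ℂ) (n : η → ι → ℂ) : ℂ :=
  (Matrix.of fun r => fderiv ℂ f w (n r)).det

omit [Fintype ι] [DecidableEq ι] [DecidableEq κ] in
theorem orb_eq (c : κ → ℂ) (w : ι → ℂ) : orb d c w = ∑ k, c k • ov d w k := by
  funext i
  simp only [orb, ov, Finset.sum_apply, Pi.smul_apply, smul_eq_mul, Finset.sum_mul, mul_assoc]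

variable {f : (ι → ℂ) → η → ℂ} {e : κ → η → ℕ} {l l' : X → ι → ℂ} {x : X}

theorem ker_ov (hf : Eqs d Z f e) {w : ι → ℂ} (hw : w ∈ Z) (k : κ) :
    fderiv ℂ f w (ov d w k) = 0 := by
  have h := hf.euler hw (Pi.single k 1)
  rwa [orb_eq, Finset.sum_eq_single k (fun j _ hj => by simp [hj]) (by simp), Pi.single_eq_same,
    one_smul] at h

theorem key (h : QD d Z ρ) (hf : Eqs d Z f e) (ε : ι ≃ κ ⊕ Fin 2 ⊕ η) (hl : Sec Z ρ l x)
    (hl' : Sec Z ρ l' x) (u v : C2) (n n' : η → ι → ℂ) :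
    det3 ε (ov d (l x)) (dfn l x u) (dfn l x v) n * dt f (l' x) n' =
      det3 ε (ov d (l' x)) (dfn l' x u) (dfn l' x v) n' * dt f (l x) n := by
  obtain ⟨c, hc, h1, h2⟩ := h.rat x l l' hl hl'
  obtain ⟨a, ha⟩ := h2 u
  obtain ⟨b, hb⟩ := h2 v
  obtain ⟨g, hg⟩ : ∃ g : ι → ℂ, g = fun i => ∏ k, c k ^ d k i := ⟨_, rfl⟩
  have g0 : ∀ i, g i ≠ 0 := fun i => by
    rw [hg]; exact Finset.prod_ne_zero_iff.2 fun k _ => pow_ne_zero _ (hc k)
  have g1 : ∀ w, tact d c w = g * w := fun w => by rw [hg]; rfl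
  obtain ⟨m, rfl⟩ : ∃ m : η → ι → ℂ, n' = fun r => g * m r :=
    ⟨fun r i => (g i)⁻¹ * n' r i, funext fun r => funext fun i =>
      (mul_inv_cancel_left₀ (g0 i) _).symm⟩
  have g2 : ov d (l' x) = fun k => g * ov d (l x) k := by
    funext k i
    rw [h1, g1, ov, Pi.mul_apply, Pi.mul_apply, ov, mul_left_comm]
  have g3 : ∏ i, g i = ∏ r, ∏ k, c k ^ e k r := by
    rw [hg, Finset.prod_comm, Finset.prod_comm (f := fun r k => c k ^ e k r)]
    exact Finset.prod_congr rfl fun k _ => by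
      rw [Finset.prod_pow_eq_pow_sum, Finset.prod_pow_eq_pow_sum, hf.cy]
  have g4 : dt f (l' x) (fun r => g * m r) = (∏ i, g i) * dt f (l x) m := by
    rw [dt, dt, g3, ← Matrix.det_mul_row, h1]
    simp only [← g1, hf.fderiv_tact]
    rfl
  have hx := hl.2.self_of_nhds.1
  have g5 := det3_normal ε (hf.surj _ hx) (ker_ov hf hx) (hf.tangent hl u) (hf.tangent hl v) n m
  rw [ha, hb, orb_eq, orb_eq, det3_add, g4, g2, g1, g1, det3_scale, dt, dt]
  linear_combination (∏ i, g i) * g5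

/-- the form given by a section and normal vectors -/
def fm (ε : ι ≃ κ ⊕ Fin 2 ⊕ η) (o : κ → ι → ℂ) (L : C2 →L[ℂ] ι → ℂ) (n : η → ι → ℂ) :
    C2 →ₗ[ℂ] C2 →ₗ[ℂ] ℂ :=
  LinearMap.mk₂ ℂ (fun u v => det3 ε o (L u) (L v) n)
    (fun u u' v => by rw [map_add, (det3_lin ε o _ n).map_add])
    (fun c u v => by rw [map_smul, (det3_lin ε o _ n).map_smul])
    (fun u v v' => by
      rw [map_add, det3_swap, (det3_lin ε o _ n).map_add, det3_swap ε o (L u), det3_swap ε o (L u),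
        neg_add])
    (fun c u v => by
      rw [map_smul, det3_swap, (det3_lin ε o _ n).map_smul, det3_swap ε o (L u), smul_neg])

theorem ne (h : QD d Z ρ) (hf : Eqs d Z f e) (ε : ι ≃ κ ⊕ Fin 2 ⊕ η) (hl : Sec Z ρ l x)
    {n : η → ι → ℂ} (hn : dt f (l x) n ≠ 0) :
    det3 ε (ov d (l x)) (dfn l x (EuclideanSpace.single 0 1)) (dfn l x (EuclideanSpace.single 1 1))
      n ≠ 0 := by
  have hx := hl.2.self_of_nhds.1
  refine det3_ne ε (ker_ov hf hx) (hf.tangent hl _) (hf.tangent hl _) hn fun c a b h0 => ?_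
  have h1 := h.imm x l hl (a • EuclideanSpace.single 0 1 + b • EuclideanSpace.single 1 1) (-c) (by
    rw [orb_eq, map_add, map_smul, map_smul]
    simp only [Pi.neg_apply, neg_smul, Finset.sum_neg_distrib]
    rw [eq_neg_iff_add_eq_zero, ← h0]
    abel)
  have ha : a = 0 := by simpa using congrArg (fun v : C2 => v 0) h1
  have hb : b = 0 := by simpa using congrArg (fun v : C2 => v 1) h1
  rw [ha, hb, zero_smul, zero_smul, add_zero, add_zero, ← orb_eq] at h0
  exact ⟨h.free _ hx c h0, ha, hb⟩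

end QSym

open QSym in
theorem QD.sympl (h : QD d Z ρ) {f : (ι → ℂ) → η → ℂ} {e : κ → η → ℕ} (hf : Eqs d Z f e) :
    ∃ σ : Form2 X, IsSympl σ := by
  have ε : ι ≃ κ ⊕ Fin 2 ⊕ η := Fintype.equivOfCardEq (by simp [hf.dim, add_assoc])
  choose l hl using h.ex
  choose n hn using fun x r => hf.surj _ (hl x).2.self_of_nhds.1 (Pi.single r 1)
  have h1 : ∀ x, dt f (l x x) (n x) = 1 := fun x => by
    rw [dt, ← Matrix.det_one (n := η)]
    congr 1
    ext r s
    simp [hn, Matrix.one_apply, Pi.single_apply, eq_comm]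
  let σ : X → C2 →ₗ[ℂ] C2 →ₗ[ℂ] ℂ := fun x => fm ε (ov d (l x x)) (dfn (l x) x) (n x)
  have h2 : ∀ x u v, σ x u v = det3 ε (ov d (l x x)) (dfn (l x) x u) (dfn (l x) x v) (n x) :=
    fun _ _ _ => rfl
  refine ⟨σ, fun x u => ?_, fun x h0 => ?_, fun x₀ u v q₀ hq => ?_⟩
  · exact (h2 x u u).trans (self_eq_neg.1 (det3_swap ε _ _ _ _))
  · refine QSym.ne h hf ε (hl x) (by rw [h1]; exact one_ne_zero) ?_
    have h3 : σ x = 0 := h0
    rw [← h2, h3]
    rfl
  · obtain ⟨x, hx⟩ : ∃ x, x = (chartAt C2 x₀).symm q₀ := ⟨_, rfl⟩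
    have s0 := hol_symm x₀ hq
    have s1 : Sec Z ρ (l x) ((chartAt C2 x₀).symm q₀) := hx ▸ hl x
    have a1 := s1.1.comp s0
    have a2 : AnalyticAt ℂ (fun q => dt f (l x ((chartAt C2 x₀).symm q)) (n x)) q₀ :=
      det_analytic (analyticAt_pi_iff.2 fun r =>
        ((ContinuousLinearMap.apply ℂ (η → ℂ) (n x r)).analyticAt _).comp
          ((hf.an _ (mem_univ _)).fderiv.comp a1))
    have a3 : ∀ w : C2, AnalyticAt ℂ
        (fun q => fderiv ℂ (fun q => l x ((chartAt C2 x₀).symm q)) q w) q₀ := fun w =>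
      ((ContinuousLinearMap.apply ℂ (ι → ℂ) w).analyticAt _).comp a1.fderiv
    have a4 : AnalyticAt ℂ (fun q => ov d (l x ((chartAt C2 x₀).symm q))) q₀ :=
      analyticAt_pi_iff.2 fun k => analyticAt_pi_iff.2 fun i =>
        analyticAt_const.mul (analyticAt_pi_iff.1 a1 i)
    have a5 : dt f (l x ((chartAt C2 x₀).symm q₀)) (n x) ≠ 0 := by
      rw [← hx, h1]; exact one_ne_zero
    refine ((det3_analytic ε a4 (a3 u) (a3 v) (n x)).div a2 a5).congr ?_
    filter_upwards [s0.ev, s0.cont.eventually s1.ev, a2.continuousAt.eventually_ne a5]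
      with q k1 k2 k3
    have k4 := key h hf ε (hl _) k2 (dif (chartAt C2 x₀).symm q u) (dif (chartAt C2 x₀).symm q v)
      (n ((chartAt C2 x₀).symm q)) (n x)
    rw [h1, mul_one, ← h2, ← dfn_comp k2.1 k1, ← dfn_comp k2.1 k1] at k4
    exact (div_eq_iff k3).2 k4.symm

end Vale.Agent.P290
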