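import Vale.Agent.P290.Defs

/-! The Cauchy formula for a rectangle. -/

open Set Filter Metric
open scoped Manifold ContDiff Topology

noncomputable section

namespace Vale.Agent.P290

theorem Rect.ftc {γ : ℝ → ℂ} {v : ℂ} {a b : ℝ} (hγ : ∀ t, HasDerivAt γ v t)
    (hs : ∀ t, γ t ∈ Complex.slitPlane) :
    v * ∫ t in a..b, (γ t)⁻¹ = Complex.log (γ b) - Complex.log (γ a) := by
  have hc : Continuous γ := continuous_iff_continuousAt.2 fun t => (hγ t).continuousAt
  have h1 : Continuous fun t => v / γ t :=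
    continuous_const.div hc fun t => Complex.slitPlane_ne_zero (hs t)
  rw [← intervalIntegral.integral_eq_sub_of_hasDerivAt (fun t _ => (hγ t).clog_real (hs t))
    (h1.intervalIntegrable a b), ← intervalIntegral.integral_const_mul]
  rfl

theorem Rect.log_pos {w : ℂ} (h : 0 < w.im) :
    Complex.log w - Complex.log (-w) = Real.pi * Complex.I := by
  unfold Complex.log
  rw [Complex.arg_neg_eq_arg_sub_pi_of_im_pos h, norm_neg]
  push_cast
  ring

theorem Rect.split {f : ℂ → ℂ} {z : ℂ} {γ : ℝ → ℂ} {a b : ℝ} (hγ : Continuous γ)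
    (hz : ∀ t, γ t ≠ z) (hf : ∀ t ∈ uIcc a b, AnalyticAt ℂ f (γ t)) :
    ∫ t in a..b, f (γ t) / (γ t - z) =
      (∫ t in a..b, dslope f z (γ t)) + f z * ∫ t in a..b, (γ t - z)⁻¹ := by
  have h1 : Continuous fun t => (γ t - z)⁻¹ :=
    (hγ.sub continuous_const).inv₀ fun t => sub_ne_zero.2 (hz t)
  have h2 : ContinuousOn (fun t => dslope f z (γ t)) (uIcc a b) := fun t ht =>
    (((continuousAt_dslope_of_ne (hz t)).2 (hf t ht).continuousAt).comp
      hγ.continuousAt).continuousWithinAt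
  rw [← intervalIntegral.integral_const_mul, ← intervalIntegral.integral_add h2.intervalIntegrable
    ((h1.const_mul (f z)).intervalIntegrable a b)]
  refine intervalIntegral.integral_congr fun t _ => ?_
  simp only [dslope_of_ne f (hz t), slope_def_field]
  ring

theorem cauchy_rect {f : ℂ → ℂ} {x₀ x₁ y₀ y₁ : ℝ}
    (hf : ∀ ζ : ℂ, ζ.re ∈ Icc x₀ x₁ → ζ.im ∈ Icc y₀ y₁ → AnalyticAt ℂ f ζ) {z : ℂ}
    (hx : z.re ∈ Ioo x₀ x₁) (hy : z.im ∈ Ioo y₀ y₁) :
    2 * Real.pi * Complex.I * f z =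
      (∫ x in x₀..x₁, f (x + y₀ * Complex.I) / (x + y₀ * Complex.I - z)) -
      (∫ x in x₀..x₁, f (x + y₁ * Complex.I) / (x + y₁ * Complex.I - z)) +
      Complex.I * (∫ y in y₀..y₁, f (x₁ + y * Complex.I) / (x₁ + y * Complex.I - z)) -
      Complex.I * (∫ y in y₀..y₁, f (x₀ + y * Complex.I) / (x₀ + y * Complex.I - z)) := by
  have lx : x₀ ≤ x₁ := (hx.1.trans hx.2).le
  have ly : y₀ ≤ y₁ := (hy.1.trans hy.2).le
  have hz : AnalyticAt ℂ f z := hf z (Ioo_subset_Icc_self hx) (Ioo_subset_Icc_self hy)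
  have h0 := Complex.integral_boundary_rect_eq_zero_of_differentiable_on_off_countable
    (dslope f z) ⟨x₀, y₀⟩ ⟨x₁, y₁⟩ {z} (countable_singleton z) (by
      intro ζ hζ
      rw [uIcc_of_le lx, uIcc_of_le ly] at hζ
      rcases eq_or_ne ζ z with rfl | hne
      · exact (continuousAt_dslope_same.2 hz.differentiableAt).continuousWithinAt
      · exact ((continuousAt_dslope_of_ne hne).2
          (hf ζ hζ.1 hζ.2).continuousAt).continuousWithinAt) (by
      intro ζ hζ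
      rw [min_eq_left lx, max_eq_right lx, min_eq_left ly, max_eq_right ly] at hζ
      exact (differentiableAt_dslope_of_ne hζ.2).2
        (hf ζ (Ioo_subset_Icc_self hζ.1.1) (Ioo_subset_Icc_self hζ.1.2)).differentiableAt)
  simp only [smul_eq_mul] at h0
  have d1 : ∀ (y t : ℝ), HasDerivAt (fun x : ℝ => (x : ℂ) + y * Complex.I - z) 1 t := fun y t =>
    ((Complex.ofRealCLM.hasDerivAt (x := t)).add_const _).sub_const _
  have d2 : ∀ (x t : ℝ), HasDerivAt (fun y : ℝ => (x : ℂ) + y * Complex.I - z) Complex.I t :=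
    fun x t => by
      have := (((Complex.ofRealCLM.hasDerivAt (x := t)).mul_const Complex.I).const_add
        (x : ℂ)).sub_const z
      simpa using this
  have i0 : ∀ x y : ℝ, ((x : ℂ) + y * Complex.I).im = y := fun x y => by simp
  have r0 : ∀ x y : ℝ, ((x : ℂ) + y * Complex.I).re = x := fun x y => by simp
  have n1 : ∀ x y : ℝ, y ≠ z.im → (x : ℂ) + y * Complex.I ≠ z := fun x y h h' =>
    h (by rw [← h', i0])
  have n2 : ∀ x y : ℝ, x ≠ z.re → (x : ℂ) + y * Complex.I ≠ z := fun x y h h' =>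
    h (by rw [← h', r0])
  have a1 : ∀ y ∈ Icc y₀ y₁, ∀ t ∈ uIcc x₀ x₁, AnalyticAt ℂ f (t + y * Complex.I) :=
    fun y h t ht => hf _ (by rwa [r0, ← uIcc_of_le lx]) (by rwa [i0])
  have a2 : ∀ x ∈ Icc x₀ x₁, ∀ t ∈ uIcc y₀ y₁, AnalyticAt ℂ f (x + t * Complex.I) :=
    fun x h t ht => hf _ (by rwa [r0]) (by rwa [i0, ← uIcc_of_le ly])
  have s1 := Rect.split (γ := fun x : ℝ => (x : ℂ) + y₀ * Complex.I) (by fun_prop)
    (fun t => n1 t _ hy.1.ne) (a1 y₀ (left_mem_Icc.2 ly))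
  have s2 := Rect.split (γ := fun x : ℝ => (x : ℂ) + y₁ * Complex.I) (by fun_prop)
    (fun t => n1 t _ hy.2.ne') (a1 y₁ (right_mem_Icc.2 ly))
  have s3 := Rect.split (γ := fun y : ℝ => (x₁ : ℂ) + y * Complex.I) (by fun_prop)
    (fun t => n2 _ t hx.2.ne') (a2 x₁ (right_mem_Icc.2 lx))
  have s4 := Rect.split (γ := fun y : ℝ => (x₀ : ℂ) + y * Complex.I) (by fun_prop)
    (fun t => n2 _ t hx.1.ne) (a2 x₀ (left_mem_Icc.2 lx))
  have t1 := Rect.ftc (a := x₀) (b := x₁) (d1 y₀) fun t =>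
    Or.inr (by rw [Complex.sub_im, i0]; exact sub_ne_zero.2 hy.1.ne)
  have t2 := Rect.ftc (a := x₀) (b := x₁) (d1 y₁) fun t =>
    Or.inr (by rw [Complex.sub_im, i0]; exact sub_ne_zero.2 hy.2.ne')
  have t3 := Rect.ftc (a := y₀) (b := y₁) (d2 x₁) fun t =>
    Or.inl (by rw [Complex.sub_re, r0]; exact sub_pos.2 hx.2)
  have t4 := Rect.ftc (a := y₀) (b := y₁) (fun t => (d2 x₀ t).fun_neg) fun t =>
    Or.inl (by rw [Complex.neg_re, Complex.sub_re, r0, neg_sub]; exact sub_pos.2 hx.1)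
  simp only [inv_neg, intervalIntegral.integral_neg, neg_mul_neg] at t4
  have l1 := Rect.log_pos (w := (x₀ : ℂ) + y₁ * Complex.I - z)
    (by rw [Complex.sub_im, i0]; exact sub_pos.2 hy.2)
  have l2 := Rect.log_pos (w := -((x₀ : ℂ) + y₀ * Complex.I - z))
    (by rw [Complex.neg_im, Complex.sub_im, i0, neg_sub]; exact sub_pos.2 hy.1)
  rw [neg_neg] at l2
  rw [s1, s2, s3, s4]
  linear_combination -h0 - f z * (t1 - t2 + t3 - t4 + l1 + l2)

end Vale.Agent.P290
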