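import Vale.Agent.P290.Mfd

/-! The two-form. -/

open Set Filter Metric
open scoped Manifold ContDiff Topology

noncomputable section

namespace Vale.Agent.P290

variable {X : Type} [TopologicalSpace X] [ChartedSpace C2 X] [IsManifold 𝓘(ℂ, C2) ω X]
  {E : Type} [NormedAddCommGroup E] [NormedSpace ℂ E] [FiniteDimensional ℂ E]
  {A : Type} [NormedAddCommGroup A] [NormedSpace ℂ A] [FiniteDimensional ℂ A]
  {σ : Form2 X}

namespace Sg

/-- the basis vectors -/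
abbrev e (i : Fin 2) : C2 := EuclideanSpace.single i 1

theorem expand (u : C2) : u = u 0 • e 0 + u 1 • e 1 := by
  ext i
  fin_cases i <;> simp

theorem swap {B : C2 →ₗ[ℂ] C2 →ₗ[ℂ] ℂ} (h : ∀ u, B u u = 0) (u v : C2) : B u v = -B v u := by
  have := h (u + v)
  simp only [map_add, LinearMap.add_apply, h] at this
  linear_combination this

theorem det {B : C2 →ₗ[ℂ] C2 →ₗ[ℂ] ℂ} (h : ∀ u, B u u = 0) (L : C2 →L[ℂ] C2) (u v : C2) :
    B (L u) (L v) = B (L (e 0)) (L (e 1)) * (u 0 * v 1 - u 1 * v 0) := by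
  have h1 := swap h (L (e 1)) (L (e 0))
  conv_lhs => rw [expand u, expand v]
  simp only [map_add, map_smul, LinearMap.add_apply, LinearMap.smul_apply, smul_eq_mul, h, h1]
  ring

theorem det' {B : C2 →ₗ[ℂ] C2 →ₗ[ℂ] ℂ} (h : ∀ u, B u u = 0) (u v : C2) :
    B u v = B (e 0) (e 1) * (u 0 * v 1 - u 1 * v 0) :=
  det h (ContinuousLinearMap.id ℂ C2) u v

theorem ne {B : C2 →ₗ[ℂ] C2 →ₗ[ℂ] ℂ} (h : ∀ u, B u u = 0) (h0 : B ≠ 0) {L : C2 →L[ℂ] C2}
    (hL : Function.Surjective L) : B (L (e 0)) (L (e 1)) ≠ 0 := fun k => h0 (by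
  refine LinearMap.ext fun u => LinearMap.ext fun v => ?_
  obtain ⟨u, rfl⟩ := hL u
  obtain ⟨v, rfl⟩ := hL v
  rw [det h, k, zero_mul]
  rfl)

theorem an_apply {G : E → C2} {z : E} (h : AnalyticAt ℂ G z) (i : Fin 2) :
    AnalyticAt ℂ (fun w => G w i) z :=
  ((EuclideanSpace.proj i : C2 →L[ℂ] ℂ).analyticAt _).comp h

theorem an_fderiv {V : Type} [NormedAddCommGroup V] [NormedSpace ℂ V] [CompleteSpace V]
    {G : E → V} {z : E} (h : AnalyticAt ℂ G z) (u : E) :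
    AnalyticAt ℂ (fun w => fderiv ℂ G w u) z :=
  ((ContinuousLinearMap.apply ℂ V u).analyticAt _).comp h.fderiv

end Sg

theorem sg_alt (hσ : IsSympl σ) (x : X) (u : C2) : sg σ x u u = 0 := hσ.alt x u

theorem sg_swap (hσ : IsSympl σ) (x : X) (u v : C2) : sg σ x u v = -sg σ x v u :=
  Sg.swap (sg_alt hσ x) u v

theorem sg_cramer (hσ : IsSympl σ) (x : X) (u v w : C2) :
    sg σ x u w • v + sg σ x v u • w = sg σ x v w • u := by
  rw [Sg.det' (sg_alt hσ x) u w, Sg.det' (sg_alt hσ x) v u, Sg.det' (sg_alt hσ x) v w]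
  ext i
  fin_cases i
  · simp only [Fin.zero_eta, PiLp.add_apply, PiLp.smul_apply, smul_eq_mul]
    ring
  · simp only [Fin.mk_one, PiLp.add_apply, PiLp.smul_apply, smul_eq_mul]
    ring

theorem sg_nondeg (hσ : IsSympl σ) (x : X) {u : C2} (h : ∀ v, sg σ x u v = 0) : u = 0 := by
  have h0 : sg σ x (Sg.e 0) (Sg.e 1) ≠ 0 :=
    Sg.ne (sg_alt hσ x) (hσ.ne x) (L := ContinuousLinearMap.id ℂ C2) Function.surjective_id
  have h1 := h (Sg.e 0)
  have h2 := h (Sg.e 1)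
  rw [Sg.det' (sg_alt hσ x)] at h1 h2
  have h3 : u 1 = 0 := by simpa using (mul_eq_zero.1 h1).resolve_left h0
  have h4 : u 0 = 0 := by simpa using (mul_eq_zero.1 h2).resolve_left h0
  rw [Sg.expand u, h3, h4, zero_smul, zero_smul, add_zero]

/-- The form in a chart is an analytic multiple of the determinant. -/
theorem sg_chart (hσ : IsSympl σ) (x₀ : X) : ∃ ρ : C2 → ℂ,
    AnalyticOnNhd ℂ ρ (chartAt C2 x₀).target ∧ ∀ q ∈ (chartAt C2 x₀).target, ρ q ≠ 0 ∧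
      ∀ u v : C2, sg σ ((chartAt C2 x₀).symm q) (dif (chartAt C2 x₀).symm q u)
        (dif (chartAt C2 x₀).symm q v) = ρ q * (u 0 * v 1 - u 1 * v 0) :=
  ⟨fun q => sg σ ((chartAt C2 x₀).symm q) (dif (chartAt C2 x₀).symm q (Sg.e 0))
    (dif (chartAt C2 x₀).symm q (Sg.e 1)), hσ.hol x₀ _ _, fun _ hq =>
      ⟨Sg.ne (sg_alt hσ _) (hσ.ne _) (dif_symm_bij x₀ hq).2, Sg.det (sg_alt hσ _) _⟩⟩

theorem sg_analytic (hσ : IsSympl σ) {F : E × A → X} {z : E} (hF : Hol F (z, 0)) (u v : A) :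
    AnalyticAt ℂ (fun w => sg σ (F (w, 0)) (dT F w u) (dT F w v)) z := by
  obtain ⟨ρ, hρ, h1⟩ := sg_chart hσ (F (z, 0))
  have hs := mem_chart_source C2 (F (z, 0))
  have hG := (holF_chart (F (z, 0)) hs).comp hF
  have hi : AnalyticAt ℂ (fun w : E => ((w, 0) : E × A)) z := analyticAt_id.prod analyticAt_const
  have a1 := (hρ _ ((chartAt C2 (F (z, 0))).map_source hs)).comp_of_eq (hG.comp_of_eq hi rfl) rfl
  have a2 := fun (u : A) i => Sg.an_apply ((Sg.an_fderiv hG (0, u)).comp_of_eq hi rfl) i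
  refine (a1.mul (((a2 u 0).mul (a2 v 1)).sub ((a2 u 1).mul (a2 v 0)))).congr ?_
  filter_upwards [hi.continuousAt.eventually (hF.ev.and
    (hF.cont.eventually ((chartAt C2 (F (z, 0))).open_source.mem_nhds hs)))] with w hw
  have h2 := (h1 _ ((chartAt C2 (F (z, 0))).map_source hw.2)).2
    (fderiv ℂ (fun w => chartAt C2 (F (z, 0)) (F w)) (w, 0) (0, u))
    (fderiv ℂ (fun w => chartAt C2 (F (z, 0)) (F w)) (w, 0) (0, v))
  rw [← dif_chart _ hw.1 hw.2, ← dif_chart _ hw.1 hw.2, ← dT_eq hw.1, ← dT_eq hw.1,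
    (chartAt C2 (F (z, 0))).left_inv hw.2] at h2
  exact h2.symm

/-- The Hamiltonian vector field in a chart. -/
theorem ham_chart (hσ : IsSympl σ) {y : X → ℂ} {x₀ : X} (hy : HolF y x₀) :
    ∃ v : C2 → C2, AnalyticAt ℂ v (chartAt C2 x₀ x₀) ∧ ∀ᶠ q in 𝓝 (chartAt C2 x₀ x₀), ∀ u : C2,
      (∀ w, sg σ ((chartAt C2 x₀).symm q) (dif (chartAt C2 x₀).symm q u) w =
        dfn y ((chartAt C2 x₀).symm q) w) ↔ u = v q := by
  obtain ⟨ρ, hρ, h1⟩ := sg_chart hσ x₀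
  have hs := mem_chart_source C2 x₀
  have ht := (chartAt C2 x₀).map_source hs
  have hy' : HolF y ((chartAt C2 x₀).symm (chartAt C2 x₀ x₀)) := by
    rwa [(chartAt C2 x₀).left_inv hs]
  have hY := hy'.comp (hol_symm x₀ ht)
  refine ⟨fun q => (ρ q)⁻¹ • (fderiv ℂ (fun w => y ((chartAt C2 x₀).symm w)) q (Sg.e 1) • Sg.e 0 -
    fderiv ℂ (fun w => y ((chartAt C2 x₀).symm w)) q (Sg.e 0) • Sg.e 1),
    ((hρ _ ht).inv (h1 _ ht).1).smul (((Sg.an_fderiv hY _).smul analyticAt_const).sub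
      ((Sg.an_fderiv hY _).smul analyticAt_const)), ?_⟩
  filter_upwards [(chartAt C2 x₀).open_target.mem_nhds ht,
    (hol_symm x₀ ht).cont.eventually hy'.ev] with q hq hq' u
  obtain ⟨h2, h3⟩ := h1 q hq
  have h4 := dfn_comp hq' (hol_symm x₀ hq)
  generalize fderiv ℂ (fun w => y ((chartAt C2 x₀).symm w)) q = D at h4 ⊢
  constructor
  · intro h
    have a0 := h (dif (chartAt C2 x₀).symm q (Sg.e 0))
    have a1 := h (dif (chartAt C2 x₀).symm q (Sg.e 1))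
    rw [h3, ← h4] at a0 a1
    rw [← a0, ← a1]
    ext i
    fin_cases i <;> simp [h2]
  · intro h w
    obtain ⟨w, rfl⟩ := (dif_symm_bij x₀ hq).2 w
    rw [h3, ← h4, h]
    conv_rhs => rw [Sg.expand w]
    simp only [map_add, map_smul, smul_eq_mul]
    simp
    field_simp
    ring

end Vale.Agent.P290
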