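import Vale.Agent.P290.QPen

/-! Quartics with separated variables. -/

open Set Filter Metric
open scoped Manifold ContDiff Topology

noncomputable section

namespace Vale.Agent.P290

namespace SplQ

/-- The product of three of the four linear factors. -/
def cub (e : Fin 4 → ℂ) (i : Fin 4) (s t : ℂ) : ℂ := ∏ j ∈ Finset.univ.erase i, (s - e j * t)

/-- The derivative of the quartic. -/
def dq (e : Fin 4 → ℂ) (s t σ τ : ℂ) : ℂ := ∑ i, cub e i s t * (σ - e i * τ)

variable {e e' : Fin 4 → ℂ} {s t σ τ s' t' σ' τ' : ℂ}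

theorem mul_cub (e : Fin 4 → ℂ) (i : Fin 4) (s t : ℂ) :
    (s - e i * t) * cub e i s t = quart e s t :=
  Finset.mul_prod_erase Finset.univ (fun j => s - e j * t) (Finset.mem_univ i)

theorem cub_smul (e : Fin 4 → ℂ) (i : Fin 4) (c s t : ℂ) :
    cub e i (c * s) (c * t) = c ^ 3 * cub e i s t := by
  have h : ∀ j, c * s - e j * (c * t) = c * (s - e j * t) := fun j => by ring
  simp only [cub, h, Finset.prod_mul_distrib, Finset.prod_const]
  simp

theorem quart_smul (e : Fin 4 → ℂ) (c s t : ℂ) :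
    quart e (c * s) (c * t) = c ^ 4 * quart e s t := by
  rw [← mul_cub e 0, ← mul_cub e 0, cub_smul]
  ring

theorem cub_zero (e : Fin 4 → ℂ) (i : Fin 4) : cub e i 0 0 = 0 := by
  simpa using cub_smul e i 0 0 0

theorem cub_ne (he : Function.Injective e) {i : Fin 4} (hs : s = e i * t) (ht : t ≠ 0) :
    cub e i s t ≠ 0 := by
  refine Finset.prod_ne_zero_iff.2 fun j hj h => ?_
  rw [hs, ← sub_mul, mul_eq_zero, sub_eq_zero] at h
  exact h.elim (fun h => (Finset.ne_of_mem_erase hj) (he h).symm) ht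

theorem root (h0 : s ≠ 0 ∨ t ≠ 0) (h : quart e s t = 0) : ∃ i, s = e i * t ∧ t ≠ 0 := by
  obtain ⟨i, -, hi⟩ := Finset.prod_eq_zero_iff.1 h
  rw [sub_eq_zero] at hi
  refine ⟨i, hi, fun ht => ?_⟩
  simp [hi, ht] at h0

theorem dq_root {i : Fin 4} (hs : s = e i * t) : dq e s t σ τ = cub e i s t * (σ - e i * τ) := by
  refine Finset.sum_eq_single i (fun j _ hj => ?_) (by simp)
  rw [cub, Finset.prod_eq_zero (i := i) (by simp [hj.symm]) (by rw [hs, sub_self]), zero_mul]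

theorem dq_ne (he : Function.Injective e) (h0 : s ≠ 0 ∨ t ≠ 0) : ∃ σ τ, dq e s t σ τ ≠ 0 := by
  by_cases h : quart e s t = 0
  · obtain ⟨i, hi, ht⟩ := root h0 h
    exact ⟨1, 0, by rw [dq_root hi]; simpa using cub_ne he hi ht⟩
  · refine ⟨s, t, ?_⟩
    simp only [dq, mul_comm (cub _ _ _ _), mul_cub]
    simpa using h

theorem minor (he : Function.Injective e) (hq : quart e s t = quart e' s' t')
    (hd : dq e s t σ τ = dq e' s' t' σ' τ') (h1 : s * σ' = s' * σ) (h2 : s * τ' = t' * σ)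
    (h3 : t * σ' = s' * τ) (h4 : t * τ' = t' * τ) : s * τ = t * σ := by
  by_cases hs : s' = 0
  · by_cases ht : t' = 0
    · by_cases h0 : s ≠ 0 ∨ t ≠ 0
      · subst hs ht
        obtain ⟨i, hi, ht⟩ := root (e := e) h0 (by rw [hq, ← mul_cub e' 0, cub_zero, mul_zero])
        rw [dq_root hi] at hd
        simp only [dq, cub_zero, zero_mul, Finset.sum_const_zero, mul_eq_zero, sub_eq_zero] at hd
        rw [hd.resolve_left (cub_ne he hi ht), hi]
        ring
      · push Not at h0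
        simp [h0.1, h0.2]
    · exact mul_left_cancel₀ ht (by linear_combination t * h2 - s * h4)
  · exact mul_left_cancel₀ hs (by linear_combination t * h1 - s * h3)

theorem has_lin (c : ℂ) (a b : Fin 4) (w : Fin 4 → ℂ) :
    HasFDerivAt (fun w : Fin 4 → ℂ => w a - c * w b)
      (ContinuousLinearMap.proj a - c • ContinuousLinearMap.proj b : (Fin 4 → ℂ) →L[ℂ] ℂ) w :=
  (ContinuousLinearMap.proj a - c • ContinuousLinearMap.proj b : (Fin 4 → ℂ) →L[ℂ] ℂ).hasFDerivAt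

theorem has_quart (e : Fin 4 → ℂ) (a b : Fin 4) (w : Fin 4 → ℂ) :
    ∃ L : (Fin 4 → ℂ) →L[ℂ] ℂ, HasFDerivAt (fun w : Fin 4 → ℂ => quart e (w a) (w b)) L w ∧
      ∀ ξ, L ξ = dq e (w a) (w b) (ξ a) (ξ b) :=
  ⟨_, HasFDerivAt.finsetProd fun i _ => has_lin (e i) a b w, fun ξ => by simp [dq, cub]⟩

/-- The equation. -/
def eqn (e e' : Fin 4 → ℂ) (w : Fin 4 → ℂ) (_ : Fin 1) : ℂ :=
  quart e (w 0) (w 1) - quart e' (w 2) (w 3)

theorem fderiv_eqn (e e' : Fin 4 → ℂ) (w ξ : Fin 4 → ℂ) (r : Fin 1) : fderiv ℂ (eqn e e') w ξ r =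
    dq e (w 0) (w 1) (ξ 0) (ξ 1) - dq e' (w 2) (w 3) (ξ 2) (ξ 3) := by
  obtain ⟨L, hL, hL'⟩ := has_quart e 0 1 w
  obtain ⟨M, hM, hM'⟩ := has_quart e' 2 3 w
  have h : HasFDerivAt (eqn e e') (ContinuousLinearMap.pi fun _ : Fin 1 => L - M) w :=
    hasFDerivAt_pi.2 fun _ => hL.sub hM
  rw [h.fderiv, ← hL', ← hM']
  rfl

theorem an_lin (c : ℂ) (a b : Fin 4) (w : Fin 4 → ℂ) :
    AnalyticAt ℂ (fun w : Fin 4 → ℂ => w a - c * w b) w :=
  (ContinuousLinearMap.proj a - c • ContinuousLinearMap.proj b :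
    (Fin 4 → ℂ) →L[ℂ] ℂ).analyticAt w

theorem ne_cases {w : Fin 4 → ℂ} (hw : w ≠ 0) : (w 0 ≠ 0 ∨ w 1 ≠ 0) ∨ (w 2 ≠ 0 ∨ w 3 ≠ 0) := by
  by_contra h
  push Not at h
  refine hw (funext fun i => ?_)
  fin_cases i
  exacts [h.1.1, h.1.2, h.2.1, h.2.2]

theorem tact_one (c : Fin 1 → ℂ) (w : Fin 4 → ℂ) (i : Fin 4) :
    tact (fun (_ : Fin 1) (_ : Fin 4) => 1) c w i = c 0 * w i := by simp [tact]

theorem eqs (he : Function.Injective e) (he' : Function.Injective e') :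
    Eqs (fun (_ : Fin 1) (_ : Fin 4) => 1)
      {w : Fin 4 → ℂ | w ≠ 0 ∧ quart e (w 0) (w 1) = quart e' (w 2) (w 3)} (eqn e e')
      fun _ _ => 4 where
  an := fun w _ => analyticAt_pi_iff.2 fun _ =>
    (Finset.analyticAt_fun_prod _ fun i _ => an_lin (e i) 0 1 w).sub
      (Finset.analyticAt_fun_prod _ fun i _ => an_lin (e' i) 2 3 w)
  zero := fun w hw => funext fun _ => sub_eq_zero.2 hw.2
  hom := fun c w => funext fun r => by
    simp only [eqn, tact_one, quart_smul]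
    simp [tact, eqn, mul_sub]
  surj := fun w hw y => by
    have h : ∃ ξ, fderiv ℂ (eqn e e') w ξ 0 ≠ 0 := by
      rcases ne_cases hw.1 with h | h
      · obtain ⟨σ, τ, h⟩ := dq_ne he h
        exact ⟨![σ, τ, 0, 0], by rw [fderiv_eqn]; simpa [dq] using h⟩
      · obtain ⟨σ, τ, h⟩ := dq_ne he' h
        exact ⟨![0, 0, σ, τ], by rw [fderiv_eqn]; simpa [dq] using h⟩
    obtain ⟨ξ, hξ⟩ := h
    refine ⟨(y 0 / fderiv ℂ (eqn e e') w ξ 0) • ξ, funext fun r => ?_⟩
    rw [Subsingleton.elim r 0, map_smul, Pi.smul_apply, smul_eq_mul, div_mul_cancel₀ _ hξ]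
  cy := fun _ => by simp
  dim := by simp

/-- The first pair of forms. -/
def pa (e e' : Fin 4 → ℂ) (p : Fin 4 × Fin 4) (w : Fin 4 → ℂ) : ℂ × ℂ :=
  (w 0 - e p.1 * w 1, w 2 - e' p.2 * w 3)

/-- The second pair of forms. -/
def pb (e e' : Fin 4 → ℂ) (p : Fin 4 × Fin 4) (w : Fin 4 → ℂ) : ℂ × ℂ :=
  (cub e' p.2 (w 2) (w 3), cub e p.1 (w 0) (w 1))

theorem pen (he : Function.Injective e) (he' : Function.Injective e') (p : Fin 4 × Fin 4) :
    Pen (fun (_ : Fin 1) (_ : Fin 4) => 1)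
      {w : Fin 4 → ℂ | w ≠ 0 ∧ quart e (w 0) (w 1) = quart e' (w 2) (w 3)} (pa e e' p)
      (pb e e' p) where
  an := fun w _ => (an_lin _ 0 1 w).prod (an_lin _ 2 3 w)
  an' := fun w _ => (Finset.analyticAt_fun_prod _ fun i _ => an_lin (e' i) 2 3 w).prod
    (Finset.analyticAt_fun_prod _ fun i _ => an_lin (e i) 0 1 w)
  hom := fun c w hc => ⟨c 0, hc 0, by
    simp only [pa, tact_one, Prod.smul_mk, smul_eq_mul]
    congr 1 <;> ring⟩
  hom' := fun c w hc => ⟨c 0 ^ 3, pow_ne_zero _ (hc 0), by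
    simp only [pb, tact_one, Prod.smul_mk, smul_eq_mul, cub_smul]⟩
  ne := fun w hw => by
    by_cases h : pa e e' p w = 0
    · right
      simp only [pa, Prod.mk_eq_zero, sub_eq_zero] at h
      simp only [pb, ne_eq, Prod.mk_eq_zero, not_and_or]
      by_cases h1 : w 1 = 0
      · refine Or.inl (cub_ne he' h.2 fun h3 => ?_)
        simpa [h.1, h.2, h1, h3] using ne_cases hw.1
      · exact Or.inr (cub_ne he h.1 h1)
    · exact Or.inl h
  cross := fun w hw => by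
    simp only [pa, pb, mul_cub]
    exact hw.2

theorem cr_pa (e e' : Fin 4 → ℂ) (p : Fin 4 × Fin 4) (w ξ : Fin 4 → ℂ) : cr (pa e e' p) w ξ =
    (w 0 - e p.1 * w 1) * (ξ 2 - e' p.2 * ξ 3) - (w 2 - e' p.2 * w 3) * (ξ 0 - e p.1 * ξ 1) := by
  have h : HasFDerivAt (pa e e' p) _ w := (has_lin (e p.1) 0 1 w).prodMk (has_lin (e' p.2) 2 3 w)
  rw [cr, h.fderiv]
  rfl

end SplQ

open SplQ

variable {X : Type} [MetricSpace X] [CompactSpace X] [ChartedSpace C2 X] [IsManifold 𝓘(ℂ, C2) ω X]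

theorem oka_splitQ (h : IsSplitQ X) : IsOka X := by
  obtain ⟨e, e', he, he', h⟩ := h
  refine oka_of_quot h (fun w hw k => ?_) (eqs he he') (pen he he') fun w hw ξ hξ hc => ?_
  · obtain ⟨i, hi⟩ := Function.ne_iff.1 hw.1
    refine ⟨Pi.single i 1, fun j hj => ?_, fun k' => by simp [Subsingleton.elim k' k]⟩
    by_cases hji : j = i
    · rwa [hji]
    · simp [hji] at hj
  · have h0 : e 0 - e 1 ≠ 0 := sub_ne_zero.2 fun h => by simpa using he h
    have h0' : e' 0 - e' 1 ≠ 0 := sub_ne_zero.2 fun h => by simpa using he' h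
    have c00 := (hc (0, 0)).1
    have c01 := (hc (0, 1)).1
    have c10 := (hc (1, 0)).1
    have c11 := (hc (1, 1)).1
    simp only [cr_pa] at c00 c01 c10 c11
    have hD : w 1 * ξ 3 = w 3 * ξ 1 := mul_left_cancel₀ (mul_ne_zero h0 h0')
      (by linear_combination c00 - c01 - c10 + c11)
    have hB : w 0 * ξ 3 = w 3 * ξ 0 := mul_left_cancel₀ h0'
      (by linear_combination c01 - c00 + (e' 0 - e' 1) * e 0 * hD)
    have hC : w 1 * ξ 2 = w 2 * ξ 1 := mul_left_cancel₀ h0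
      (by linear_combination c10 - c00 + (e 0 - e 1) * e' 0 * hD)
    have hA : w 0 * ξ 2 = w 2 * ξ 0 := by
      linear_combination c00 + e' 0 * hB + e 0 * hC - e 0 * e' 0 * hD
    have hd := fderiv_eqn e e' w ξ 0
    rw [hξ, Pi.zero_apply, eq_comm, sub_eq_zero] at hd
    have hE := minor he hw.2 hd hA hB hC hD
    have hF := minor he' hw.2.symm hd.symm hA.symm hC.symm hB.symm hD.symm
    have hall : ∀ i j, w i * ξ j = w j * ξ i := fun i j => by
      fin_cases i <;> fin_cases j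
      exacts [rfl, hE, hA, hB, hE.symm, rfl, hC, hD, hA.symm, hC.symm, rfl, hF, hB.symm, hD.symm,
        hF.symm, rfl]
    obtain ⟨i, hi⟩ := Function.ne_iff.1 hw.1
    have hi' : w i ≠ 0 := hi
    refine ⟨fun _ => ξ i / w i, funext fun j => ?_⟩
    simp only [orb, Finset.univ_unique, Finset.sum_singleton, Nat.cast_one, mul_one]
    field_simp
    linear_combination hall i j

end Vale.Agent.P290
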