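import Vale.Agent.P290.Int
import Vale.Agent.P290.Rect
import Vale.Agent.P290.Bis

/-! Additive splitting for boxes. -/

open Set Filter Metric
open scoped Manifold ContDiff Topology

noncomputable section

namespace Vale.Agent.P290

namespace SplitB

variable {J : Type} [Fintype J] [DecidableEq J]

theorem upd_mem {A B : J × Bool → ℝ} {j : J} {z : J → ℂ}
    (hz : ∀ k' : J × Bool, k'.1 ≠ j → co z k' ∈ Icc (A k') (B k')) {ζ : ℂ}
    (h1 : ζ.re ∈ Icc (A (j, true)) (B (j, true)))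
    (h2 : ζ.im ∈ Icc (A (j, false)) (B (j, false))) : Function.update z j ζ ∈ Box A B := by
  have key : ∀ k' : J × Bool, co (Function.update z j ζ) k' ∈ Icc (A k') (B k') := by
    rintro ⟨i, t⟩
    by_cases hi : i = j
    · subst hi
      cases t
      · simpa [co] using h2
      · simpa [co] using h1
    · have := hz (i, t) hi
      simpa [co, Function.update_of_ne hi] using this
  exact ⟨fun k' => (key k').1, fun k' => (key k').2⟩

theorem upd_analytic (j : J) (w : (J → ℂ) × ℂ) :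
    AnalyticAt ℂ (fun v : (J → ℂ) × ℂ => Function.update v.1 j v.2) w := by
  refine analyticAt_pi_iff.2 fun i => ?_
  by_cases hi : i = j
  · subst hi
    simpa using analyticAt_snd
  · simp only [Function.update_of_ne hi]
    exact ((ContinuousLinearMap.proj (R := ℂ) (φ := fun _ : J => ℂ) i).analyticAt _).comp
      analyticAt_fst

theorem side {f : (J → ℂ) → ℂ} {A B : J × Bool → ℝ} (hf : AnalyticOnNhd ℂ f (Box A B)) {j : J}
    {z : J → ℂ} (hz : ∀ k' : J × Bool, k'.1 ≠ j → co z k' ∈ Icc (A k') (B k')) {γ : ℝ → ℂ}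
    (hγ : Continuous γ) {α β : ℝ}
    (h : ∀ s ∈ uIcc α β, (γ s).re ∈ Icc (A (j, true)) (B (j, true)) ∧
      (γ s).im ∈ Icc (A (j, false)) (B (j, false)) ∧ γ s ≠ z j) :
    AnalyticAt ℂ (fun w : J → ℂ => ∫ s in α..β, f (Function.update w j (γ s)) / (γ s - w j))
      z := by
  refine analytic_integral (H := fun v : (J → ℂ) × ℂ =>
    f (Function.update v.1 j v.2) / (v.2 - v.1 j)) hγ fun s hs => ?_
  obtain ⟨h1, h2, h3⟩ := h s hs
  refine AnalyticAt.div ?_ ?_ (sub_ne_zero.2 h3)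
  · exact AnalyticAt.comp (f := fun v : (J → ℂ) × ℂ => Function.update v.1 j v.2)
      (hf _ (upd_mem hz h1 h2)) (upd_analytic j _)
  · exact analyticAt_snd.sub
      (((ContinuousLinearMap.proj (R := ℂ) (φ := fun _ : J => ℂ) j).analyticAt _).comp
        analyticAt_fst)

theorem hor {f : (J → ℂ) → ℂ} {A B : J × Bool → ℝ} (hf : AnalyticOnNhd ℂ f (Box A B)) {j : J}
    {z : J → ℂ} (hz : ∀ k' : J × Bool, k'.1 ≠ j → co z k' ∈ Icc (A k') (B k'))
    (hAB : A (j, true) ≤ B (j, true)) {y : ℝ} (hy : y ∈ Icc (A (j, false)) (B (j, false)))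
    (hne : y ≠ co z (j, false)) :
    AnalyticAt ℂ (fun w : J → ℂ => ∫ x in (A (j, true))..(B (j, true)),
      f (Function.update w j (x + y * Complex.I)) / (x + y * Complex.I - w j)) z := by
  refine side hf hz (γ := fun x : ℝ => (x : ℂ) + y * Complex.I) (by fun_prop) fun s hs => ?_
  rw [uIcc_of_le hAB] at hs
  refine ⟨by simpa using hs, by simpa using hy, fun e => hne ?_⟩
  have := congrArg Complex.im e
  simpa [co] using this

theorem ver {f : (J → ℂ) → ℂ} {A B : J × Bool → ℝ} (hf : AnalyticOnNhd ℂ f (Box A B)) {j : J}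
    {z : J → ℂ} (hz : ∀ k' : J × Bool, k'.1 ≠ j → co z k' ∈ Icc (A k') (B k'))
    (hAB : A (j, false) ≤ B (j, false)) {x : ℝ} (hx : x ∈ Icc (A (j, true)) (B (j, true)))
    (hne : x ≠ co z (j, true)) :
    AnalyticAt ℂ (fun w : J → ℂ => ∫ y in (A (j, false))..(B (j, false)),
      f (Function.update w j (x + y * Complex.I)) / (x + y * Complex.I - w j)) z := by
  refine side hf hz (γ := fun y : ℝ => (x : ℂ) + y * Complex.I) (by fun_prop) fun s hs => ?_
  rw [uIcc_of_le hAB] at hs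
  refine ⟨by simpa using hx, by simpa using hs, fun e => hne ?_⟩
  have := congrArg Complex.re e
  simpa [co] using this

theorem thick {f : (J → ℂ) → ℂ} {A B : J × Bool → ℝ} (hf : AnalyticOnNhd ℂ f (Box A B)) :
    ∃ δ > (0 : ℝ), AnalyticOnNhd ℂ f (Box (fun i => A i - δ) (fun i => B i + δ)) := by
  have : Nonempty {δ : ℝ // 0 < δ} := ⟨⟨1, one_pos⟩⟩
  have mono : ∀ d e : ℝ, d ≤ e → Box (fun i => A i - d) (fun i => B i + d) ⊆
      Box (fun i => A i - e) (fun i => B i + e) := fun d e h z hz =>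
    ⟨fun i => le_trans (by linarith) (hz.1 i), fun i => le_trans (hz.2 i) (by linarith)⟩
  obtain ⟨δ, hδ⟩ := exists_subset_nhds_of_isCompact'
    (V := fun δ : {δ : ℝ // 0 < δ} => Box (fun i => A i - δ.1) (fun i => B i + δ.1))
    (fun d e => ⟨⟨min d.1 e.1, lt_min d.2 e.2⟩, mono _ _ (min_le_left _ _),
      mono _ _ (min_le_right _ _)⟩)
    (fun _ => isCompact_box _ _) (fun _ => (isCompact_box _ _).isClosed)
    (U := {z | AnalyticAt ℂ f z}) (by
      intro z hz
      rw [mem_iInter] at hz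
      refine (hf z ⟨fun i => ?_, fun i => ?_⟩).eventually_analyticAt
      · refine le_of_forall_pos_le_add fun d hd => ?_
        have := (hz ⟨d, hd⟩).1 i
        simp only at this
        linarith
      · exact le_of_forall_pos_le_add fun d hd => (hz ⟨d, hd⟩).2 i)
  exact ⟨δ.1, δ.2, fun z hz => hδ hz⟩

theorem formula {f : (J → ℂ) → ℂ} {A B : J × Bool → ℝ} (hf : AnalyticOnNhd ℂ f (Box A B)) (j : J)
    {z : J → ℂ} (hz : ∀ k' : J × Bool, co z k' ∈ Ioo (A k') (B k')) :
    2 * Real.pi * Complex.I * f z =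
      (∫ x in (A (j, true))..(B (j, true)), f (Function.update z j
        (x + A (j, false) * Complex.I)) / (x + A (j, false) * Complex.I - z j)) -
      (∫ x in (A (j, true))..(B (j, true)), f (Function.update z j
        (x + B (j, false) * Complex.I)) / (x + B (j, false) * Complex.I - z j)) +
      Complex.I * (∫ y in (A (j, false))..(B (j, false)), f (Function.update z j
        (B (j, true) + y * Complex.I)) / (B (j, true) + y * Complex.I - z j)) -
      Complex.I * (∫ y in (A (j, false))..(B (j, false)), f (Function.update z j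
        (A (j, true) + y * Complex.I)) / (A (j, true) + y * Complex.I - z j)) := by
  have key := cauchy_rect (f := fun ζ => f (Function.update z j ζ)) (x₀ := A (j, true))
    (x₁ := B (j, true)) (y₀ := A (j, false)) (y₁ := B (j, false)) (z := z j) (by
      intro ζ h1 h2
      have h3 : AnalyticAt ℂ (fun ζ : ℂ => Function.update z j ζ) ζ :=
        AnalyticAt.comp (f := fun ζ : ℂ => ((z, ζ) : (J → ℂ) × ℂ)) (upd_analytic j (z, ζ))
          (analyticAt_const.prod analyticAt_id)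
      exact AnalyticAt.comp (f := fun ζ : ℂ => Function.update z j ζ)
        (hf _ (upd_mem (fun k' _ => Ioo_subset_Icc_self (hz k')) h1 h2)) h3)
    (by simpa [co] using hz (j, true)) (by simpa [co] using hz (j, false))
  simpa only [Function.update_eq_self] using key

end SplitB

theorem split_box {J : Type} [Fintype J] [DecidableEq J] {a b : J × Bool → ℝ} {k : J × Bool}
    {c : ℝ} (h₁ : a k ≤ c) (h₂ : c ≤ b k) :
    Split (Box a (Function.update b k c)) (Box (Function.update a k c) b) := by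
  intro f hf
  rw [box_inter h₁ h₂] at hf ⊢
  obtain ⟨A, hA⟩ : ∃ A, A = Function.update a k c := ⟨_, rfl⟩
  obtain ⟨B, hB⟩ : ∃ B, B = Function.update b k c := ⟨_, rfl⟩
  have hA' : ∀ i, i ≠ k → A i = a i := fun i hi => by rw [hA, Function.update_of_ne hi]
  have hB' : ∀ i, i ≠ k → B i = b i := fun i hi => by rw [hB, Function.update_of_ne hi]
  rw [← hA, ← hB] at hf ⊢
  clear hA hB
  by_cases hAB : A ≤ B
  swap
  · have he : Box A B = ∅ := eq_empty_iff_forall_notMem.2 fun z hz => hAB (hz.1.trans hz.2)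
    rw [he, nhdsSet_empty]
    exact ⟨0, 0, analyticOnNhd_const, analyticOnNhd_const, eventually_bot⟩
  obtain ⟨δ, hδ, hf'⟩ := SplitB.thick hf
  obtain ⟨A', hA2⟩ : ∃ A' : J × Bool → ℝ, A' = fun i => A i - δ := ⟨_, rfl⟩
  obtain ⟨B', hB2⟩ : ∃ B' : J × Bool → ℝ, B' = fun i => B i + δ := ⟨_, rfl⟩
  rw [← hA2, ← hB2] at hf'
  have hA3 : ∀ i, A' i < A i := fun i => by rw [hA2]; simp only; linarith
  have hB3 : ∀ i, B i < B' i := fun i => by rw [hB2]; simp only; linarith
  clear hA2 hB2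
  have hAB' : ∀ i, A' i ≤ B' i := fun i => (hA3 i).le.trans ((hAB i).trans (hB3 i).le)
  have hev : ∀ᶠ z in 𝓝ˢ (Box A B), ∀ i : J × Bool, co z i ∈ Ioo (A' i) (B' i) := by
    refine eventually_all.2 fun i => ?_
    have ho : IsOpen {z : J → ℂ | co z i ∈ Ioo (A' i) (B' i)} :=
      isOpen_Ioo.preimage ((continuous_apply i).comp continuous_co)
    exact ho.mem_nhdsSet.2 fun z hz => ⟨(hA3 i).trans_le (hz.1 i), (hz.2 i).trans_lt (hB3 i)⟩
  have l1 : ∀ z ∈ Box a B, ∀ i, i ≠ k → A' i < co z i := fun z hz i hi =>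
    (hA3 i).trans_le ((hA' i hi).le.trans (hz.1 i))
  have u1 : ∀ z ∈ Box a B, ∀ i, co z i < B' i := fun z hz i => (hz.2 i).trans_lt (hB3 i)
  have l2 : ∀ z ∈ Box A b, ∀ i, A' i < co z i := fun z hz i => (hA3 i).trans_le (hz.1 i)
  have u2 : ∀ z ∈ Box A b, ∀ i, i ≠ k → co z i < B' i := fun z hz i hi =>
    ((hz.2 i).trans (hB' i hi).ge).trans_lt (hB3 i)
  have m1 : ∀ z ∈ Box a B, ∀ i : J × Bool, i.1 ≠ k.1 → co z i ∈ Icc (A' i) (B' i) :=
    fun z hz i hi => ⟨(l1 z hz i fun e => hi (by rw [e])).le, (u1 z hz i).le⟩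
  have m2 : ∀ z ∈ Box A b, ∀ i : J × Bool, i.1 ≠ k.1 → co z i ∈ Icc (A' i) (B' i) :=
    fun z hz i hi => ⟨(l2 z hz i).le, (u2 z hz i fun e => hi (by rw [e])).le⟩
  have hπ : (2 * Real.pi * Complex.I : ℂ) ≠ 0 := Complex.two_pi_I_ne_zero
  obtain ⟨j, t⟩ := k
  obtain ⟨Hb, hHb⟩ : ∃ Hb : (J → ℂ) → ℂ, Hb = fun w => ∫ x in (A' (j, true))..(B' (j, true)),
    f (Function.update w j (x + A' (j, false) * Complex.I)) /
      (x + A' (j, false) * Complex.I - w j) := ⟨_, rfl⟩
  obtain ⟨Ht, hHt⟩ : ∃ Ht : (J → ℂ) → ℂ, Ht = fun w => ∫ x in (A' (j, true))..(B' (j, true)),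
    f (Function.update w j (x + B' (j, false) * Complex.I)) /
      (x + B' (j, false) * Complex.I - w j) := ⟨_, rfl⟩
  obtain ⟨Vr, hVr⟩ : ∃ Vr : (J → ℂ) → ℂ, Vr = fun w => ∫ y in (A' (j, false))..(B' (j, false)),
    f (Function.update w j (B' (j, true) + y * Complex.I)) /
      (B' (j, true) + y * Complex.I - w j) := ⟨_, rfl⟩
  obtain ⟨Vl, hVl⟩ : ∃ Vl : (J → ℂ) → ℂ, Vl = fun w => ∫ y in (A' (j, false))..(B' (j, false)),
    f (Function.update w j (A' (j, true) + y * Complex.I)) /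
      (A' (j, true) + y * Complex.I - w j) := ⟨_, rfl⟩
  have hfo : ∀ᶠ z in 𝓝ˢ (Box A B),
      2 * Real.pi * Complex.I * f z = Hb z - Ht z + Complex.I * Vr z - Complex.I * Vl z := by
    filter_upwards [hev] with z hz
    rw [hHb, hHt, hVr, hVl]
    exact SplitB.formula hf' j hz
  have aHt : AnalyticOnNhd ℂ Ht (Box a B) := fun z hz => hHt ▸
    SplitB.hor hf' (m1 z hz) (hAB' _) (right_mem_Icc.2 (hAB' _)) (u1 z hz _).ne'
  have aVr : AnalyticOnNhd ℂ Vr (Box a B) := fun z hz => hVr ▸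
    SplitB.ver hf' (m1 z hz) (hAB' _) (right_mem_Icc.2 (hAB' _)) (u1 z hz _).ne'
  cases t
  · have aVl : AnalyticOnNhd ℂ Vl (Box a B) := fun z hz => hVl ▸
      SplitB.ver hf' (m1 z hz) (hAB' _) (left_mem_Icc.2 (hAB' _)) (l1 z hz _ (by simp)).ne
    have aHb : AnalyticOnNhd ℂ Hb (Box A b) := fun z hz => hHb ▸
      SplitB.hor hf' (m2 z hz) (hAB' _) (left_mem_Icc.2 (hAB' _)) (l2 z hz _).ne
    refine ⟨fun z => (2 * Real.pi * Complex.I)⁻¹ * (-Ht z + Complex.I * Vr z - Complex.I * Vl z),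
      fun z => (2 * Real.pi * Complex.I)⁻¹ * (-Hb z),
      analyticOnNhd_const.mul ((aHt.neg.add (analyticOnNhd_const.mul aVr)).sub
        (analyticOnNhd_const.mul aVl)), analyticOnNhd_const.mul aHb.neg, ?_⟩
    filter_upwards [hfo] with z hz
    rw [← mul_sub, eq_inv_mul_iff_mul_eq₀ hπ, hz]
    ring
  · have aHb : AnalyticOnNhd ℂ Hb (Box a B) := fun z hz => hHb ▸
      SplitB.hor hf' (m1 z hz) (hAB' _) (left_mem_Icc.2 (hAB' _)) (l1 z hz _ (by simp)).ne
    have aVl : AnalyticOnNhd ℂ Vl (Box A b) := fun z hz => hVl ▸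
      SplitB.ver hf' (m2 z hz) (hAB' _) (left_mem_Icc.2 (hAB' _)) (l2 z hz _).ne
    refine ⟨fun z => (2 * Real.pi * Complex.I)⁻¹ * (Hb z - Ht z + Complex.I * Vr z),
      fun z => (2 * Real.pi * Complex.I)⁻¹ * (Complex.I * Vl z),
      analyticOnNhd_const.mul ((aHb.sub aHt).add (analyticOnNhd_const.mul aVr)),
      analyticOnNhd_const.mul (analyticOnNhd_const.mul aVl), ?_⟩
    filter_upwards [hfo] with z hz
    rw [← mul_sub, eq_inv_mul_iff_mul_eq₀ hπ, hz]

end Vale.Agent.P290
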